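import Vale.Agent.P234.Defs

/-! P234 Tch: positive bilinear forms, first variation by touching, no corners. -/

open Set Manifold Filter Metric
open scoped ContDiff Topology

namespace Vale.Agent.P234

variable {X : Type*} [NormedAddCommGroup X] [NormedSpace ℝ X]
  {P : Type*} [NormedAddCommGroup P] [NormedSpace ℝ P]

theorem bil_nonneg (g : X →L[ℝ] X →L[ℝ] ℝ) (hp : ∀ v, v ≠ 0 → 0 < g v v) (v : X) :
    0 ≤ g v v := by
  by_cases h : v = 0
  · simp [h]
  · exact (hp v h).le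

theorem bil_cs (g : X →L[ℝ] X →L[ℝ] ℝ) (hs : ∀ v w, g v w = g w v)
    (hp : ∀ v, v ≠ 0 → 0 < g v v) (v w : X) : g v w ≤ √(g v v) * √(g w w) := by
  have h := discrim_le_zero (a := g w w) (b := 2 * g v w) (c := g v v) fun t => by
    have := bil_nonneg g hp (v + t • w)
    simp only [map_add, map_smul, add_apply, smul_apply, smul_eq_mul, hs w v] at this
    linarith
  rw [← Real.sqrt_mul (bil_nonneg g hp v)]
  refine Real.le_sqrt_of_sq_le ?_
  unfold discrim at h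
  nlinarith

theorem bil_sqrt_smul (g : X →L[ℝ] X →L[ℝ] ℝ) (c : ℝ) (v : X) :
    √(g (c • v) (c • v)) = |c| * √(g v v) := by
  simp only [map_smul, smul_apply, smul_eq_mul]
  rw [← mul_assoc, ← sq, Real.sqrt_mul (sq_nonneg c), Real.sqrt_sq_eq_abs]

theorem bil_ext (g : X →L[ℝ] X →L[ℝ] ℝ) (hp : ∀ v, v ≠ 0 → 0 < g v v) {u v : X}
    (h : ∀ w, g u w = g v w) : u = v := by
  by_contra hne
  have := hp _ (sub_ne_zero.2 hne)
  rw [map_sub g, sub_apply, h, sub_self] at this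
  exact lt_irrefl _ this

theorem bil_lower [FiniteDimensional ℝ X] {T : Type*} [TopologicalSpace T]
    {G : T → X →L[ℝ] X →L[ℝ] ℝ} {θ : T} (hG : ContinuousAt G θ)
    (hp : ∀ v, v ≠ 0 → 0 < G θ v v) :
    ∃ C > 0, ∀ᶠ θ' in 𝓝 θ, ∀ v, ‖v‖ ≤ C * √(G θ' v v) := by
  have := FiniteDimensional.proper_real X
  obtain ⟨m, hm, h1⟩ := (isCompact_sphere (0 : X) 1).exists_forall_le' (a := 0)
    (f := fun v => G θ v v) (by fun_prop) fun v hv => hp v (by rintro rfl; simp at hv)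
  have h2 : ∀ v, m * ‖v‖ ^ 2 ≤ G θ v v := fun v => by
    by_cases h : v = 0
    · simp [h]
    have hn : 0 < ‖v‖ := norm_pos_iff.2 h
    have := h1 (‖v‖⁻¹ • v) (by
      rw [mem_sphere_zero_iff_norm, norm_smul, norm_inv, norm_norm, inv_mul_cancel₀ hn.ne'])
    simp only [map_smul, smul_apply, smul_eq_mul] at this
    calc m * ‖v‖ ^ 2 ≤ ‖v‖⁻¹ * (‖v‖⁻¹ * G θ v v) * ‖v‖ ^ 2 := by gcongr
      _ = _ := by field_simp
  refine ⟨√(2 / m), by positivity, ?_⟩
  have hev : ∀ᶠ θ' in 𝓝 θ, ‖G θ' - G θ‖ < m / 2 :=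
    ((tendsto_iff_norm_sub_tendsto_zero (E := X →L[ℝ] X →L[ℝ] ℝ)).1 hG).eventually
      (gt_mem_nhds (half_pos hm))
  filter_upwards [hev] with θ' h3 v
  have h4 := ((G θ' - G θ).le_opNorm₂ v v).trans (show ‖G θ' - G θ‖ * ‖v‖ * ‖v‖ ≤
    m / 2 * ‖v‖ * ‖v‖ by gcongr)
  rw [sub_apply, sub_apply, Real.norm_eq_abs, abs_le] at h4
  rw [← Real.sqrt_mul (by positivity)]
  refine Real.le_sqrt_of_sq_le ?_
  rw [div_mul_eq_mul_div, le_div_iff₀ hm]
  have := h2 v
  nlinarith [h4.1]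

/-- A positive form, seen as a map to the dual, is an isomorphism. -/
theorem bil_equiv [FiniteDimensional ℝ X] (g : X →L[ℝ] X →L[ℝ] ℝ)
    (hp : ∀ v, v ≠ 0 → 0 < g v v) :
    ∃ L : X ≃L[ℝ] (X →L[ℝ] ℝ), (L : X →L[ℝ] (X →L[ℝ] ℝ)) = g := by
  have hi : Function.Injective (g : X →ₗ[ℝ] (X →L[ℝ] ℝ)) := fun u v h =>
    bil_ext g hp fun w => by rw [show g u = g v from h]
  have hd : Module.finrank ℝ X = Module.finrank ℝ (X →L[ℝ] ℝ) := by
    rw [← (LinearMap.toContinuousLinearMap : (X →ₗ[ℝ] ℝ) ≃ₗ[ℝ] (X →L[ℝ] ℝ)).finrank_eq]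
    exact Subspace.dual_finrank_eq.symm
  exact ⟨(LinearMap.linearEquivOfInjective _ hi hd).toContinuousLinearEquiv, by ext; rfl⟩

namespace Tch

theorem slope_line {F : X → ℝ} (hd : DifferentiableAt ℝ F 0) (ζ : X) :
    Tendsto (fun t : ℝ => t⁻¹ * (F (t • ζ) - F 0)) (𝓝[>] 0) (𝓝 (fderiv ℝ F 0 ζ)) := by
  have a : HasDerivAt (fun t : ℝ => t • ζ) ζ 0 := by
    simpa using (hasDerivAt_id (0 : ℝ)).smul_const ζ
  have b : HasFDerivAt F (fderiv ℝ F 0) ((0 : ℝ) • ζ) := by rw [zero_smul]; exact hd.hasFDerivAt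
  have c : HasDerivAt (fun t : ℝ => F (t • ζ)) (fderiv ℝ F 0 ζ) 0 :=
    HasFDerivAt.comp_hasDerivAt (f := fun t : ℝ => t • ζ) (0 : ℝ) b a
  simpa using c.tendsto_slope_zero_right

theorem eq_of_forall {x y c : ℝ} (h : ∀ s : ℝ, s * x ≤ s * y + s ^ 2 * c) : x = y := by
  have := discrim_le_zero (a := c) (b := y - x) (c := 0) fun s => by have := h s; nlinarith
  unfold discrim at this
  nlinarith [sq_nonneg (y - x)]

end Tch

open Tch

theorem touch {M : Type*} [MetricSpace M] (g : X →L[ℝ] X →L[ℝ] ℝ) (hs : ∀ v w, g v w = g w v)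
    (hp : ∀ v, v ≠ 0 → 0 < g v v) {e : X → M} {y : M} {α : X}
    (h1 : ∀ᶠ ζ in 𝓝 0, dist (e 0) (e ζ) ≤ √(g ζ ζ)) (h2 : dist (e 0) y = √(g α α))
    (h3 : ∀ᶠ t in 𝓝[>] (0 : ℝ), dist (e (t • α)) y ≤ (1 - t) * √(g α α))
    (hd : DifferentiableAt ℝ (fun ζ => dist (e ζ) y ^ 2) 0) :
    HasFDerivAt (fun ζ => dist (e ζ) y ^ 2) ((-2 : ℝ) • g α) 0 := by
  set D := fderiv ℝ (fun ζ => dist (e ζ) y ^ 2) 0 with hD
  have ha := Real.sqrt_nonneg (g α α)
  have k1 : ∀ ζ, -2 * (√(g α α) * √(g ζ ζ)) ≤ D ζ := fun ζ => by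
    refine ge_of_tendsto (slope_line hd ζ) ?_
    have ht : Tendsto (fun t : ℝ => t • ζ) (𝓝[>] 0) (𝓝 0) := by
      have : Tendsto (fun t : ℝ => t • ζ) (𝓝 0) (𝓝 ((0 : ℝ) • ζ)) :=
        (by fun_prop : Continuous fun t : ℝ => t • ζ).tendsto 0
      rw [zero_smul] at this
      exact this.mono_left nhdsWithin_le_nhds
    filter_upwards [ht.eventually h1, self_mem_nhdsWithin] with t a b
    have b' : 0 < t := b
    rw [bil_sqrt_smul, abs_of_pos b'] at a
    rw [← div_eq_inv_mul, le_div_iff₀ b', h2]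
    have c := dist_triangle (e 0) (e (t • ζ)) y
    have d := dist_nonneg (x := e (t • ζ)) (y := y)
    rw [h2] at c
    nlinarith [sq_nonneg (dist (e (t • ζ)) y - √(g α α)),
      mul_le_mul_of_nonneg_left (c.trans (add_le_add_left a _)) ha]
  have k2 : D α ≤ -2 * √(g α α) ^ 2 := by
    have ht : Tendsto (fun t : ℝ => (t - 2) * √(g α α) ^ 2) (𝓝[>] 0)
        (𝓝 ((0 - 2) * √(g α α) ^ 2)) :=
      ((by fun_prop : Continuous fun t : ℝ => (t - 2) * √(g α α) ^ 2).tendsto 0).mono_left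
        nhdsWithin_le_nhds
    rw [zero_sub] at ht
    refine le_of_tendsto_of_tendsto (slope_line hd α) ht ?_
    filter_upwards [h3, self_mem_nhdsWithin] with t a b
    have b' : 0 < t := b
    rw [← div_eq_inv_mul, div_le_iff₀ b', h2]
    have := pow_le_pow_left₀ dist_nonneg a 2
    nlinarith
  have k3 : D = (-2 : ℝ) • g α := by
    ext w
    rw [smul_apply, smul_eq_mul]
    refine (eq_of_forall (c := g w w) fun s => ?_).symm
    have a := k1 (α + s • w)
    have b := Real.sq_sqrt (bil_nonneg g hp (α + s • w))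
    have c := Real.sq_sqrt (bil_nonneg g hp α)
    have d := sq_nonneg (√(g α α) - √(g (α + s • w) (α + s • w)))
    have e : g (α + s • w) (α + s • w) = g α α + 2 * s * g α w + s ^ 2 * g w w := by
      simp only [map_add, map_smul, add_apply, smul_apply, smul_eq_mul, hs w α]; ring
    rw [map_add D, map_smul D, smul_eq_mul] at a
    nlinarith
  rw [← k3]
  exact hd.hasFDerivAt

theorem nocorner {M : Type*} [MetricSpace M] (g : X →L[ℝ] X →L[ℝ] ℝ)
    (hp : ∀ v, v ≠ 0 → 0 < g v v) {e : X → M} {y₁ y₂ : M} {α β : X}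
    (h1 : dist (e 0) y₁ = √(g α α)) (h2 : dist (e 0) y₂ = √(g β β))
    (hd1 : HasFDerivAt (fun ζ => dist (e ζ) y₁ ^ 2) ((-2 : ℝ) • g α) 0)
    (hd2 : HasFDerivAt (fun ζ => dist (e ζ) y₂ ^ 2) ((-2 : ℝ) • g β) 0)
    (h : dist y₁ y₂ = √(g α α) + √(g β β)) :
    √(g β β) • α + √(g α α) • β = 0 := by
  have ha := Real.sqrt_nonneg (g α α)
  have hb := Real.sqrt_nonneg (g β β)
  have hmin : IsLocalMin (fun ζ => √(g β β) * dist (e ζ) y₁ ^ 2 + √(g α α) * dist (e ζ) y₂ ^ 2) 0 := by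
    refine Eventually.of_forall fun ζ => ?_
    simp only [h1, h2]
    have c := dist_triangle_left y₁ y₂ (e ζ)
    rw [h] at c
    generalize √(g α α) = a at *
    generalize √(g β β) = b at *
    have := mul_nonneg (mul_nonneg ha hb) (sub_nonneg.2 c)
    nlinarith [mul_nonneg hb (sq_nonneg (dist (e ζ) y₁ - a)),
      mul_nonneg ha (sq_nonneg (dist (e ζ) y₂ - b))]
  have hz := hmin.hasFDerivAt_eq_zero ((hd1.const_mul _).add (hd2.const_mul _))
  refine bil_ext g hp fun w => ?_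
  have := congrArg (fun L : X →L[ℝ] ℝ => L w) hz
  simp only [add_apply, smul_apply, smul_eq_mul, zero_apply, map_add, map_smul, map_zero] at this ⊢
  linarith

/-- Broken path inequality. -/
theorem dist_sq_div_le {M : Type*} [MetricSpace M] (x m y : M) {s t : ℝ} (hs : 0 < s)
    (ht : 0 < t) : dist x y ^ 2 / (s + t) ≤ dist x m ^ 2 / s + dist m y ^ 2 / t := by
  have h := pow_le_pow_left₀ dist_nonneg (dist_triangle x m y) 2
  rw [div_add_div _ _ hs.ne' ht.ne', div_le_div_iff₀ (by positivity) (by positivity)]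
  have := mul_le_mul_of_nonneg_right h (mul_pos hs ht).le
  nlinarith [sq_nonneg (t * dist x m - s * dist m y)]

theorem LocGeod.continuousAt {M : Type*} [MetricSpace M] {γ : ℝ → M} {L : ℝ} {J : Set ℝ}
    (h : LocGeod γ L J) {t : ℝ} (ht : t ∈ J) : ContinuousAt γ t := by
  obtain ⟨ε, hε, h⟩ := h t ht
  rw [ContinuousAt, tendsto_iff_dist_tendsto_zero]
  have h1 : Tendsto (fun s => L * |s - t|) (𝓝 t) (𝓝 (L * |t - t|)) :=
    (by fun_prop : Continuous fun s : ℝ => L * |s - t|).tendsto t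
  rw [sub_self, abs_zero, mul_zero] at h1
  refine h1.congr' ?_
  have hm : t ∈ Ioo (t - ε) (t + ε) := ⟨by linarith, by linarith⟩
  filter_upwards [Ioo_mem_nhds hm.1 hm.2] with s hs using (h s hs t hm).symm

/-- A locally Lipschitz curve is Lipschitz with the same constant. -/
theorem LocGeod.dist_le {M : Type*} [MetricSpace M] {γ : ℝ → M} {L : ℝ}
    (h : LocGeod γ L univ) (hL : 0 ≤ L) (s t : ℝ) : dist (γ s) (γ t) ≤ |s - t| * L := by
  wlog hst : s ≤ t generalizing s t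
  · rw [dist_comm, abs_sub_comm]; exact this t s (le_of_not_ge hst)
  have hc : Continuous γ := continuous_iff_continuousAt.2 fun t => h.continuousAt (mem_univ t)
  have : Icc s t ⊆ {u | dist (γ s) (γ u) ≤ (u - s) * L} := by
    refine IsClosed.Icc_subset_of_forall_mem_nhdsWithin
      ((isClosed_le (by fun_prop) (by fun_prop)).inter isClosed_Icc) (by simp) ?_
    rintro x ⟨hx, -⟩
    obtain ⟨ε, hε, h⟩ := h x (mem_univ x)
    filter_upwards [Ioo_mem_nhdsGT (show x < x + ε by linarith)] with u hu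
    have a := h x ⟨by linarith, by linarith⟩ u ⟨by linarith [hu.1], hu.2⟩
    rw [abs_sub_comm, abs_of_pos (sub_pos.2 hu.1)] at a
    have b := dist_triangle (γ s) (γ x) (γ u)
    have c : dist (γ s) (γ x) ≤ (x - s) * L := hx
    change dist (γ s) (γ u) ≤ (u - s) * L
    linarith
  rw [abs_sub_comm, abs_of_nonneg (sub_nonneg.2 hst)]
  exact this ⟨hst, le_rfl⟩

theorem Tch.cara_aux [FiniteDimensional ℝ X] {S : Set X} {u : X} (hu : u ∈ convexHull ℝ S) :
    ∃ (v : Fin (Module.finrank ℝ X + 1) → X) (l : Fin (Module.finrank ℝ X + 1) → ℝ),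
      (∀ i, v i ∈ S) ∧ l ∈ stdSimplex ℝ _ ∧ ∑ i, l i • v i = u := by
  obtain ⟨x₀, hx₀⟩ : S.Nonempty := convexHull_nonempty_iff.1 ⟨u, hu⟩
  obtain ⟨ι, _, z, w, hz, hi, hw, h1, h2⟩ := eq_pos_convex_span_of_mem_convexHull hu
  have hc : Fintype.card ι ≤ Fintype.card (Fin (Module.finrank ℝ X + 1)) := by
    rw [Fintype.card_fin]
    exact hi.card_le_finrank_succ.trans (Nat.succ_le_succ (Submodule.finrank_le _))
  obtain ⟨e⟩ := Function.Embedding.nonempty_of_card_le hc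
  refine ⟨Function.extend e z fun _ => x₀, Function.extend e w 0, fun j => ?_, ⟨fun j => ?_, ?_⟩, ?_⟩
  · by_cases hj : ∃ i, e i = j
    · obtain ⟨i, rfl⟩ := hj
      rw [e.injective.extend_apply]; exact hz ⟨i, rfl⟩
    · rw [Function.extend_apply' _ _ _ hj]; exact hx₀
  · by_cases hj : ∃ i, e i = j
    · obtain ⟨i, rfl⟩ := hj
      rw [e.injective.extend_apply]; exact (hw i).le
    · rw [Function.extend_apply' _ _ _ hj]; exact le_rfl
  · rw [← Fintype.sum_of_injective e e.injective w (Function.extend e w 0)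
      (fun j hj => Function.extend_apply' _ _ _ hj)
      fun i => (e.injective.extend_apply _ _ i).symm, h1]
  · rw [← Fintype.sum_of_injective e e.injective (fun i => w i • z i) _ (fun j hj => by
      rw [Function.extend_apply' _ _ _ hj]; simp) fun i => by
        simp only [e.injective.extend_apply], h2]

/-- Separation plus Caratheodory with exactly `finrank + 1` points. -/
theorem cara [FiniteDimensional ℝ X] (g : X →L[ℝ] X →L[ℝ] ℝ) (hs : ∀ v w, g v w = g w v)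
    (hp : ∀ v, v ≠ 0 → 0 < g v v) {S : Set X} (hS : IsCompact S) {u : X}
    (h : ∀ ξ, ∃ v ∈ S, g u ξ ≤ g v ξ) :
    ∃ (v : Fin (Module.finrank ℝ X + 1) → X) (l : Fin (Module.finrank ℝ X + 1) → ℝ),
      (∀ i, v i ∈ S) ∧ l ∈ stdSimplex ℝ _ ∧ ∑ i, l i • v i = u := by
  refine cara_aux ?_
  by_contra hu
  have hK : convexHull ℝ S = (fun q : (Fin (Module.finrank ℝ X + 1) → X) ×
      (Fin (Module.finrank ℝ X + 1) → ℝ) => ∑ i, q.2 i • q.1 i) ''
        ((univ.pi fun _ => S) ×ˢ stdSimplex ℝ _) := by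
    refine Subset.antisymm (fun x hx => ?_) ?_
    · obtain ⟨v, l, h1, h2, h3⟩ := cara_aux hx
      exact ⟨(v, l), ⟨fun i _ => h1 i, h2⟩, h3⟩
    · rintro _ ⟨⟨v, l⟩, ⟨h1, h2⟩, rfl⟩
      exact mem_convexHull_of_exists_fintype l v h2.1 h2.2 (fun i => h1 i (mem_univ i)) rfl
  have hc : IsClosed (convexHull ℝ S) := by
    rw [hK]
    exact (((isCompact_univ_pi fun _ => hS).prod (isCompact_stdSimplex ℝ _)).image
      (by fun_prop)).isClosed
  obtain ⟨f, c, h1, h2⟩ := geometric_hahn_banach_closed_point (convex_convexHull ℝ S) hc hu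
  obtain ⟨L, hL⟩ := bil_equiv g hp
  obtain ⟨v, hv, h3⟩ := h (L.symm f)
  have e : g (L.symm f) = f := by rw [← hL]; exact L.apply_symm_apply f
  rw [hs u, hs v, e] at h3
  have := h1 v (subset_convexHull ℝ S hv)
  linarith

end Vale.Agent.P234
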