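import Vale.Agent.P234.GP
import Vale.Agent.P234.Tch

/-! P234 Bas: elementary facts on minimizing velocities. -/

open Set Manifold Filter Metric
open scoped ContDiff Topology

namespace Vale.Agent.P234

variable {E : Type*} [NormedAddCommGroup E] [NormedSpace ℝ E] [FiniteDimensional ℝ E]
  {M : Type*} [MetricSpace M] [ChartedSpace E M] [IsManifold 𝓘(ℝ, E) ∞ M] [CompactSpace M]

set_option linter.unusedSectionVars false

namespace Geo

variable (Γ : Geo E M) {p : M} {a : E}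

theorem contEx (ha : a ∈ (chartAt E p).target) (v : E) :
    ContinuousAt (fun q : E × E => Γ.Ex p q.1 q.2) (a, v) := (Γ.smEx p a ha v).continuousAt

theorem smEx_fix (ha : a ∈ (chartAt E p).target) (v : E) :
    ContMDiffAt 𝓘(ℝ, E) 𝓘(ℝ, E) ∞ (Γ.Ex p a) v :=
  (Γ.smEx p a ha v).comp v (f := fun w : E => (a, w))
    (contDiff_const.prodMk contDiff_id).contDiffAt.contMDiffAt

theorem continuous_ex (ha : a ∈ (chartAt E p).target) : Continuous (Γ.Ex p a) :=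
  continuous_iff_continuousAt.2 fun v => (Γ.smEx_fix ha v).continuousAt

/-- Smoothness of `t ↦ Ex p (f t) (g t)`. -/
theorem smEx_comp {F : Type*} [NormedAddCommGroup F] [NormedSpace ℝ F] {f g : F → E} {t₀ : F}
    (ha : f t₀ ∈ (chartAt E p).target) (hf : ContDiff ℝ ∞ f) (hg : ContDiff ℝ ∞ g) :
    ∀ᶠ t in 𝓝 t₀, ContMDiffAt 𝓘(ℝ, F) 𝓘(ℝ, E) ∞ (fun t => Γ.Ex p (f t) (g t)) t := by
  filter_upwards [hf.continuous.continuousAt.eventually
    ((chartAt E p).open_target.mem_nhds ha)] with t ht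
  exact (Γ.smEx p (f t) ht (g t)).comp t (f := fun t => (f t, g t))
    (hf.prodMk hg).contDiffAt.contMDiffAt

theorem contG (ha : a ∈ (chartAt E p).target) : ContinuousAt (Γ.G p) a :=
  (Γ.smG p).continuousOn.continuousAt ((chartAt E p).open_target.mem_nhds ha)

theorem dist_le (ha : a ∈ (chartAt E p).target) (v : E) :
    dist ((chartAt E p).symm a) (Γ.Ex p a v) ≤ √(Γ.G p a v v) := by
  have := Γ.lip p a ha v 0 1
  rwa [zero_smul, one_smul, Γ.ex0 p a ha, zero_sub, abs_neg, abs_one, one_mul] at this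

theorem seg (ha : a ∈ (chartAt E p).target) {v : E} (hv : v ∈ Γ.Ib p a) {s t : ℝ} (hs : 0 ≤ s)
    (hst : s ≤ t) (ht : t ≤ 1) :
    dist (Γ.Ex p a (s • v)) (Γ.Ex p a (t • v)) = (t - s) * √(Γ.G p a v v) := by
  have h1 := Γ.lip p a ha v 0 s
  have h2 := Γ.lip p a ha v s t
  have h3 := Γ.lip p a ha v t 1
  rw [zero_smul, Γ.ex0 p a ha, zero_sub, abs_neg, abs_of_nonneg hs] at h1
  rw [abs_sub_comm, abs_of_nonneg (sub_nonneg.2 hst)] at h2
  rw [one_smul, abs_sub_comm, abs_of_nonneg (sub_nonneg.2 ht)] at h3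
  have h4 := dist_triangle4 ((chartAt E p).symm a) (Γ.Ex p a (s • v)) (Γ.Ex p a (t • v))
    (Γ.Ex p a v)
  have h5 : dist ((chartAt E p).symm a) (Γ.Ex p a v) = √(Γ.G p a v v) := hv
  linarith

theorem smul_mem_Ib (ha : a ∈ (chartAt E p).target) {v : E} (hv : v ∈ Γ.Ib p a) {s : ℝ}
    (hs : 0 ≤ s) (hs1 : s ≤ 1) : s • v ∈ Γ.Ib p a := by
  have h := Γ.seg ha hv le_rfl hs hs1
  rw [zero_smul, Γ.ex0 p a ha, sub_zero] at h
  change dist _ _ = _
  rw [h, bil_sqrt_smul, abs_of_nonneg hs]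

theorem zero_mem_Io (ha : a ∈ (chartAt E p).target) : (0 : E) ∈ Γ.Io p a := by
  refine ⟨2, one_lt_two, ?_⟩
  change dist _ _ = _
  simp [Γ.ex0 p a ha]

theorem smul_mem_Io (ha : a ∈ (chartAt E p).target) {v : E} (hv : v ∈ Γ.Ib p a) {s : ℝ}
    (hs : 0 ≤ s) (hs1 : s < 1) : s • v ∈ Γ.Io p a := by
  rcases hs.eq_or_lt with rfl | h
  · rw [zero_smul]; exact Γ.zero_mem_Io ha
  · refine ⟨s⁻¹, (one_lt_inv₀ h).2 hs1, ?_⟩
    rwa [inv_smul_smul₀ h.ne']

theorem Io_subset_Ib (ha : a ∈ (chartAt E p).target) : Γ.Io p a ⊆ Γ.Ib p a := by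
  rintro v ⟨c, hc, h⟩
  have c0 : 0 < c := one_pos.trans hc
  have := Γ.smul_mem_Ib ha h (inv_pos.2 c0).le (inv_le_one_of_one_le₀ hc.le)
  rwa [inv_smul_smul₀ c0.ne'] at this

theorem smul_mem_Io' (ha : a ∈ (chartAt E p).target) {v : E} (hv : v ∈ Γ.Io p a) {s : ℝ}
    (hs : 0 ≤ s) (hs1 : s ≤ 1) : s • v ∈ Γ.Io p a := by
  obtain ⟨c, hc, h⟩ := hv
  refine ⟨c, hc, ?_⟩
  rw [smul_comm]
  exact Γ.smul_mem_Ib ha h hs hs1

theorem Ib_closed {ι : Type*} {l : Filter ι} [l.NeBot] (ha : a ∈ (chartAt E p).target)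
    {ak vk : ι → E} {v : E} (h1 : Tendsto ak l (𝓝 a)) (h2 : Tendsto vk l (𝓝 v))
    (h : ∀ᶠ k in l, vk k ∈ Γ.Ib p (ak k)) : v ∈ Γ.Ib p a := by
  have t1 : Tendsto (fun k => dist ((chartAt E p).symm (ak k)) (Γ.Ex p (ak k) (vk k))) l
      (𝓝 (dist ((chartAt E p).symm a) (Γ.Ex p a v))) :=
    (((chartAt E p).continuousAt_symm ha).tendsto.comp h1).dist
      ((Γ.contEx ha v).tendsto.comp (h1.prodMk_nhds h2))
  have c : ContinuousAt (fun q : E × E => √(Γ.G p q.1 q.2 q.2)) (a, v) :=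
    ((((Γ.contG ha).comp_of_eq continuousAt_fst rfl).clm_apply continuousAt_snd).clm_apply
      continuousAt_snd).sqrt
  exact tendsto_nhds_unique_of_eventuallyEq t1 (c.tendsto.comp (h1.prodMk_nhds h2)) h

theorem isClosed_Ib (ha : a ∈ (chartAt E p).target) : IsClosed (Γ.Ib p a) :=
  isClosed_iff_forall_filter.2 fun _ _ _ h1 h2 =>
    Γ.Ib_closed (l := _) (ak := fun _ => a) (vk := id) ha tendsto_const_nhds h2
      (le_principal_iff.1 h1)

theorem Ib_bdd (ha : a ∈ (chartAt E p).target) :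
    ∃ C : ℝ, ∀ᶠ b in 𝓝 a, ∀ v ∈ Γ.Ib p b, ‖v‖ ≤ C := by
  obtain ⟨C, C0, h⟩ := bil_lower (Γ.contG ha) (Γ.pos p a ha)
  refine ⟨C * diam (univ : Set M), h.mono fun b hb v hv => (hb v).trans ?_⟩
  have e : dist ((chartAt E p).symm b) (Γ.Ex p b v) = √(Γ.G p b v v) := hv
  rw [← e]
  exact mul_le_mul_of_nonneg_left
    (dist_le_diam_of_mem isCompact_univ.isBounded (mem_univ _) (mem_univ _)) C0.le

theorem isCompact_Ib (ha : a ∈ (chartAt E p).target) : IsCompact (Γ.Ib p a) := by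
  obtain ⟨C, h⟩ := Γ.Ib_bdd ha
  exact isCompact_of_isClosed_isBounded (Γ.isClosed_Ib ha)
    (isBounded_iff_forall_norm_le.2 ⟨C, h.self_of_nhds⟩)

include Γ in
theorem good_self (x : M) : GoodPair E x x := by
  obtain ⟨δ, h0, h⟩ := Γ.locGood
  exact h x x (by rwa [dist_self])

theorem C_zero (ha : a ∈ (chartAt E p).target) {v : E} (hv : v ∈ Γ.Ib p a) :
    Γ.C p a v 0 = Γ.G p a v v / 2 := by
  have e : dist ((chartAt E p).symm a) (Γ.Ex p a v) = √(Γ.G p a v v) := hv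
  rw [C, Γ.ex0 p a ha, e, Real.sq_sqrt (bil_nonneg _ (Γ.pos p a ha) v)]

theorem C_smooth (ha : a ∈ (chartAt E p).target) {u : E}
    (hg : GoodPair E ((chartAt E p).symm a) (Γ.Ex p a u)) :
    ∀ᶠ q in 𝓝 ((a, u), (0 : E)), ContDiffAt ℝ ∞
      (fun q : (E × E) × E => Γ.C p q.1.1 q.1.2 q.2) q := by
  rw [← Γ.ex0 p a ha] at hg
  filter_upwards [GoodPair.comp (f := fun q : (E × E) × E => Γ.Ex p q.1.1 q.2)
    (g := fun q : (E × E) × E => Γ.Ex p q.1.1 q.1.2) (t₀ := ((a, u), 0)) hg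
    (Γ.smEx_comp ha contDiff_fst.fst contDiff_snd)
    (Γ.smEx_comp ha contDiff_fst.fst contDiff_fst.snd)] with q hq
  exact hq.div_const 2

theorem C_smooth_fix (ha : a ∈ (chartAt E p).target) {u : E}
    (hg : GoodPair E ((chartAt E p).symm a) (Γ.Ex p a u)) :
    ∀ᶠ q in 𝓝 (u, (0 : E)), ContDiffAt ℝ ∞ (fun q : E × E => Γ.C p a q.1 q.2) q := by
  have s : ContDiff ℝ ∞ (fun q : E × E => ((a, q.1), q.2)) :=
    (contDiff_const.prodMk contDiff_fst).prodMk contDiff_snd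
  filter_upwards [(s.continuous.tendsto (u, 0)).eventually (Γ.C_smooth ha hg)] with q hq
  exact hq.comp q s.contDiffAt

theorem C_smooth_pt (ha : a ∈ (chartAt E p).target) {u : E}
    (hg : GoodPair E ((chartAt E p).symm a) (Γ.Ex p a u)) :
    ∀ᶠ ζ in 𝓝 (0 : E), ContDiffAt ℝ ∞ (Γ.C p a u) ζ := by
  have s : ContDiff ℝ ∞ (fun ζ : E => (u, ζ)) := contDiff_const.prodMk contDiff_id
  filter_upwards [(s.continuous.tendsto 0).eventually (Γ.C_smooth_fix ha hg)] with q hq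
  exact hq.comp q s.contDiffAt

end Geo

end Vale.Agent.P234
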