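import Vale.Agent.P234.Good

/-! P234 Bl: the broken cost and the index form. -/

open Set Manifold Filter Metric
open scoped ContDiff Topology

namespace Vale.Agent.P234

variable {E : Type*} [NormedAddCommGroup E] [NormedSpace ℝ E] [FiniteDimensional ℝ E]
  {M : Type*} [MetricSpace M] [ChartedSpace E M] [IsManifold 𝓘(ℝ, E) ∞ M] [CompactSpace M]

namespace Geo

variable (Γ : Geo E M) {p : M} {a : E}

theorem B_smooth (ha : a ∈ (chartAt E p).target) {u : E} (hu : u ∈ Γ.Ib p a) :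
    ∀ᶠ q in 𝓝 (u, (0 : E × E)), ContDiffAt ℝ ∞ (fun q : E × (E × E) => Γ.B p a q.1 q.2) q := by
  have s1 := Γ.smEx_comp (f := fun _ : E × (E × E) => a) (g := fun q => q.2.1) (t₀ := (u, 0)) ha
    (by fun_prop) (by fun_prop)
  have s2 := Γ.smEx_comp (f := fun _ : E × (E × E) => a)
    (g := fun q => (1 / 2 : ℝ) • q.1 + q.2.2) (t₀ := (u, 0)) ha (by fun_prop) (by fun_prop)
  have s3 := Γ.smEx_comp (f := fun _ : E × (E × E) => a) (g := fun q => q.1) (t₀ := (u, 0)) ha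
    (by fun_prop) (by fun_prop)
  filter_upwards [GoodPair.comp (by
      simpa using Γ.good_seg ha hu (s := 0) (t := 1 / 2) le_rfl (by norm_num) (by norm_num)
        (Or.inr (by norm_num))) s1 s2, GoodPair.comp (by
      simpa using Γ.good_seg ha hu (s := 1 / 2) (t := 1) (by norm_num) (by norm_num) le_rfl
        (Or.inl (by norm_num))) s2 s3] with q h1 h2
  exact h1.add h2

theorem B_smooth_pt (ha : a ∈ (chartAt E p).target) {u : E} (hu : u ∈ Γ.Ib p a) :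
    ContDiffAt ℝ ∞ (Γ.B p a u) 0 :=
  (Γ.B_smooth ha hu).self_of_nhds.comp (0 : E × E) (f := fun q => (u, q)) (by fun_prop)

theorem B_zero (ha : a ∈ (chartAt E p).target) {u : E} (hu : u ∈ Γ.Ib p a) :
    Γ.B p a u 0 = Γ.G p a u u / 2 := by
  have h1 := Γ.seg ha hu (s := 0) (t := 1 / 2) le_rfl (by norm_num) (by norm_num)
  have h2 := Γ.seg ha hu (s := 1 / 2) (t := 1) (by norm_num) (by norm_num) le_rfl
  have h3 := Real.sq_sqrt (bil_nonneg _ (Γ.pos p a ha) u)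
  rw [zero_smul] at h1
  rw [one_smul] at h2
  rw [B, Prod.fst_zero, Prod.snd_zero, add_zero, h1, h2, mul_pow, mul_pow, h3]
  ring

theorem C_le_B (u : E) (q : E × E) : Γ.C p a u q.1 ≤ Γ.B p a u q := by
  have := dist_sq_div_le (Γ.Ex p a q.1) (Γ.Ex p a ((1 / 2 : ℝ) • u + q.2)) (Γ.Ex p a u) one_pos
    one_pos
  rw [C, B]
  linarith

theorem bl_min (ha : a ∈ (chartAt E p).target) {u : E} (hu : u ∈ Γ.Ib p a) :
    IsLocalMin (fun μ => Γ.B p a u (0, μ)) 0 := Eventually.of_forall fun μ => by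
  have := Γ.C_le_B (p := p) (a := a) u (0, μ)
  rwa [Γ.C_zero ha hu, ← Γ.B_zero ha hu] at this

theorem bl_half (ha : a ∈ (chartAt E p).target) {u : E} (hu : u ∈ Γ.Ib p a) :
    (1 / 2 : ℝ) • u ∈ Γ.Io p a := Γ.smul_mem_Io ha hu (by norm_num) (by norm_num)

theorem fderiv_B (ha : a ∈ (chartAt E p).target) {u : E} (hu : u ∈ Γ.Ib p a) (ξ k : E) :
    fderiv ℝ (Γ.B p a u) 0 (ξ, k) = -Γ.G p a u ξ := by
  have h0 := ((Γ.B_smooth_pt ha hu).differentiableAt (by simp)).hasFDerivAt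
  have h1 : HasFDerivAt (fun μ => Γ.B p a u (0, μ)) _ (0 : E) :=
    HasFDerivAt.comp (0 : E) (f := fun μ : E => ((0 : E), μ)) h0 (hasFDerivAt_prodMk_right 0 0)
  have h2 : HasFDerivAt (fun ζ => Γ.B p a u (ζ, 0)) _ (0 : E) :=
    HasFDerivAt.comp (0 : E) (f := fun ζ : E => (ζ, (0 : E))) h0 (hasFDerivAt_prodMk_left 0 0)
  have h3 := congrArg (fun T : E →L[ℝ] ℝ => T k) ((Γ.bl_min ha hu).hasFDerivAt_eq_zero h1)
  have h4 := congrArg (fun T : E →L[ℝ] ℝ => T ξ) (h2.unique (by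
    simp only [B, add_zero]
    exact (Γ.hasFDerivAt_dist_sq ha (Γ.Io_subset_Ib ha (Γ.bl_half ha hu))
      (Γ.good_of_Io ha (Γ.bl_half ha hu))).add_const _))
  rw [show (ξ, k) = (ξ, 0) + (0, k) by simp, map_add]
  simp at h3 h4
  rw [h3, h4]
  ring

theorem D2_B (ha : a ∈ (chartAt E p).target) {u : E} (hu : u ∈ Γ.Ib p a) (ξ k : E) :
    D2 (Γ.B p a u) 0 (ξ, k) (ξ, k) =
      2 * Γ.A p a ((1 / 2 : ℝ) • u) ξ ξ - 4 * Γ.G p a k ξ + Γ.Q p a u k k := by
  have hg := Γ.good_of_Io ha (Γ.bl_half ha hu)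
  have c1 : ContDiffAt ℝ 2 (fun q : E × E => Γ.C p a ((1 / 2 : ℝ) • u + q.1) q.2) 0 :=
    ContDiffAt.comp (0 : E × E) (g := fun q : E × E => Γ.C p a q.1 q.2)
      (f := fun q : E × E => ((1 / 2 : ℝ) • u + q.1, q.2)) (by
        simpa using (Γ.C_smooth_fix ha hg).self_of_nhds.of_le (m := 2) (by norm_cast))
      (by fun_prop)
  have c2 : ContDiffAt ℝ 2
      (fun μ : E => dist (Γ.Ex p a ((1 / 2 : ℝ) • u + μ)) (Γ.Ex p a u) ^ 2) 0 :=
    (GoodPair.comp (by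
      simpa using Γ.good_seg ha hu (s := 1 / 2) (t := 1) (by norm_num) (by norm_num) le_rfl
        (Or.inl (by norm_num))) (Γ.smEx_comp (f := fun _ : E => a)
        (g := fun μ => (1 / 2 : ℝ) • u + μ) ha (by fun_prop) (by fun_prop))
      (Eventually.of_forall fun _ => contMDiffAt_const)).self_of_nhds.of_le (by norm_cast)
  have key : ∀ ξ, D2 (Γ.B p a u) 0 (ξ, k) (ξ, k) = 2 * (Γ.G p a k k - 2 * Γ.G p a k ξ +
      Γ.A p a ((1 / 2 : ℝ) • u) ξ ξ) + D2 (fun μ : E =>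
        dist (Γ.Ex p a ((1 / 2 : ℝ) • u + μ)) (Γ.Ex p a u) ^ 2) 0 k k := fun ξ => by
    have d1 := D2_comp_affine (f := fun q : E × E => Γ.C p a ((1 / 2 : ℝ) • u + q.1) q.2)
      ((ContinuousLinearMap.snd ℝ E E).prod (ContinuousLinearMap.fst ℝ E E)) 0 (y := 0) (by rwa [map_zero, add_zero]) (ξ, k) (ξ, k)
    have d2 := D2_comp_affine (f := fun μ : E =>
      dist (Γ.Ex p a ((1 / 2 : ℝ) • u + μ)) (Γ.Ex p a u) ^ 2) (ContinuousLinearMap.snd ℝ E E) 0
      (y := 0) (by rwa [map_zero, add_zero])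
      (ξ, k) (ξ, k)
    simp only [zero_add, map_zero, ContinuousLinearMap.prod_apply, ContinuousLinearMap.coe_snd',
      ContinuousLinearMap.coe_fst'] at d1 d2
    have c3 : ContDiffAt ℝ 2 (fun q : E × E => Γ.C p a ((1 / 2 : ℝ) • u + q.2) q.1) 0 :=
      ContDiffAt.comp (0 : E × E) (f := fun q : E × E => (q.2, q.1)) c1 (by fun_prop)
    have c4 : ContDiffAt ℝ 2
        (fun q : E × E => dist (Γ.Ex p a ((1 / 2 : ℝ) • u + q.2)) (Γ.Ex p a u) ^ 2) 0 :=
      ContDiffAt.comp (0 : E × E) (f := fun q : E × E => q.2) c2 (by fun_prop)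
    rw [← Γ.D2_C ha (Γ.Io_subset_Ib ha (Γ.bl_half ha hu)) hg, ← d1, ← d2, ← D2_const_mul c3,
      ← D2_add (contDiffAt_const.mul c3) c4]
    congr 3
    funext q
    simp only [B, C]
    ring
  have d3 := D2_comp_affine (f := Γ.B p a u) (ContinuousLinearMap.inr ℝ E E) 0 (y := 0) (by
    rw [map_zero, add_zero]; exact (Γ.B_smooth_pt ha hu).of_le (m := 2) (by norm_cast)) k k
  simp only [zero_add, map_zero, ContinuousLinearMap.inr_apply] at d3
  rw [Q, d3, key, key]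
  simp only [map_zero]
  ring

theorem A_le_D2_B (ha : a ∈ (chartAt E p).target) {u : E} (hu : u ∈ Γ.Io p a) (ξ k : E) :
    Γ.A p a u ξ ξ ≤ D2 (Γ.B p a u) 0 (ξ, k) (ξ, k) := by
  have hu' := Γ.Io_subset_Ib ha hu
  have c1 := (Γ.C_smooth_pt ha (Γ.good_of_Io ha hu)).self_of_nhds.of_le (m := 2) (by norm_cast)
  have c2 := (Γ.B_smooth_pt ha hu').of_le (m := 2) (by norm_cast)
  have c3 : ContDiffAt ℝ 2 (fun q : E × E => Γ.C p a u q.1) 0 :=
    ContDiffAt.comp (0 : E × E) (f := fun q : E × E => q.1) c1 (by fun_prop)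
  have d1 := D2_comp_affine (f := Γ.C p a u) (ContinuousLinearMap.fst ℝ E E) 0 (y := 0)
    (by rwa [map_zero, add_zero])
    (ξ, k) (ξ, k)
  simp only [zero_add, map_zero, ContinuousLinearMap.coe_fst'] at d1
  have h := D2_nonneg_of_isLocalMin (c2.sub c3) (Eventually.of_forall fun q => by
    simp only [Prod.fst_zero, Γ.B_zero ha hu', Γ.C_zero ha hu', sub_self]
    exact sub_nonneg.2 (Γ.C_le_B u q)) (ξ, k)
  rw [D2_sub c2 c3, d1] at h
  exact sub_nonneg.1 h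

theorem Q_nonneg (ha : a ∈ (chartAt E p).target) {u : E} (hu : u ∈ Γ.Ib p a) (k : E) :
    0 ≤ Γ.Q p a u k k :=
  D2_nonneg_of_isLocalMin (ContDiffAt.comp (0 : E) (f := fun μ : E => ((0 : E), μ))
    ((Γ.B_smooth_pt ha hu).of_le (by norm_cast)) (by fun_prop)) (Γ.bl_min ha hu) k

theorem Q_pos (ha : a ∈ (chartAt E p).target) {u : E} (hu : u ∈ Γ.Io p a) {k : E}
    (hk : k ≠ 0) : 0 < Γ.Q p a u k k := by
  by_contra h
  have g0 := Γ.pos p a ha k hk
  set T := (|2 * Γ.A p a ((1 / 2 : ℝ) • u) k k - Γ.A p a u k k| + 1) / Γ.G p a k k with hT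
  have h1 := Γ.A_le_D2_B ha hu k (T • k)
  rw [Γ.D2_B ha (Γ.Io_subset_Ib ha hu)] at h1
  simp only [map_smul, smul_apply, smul_eq_mul] at h1
  have h2 : T * Γ.G p a k k = _ := div_mul_cancel₀ _ g0.ne'
  nlinarith [le_abs_self (2 * Γ.A p a ((1 / 2 : ℝ) • u) k k - Γ.A p a u k k),
    abs_nonneg (2 * Γ.A p a ((1 / 2 : ℝ) • u) k k - Γ.A p a u k k),
    mul_nonneg (mul_self_nonneg T) (neg_nonneg.2 (not_lt.1 h))]

theorem Q_smooth (ha : a ∈ (chartAt E p).target) {u : E} (hu : u ∈ Γ.Ib p a) :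
    ContDiffAt ℝ ∞ (Γ.Q p a) u := by
  have c : ContinuousAt (fun q : E × E => (q.1, ((0 : E), q.2))) (u, 0) := by fun_prop
  exact (contDiffAt_D2_param (F := fun q : E × E => Γ.B p a q.1 (0, q.2))
    ((c.tendsto.eventually (Γ.B_smooth ha hu)).mono fun q h => ContDiffAt.comp q
      (f := fun q : E × E => (q.1, ((0 : E), q.2))) h (by fun_prop))).self_of_nhds

theorem D2_B_cont (ha : a ∈ (chartAt E p).target) {u : E} (hu : u ∈ Γ.Ib p a) (q : E × E) :
    ContinuousAt (fun u' => D2 (Γ.B p a u') 0 q q) u :=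
  ((contDiffAt_D2_param (Γ.B_smooth ha hu)).self_of_nhds.continuousAt.clm_apply
    continuousAt_const).clm_apply continuousAt_const

end Geo

end Vale.Agent.P234
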