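import Vale.Agent.P234.Ch
import Vale.Agent.P234.Tch

/-! P234 Br: the two geodesic predicates agree. -/

open Bundle Set Manifold Filter Metric
open scoped ContDiff Topology

namespace Vale.Agent.P234

variable {E : Type*} [NormedAddCommGroup E] [NormedSpace ℝ E] [FiniteDimensional ℝ E]
  {M : Type*} [MetricSpace M] [ChartedSpace E M] [IsManifold 𝓘(ℝ, E) ∞ M]
  [RiemannianBundle (fun x : M => TangentSpace 𝓘(ℝ, E) x)]
  [IsContMDiffRiemannianBundle 𝓘(ℝ, E) ∞ E (fun x : M => TangentSpace 𝓘(ℝ, E) x)]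

theorem isGeodesic_iff (R : RM E M) (hR : R.G = GM) {p : M} {a : E}
    (ha : a ∈ (chartAt E p).target) (v : E) (γ : ℝ → M) :
    IsGeodesic ((chartAt E p).symm a) (DPsi p a v) γ ↔ R.IsGeo p a v γ := by
  have hs := (chartAt E p).map_target ha
  have e0 : (mfderiv 𝓘(ℝ, E) 𝓘(ℝ, E) (chartAt E p) ((chartAt E p).symm a) (DPsi p a v) : E) = v :=
    DFunLike.congr_fun ((mdifferentiable_chart (I := 𝓘(ℝ, E)) p).comp_symm_deriv ha) v
  unfold IsGeodesic RM.IsGeo LocGeod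
  rw [hR, sqrt_GM]
  constructor
  · rintro ⟨h1, h2, h3⟩
    have h0 : γ 0 = (chartAt E p).symm a := congrArg TotalSpace.proj h2
    refine ⟨h0, ?_, fun t _ => h3 t⟩
    have := (congrArg (fun q : TangentBundle 𝓘(ℝ, E) M =>
      (mfderiv 𝓘(ℝ, E) 𝓘(ℝ, E) (chartAt E p) q.1 q.2 : E)) h2).trans e0
    exact (ch_hasDerivAt h1 (h0 ▸ hs)).congr_deriv this
  · rintro ⟨h0, h1, h2⟩
    have md := ch_md_curve (LocGeod.continuousAt h2 (mem_univ 0)) (h0 ▸ hs) h1.differentiableAt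
    refine ⟨md, ?_, fun t => h2 t (mem_univ t)⟩
    have key : ∀ (y : M) (α : TangentSpace 𝓘(ℝ, E) y), y = (chartAt E p).symm a →
        (mfderiv 𝓘(ℝ, E) 𝓘(ℝ, E) (chartAt E p) y α : E) = v →
        (⟨y, α⟩ : TangentBundle 𝓘(ℝ, E) M) = ⟨(chartAt E p).symm a, DPsi p a v⟩ := by
      rintro _ α rfl h
      rw [(mdifferentiable_chart (I := 𝓘(ℝ, E)) p).mfderiv_injective hs (h.trans e0.symm)]
    exact key _ _ h0 ((ch_hasDerivAt md (h0 ▸ hs)).unique h1)

end Vale.Agent.P234
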