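import Vale.Agent.P234.Up

/-! P234 Cal: calibration lower bound for the distance. -/

open Bundle Set Manifold Filter Metric
open scoped ContDiff Topology

namespace Vale.Agent.P234

variable {E : Type*} [NormedAddCommGroup E] [NormedSpace ℝ E] [FiniteDimensional ℝ E]
  {M : Type*} [MetricSpace M] [ChartedSpace E M] [IsManifold 𝓘(ℝ, E) ∞ M]
  [RiemannianBundle (fun x : M => TangentSpace 𝓘(ℝ, E) x)]
  [IsContMDiffRiemannianBundle 𝓘(ℝ, E) ∞ E (fun x : M => TangentSpace 𝓘(ℝ, E) x)]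

variable [IsRiemannianManifold 𝓘(ℝ, E) M]

theorem cal_piece (p : M) {U : Set E} {f : E → ℝ} (hU : IsOpen U) (hf : ContDiffOn ℝ 1 f U)
    (hd : ∀ b ∈ U, ∀ J, fderiv ℝ f b J ≤ √(GM p b J J)) {γ : ℝ → M}
    (hγ : ContMDiff 𝓘(ℝ, ℝ) 𝓘(ℝ, E) 1 γ) {T : ℝ} (hT : T ∈ Icc (0 : ℝ) 1)
    (h : ∀ t ∈ Icc 0 T, γ t ∈ (chartAt E p).source ∧ chartAt E p (γ t) ∈ U) :
    ENNReal.ofReal (f (chartAt E p (γ T)) - f (chartAt E p (γ 0))) ≤
      pathELength 𝓘(ℝ, E) γ 0 1 := by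
  have c1 : ∀ t ∈ Icc 0 T, ContDiffAt ℝ 1 (fun s => chartAt E p (γ s)) t := fun t ht =>
    contMDiffAt_iff_contDiffAt.1 (((contMDiffOn_chart (I := 𝓘(ℝ, E)) (n := 1) (x := p)).contMDiffAt
      ((chartAt E p).open_source.mem_nhds (h t ht).1)).comp t (hγ t))
  have c2 : ∀ t ∈ Icc 0 T, ContDiffAt ℝ 1 f (chartAt E p (γ t)) := fun t ht =>
    hf.contDiffAt (hU.mem_nhds (h t ht).2)
  refine le_trans ?_ (pathELength_mono le_rfl hT.2)
  rw [pathELength_eq_lintegral_mfderiv_Icc]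
  refine le_trans ?_ ((enorm_sub_le_lintegral_deriv_of_contDiffOn_Icc
    (f := fun s => f (chartAt E p (γ s))) (fun t ht => ((c2 t ht).comp t (c1 t ht)).contDiffWithinAt)
    hT.1).trans (MeasureTheory.setLIntegral_mono' measurableSet_Icc fun t ht => ?_))
  · rw [← ofReal_norm_eq_enorm]
    exact ENNReal.ofReal_le_ofReal (le_abs_self _)
  · have d := ((c1 t ht).differentiableAt one_ne_zero).hasDerivAt
    have e := (HasFDerivAt.comp_hasDerivAt (l := f) (f := fun s => chartAt E p (γ s)) t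
      ((c2 t ht).differentiableAt one_ne_zero).hasFDerivAt d).deriv
    rw [← ofReal_norm_eq_enorm, ← ofReal_norm_eq_enorm]
    refine ENNReal.ofReal_le_ofReal (le_of_le_of_eq ?_
      (norm_mfderiv_eq (hγ t).continuousAt (h t ht).1 d).symm)
    have h1 := hd _ (h t ht).2 (deriv (fun s => chartAt E p (γ s)) t)
    have h2 := hd _ (h t ht).2 (-deriv (fun s => chartAt E p (γ s)) t)
    simp only [map_neg, ContinuousLinearMap.neg_apply, neg_neg] at h2
    exact (congrArg norm e).trans_le (abs_le.2 ⟨by linarith, h1⟩)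

theorem calibration (p : M) (U : Set E) (f : E → ℝ) (c : ℝ) (hU : IsOpen U)
    (hUt : U ⊆ (chartAt E p).target) (hf : ContDiffOn ℝ 1 f U)
    (hd : ∀ b ∈ U, ∀ J, fderiv ℝ f b J ≤ √(GM p b J J)) (hK : IsCompact {b ∈ U | f b ≤ c})
    (a : E) (ha : a ∈ U) (b : E) (hb : b ∈ U) (hbc : f b ≤ c) :
    f b - f a ≤ dist ((chartAt E p).symm a) ((chartAt E p).symm b) := by
  refine le_of_forall_pos_le_add fun ε hε => ?_
  obtain ⟨γ, h0, h1, h2, h3⟩ := up_path (E := E) ((chartAt E p).symm a) ((chartAt E p).symm b) hε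
  let O : Set M := (chartAt E p).source ∩ chartAt E p ⁻¹' U
  have hO : IsOpen O := (chartAt E p).isOpen_inter_preimage hU
  have key : ∀ T ∈ Icc (0 : ℝ) 1, (∀ t ∈ Icc 0 T, γ t ∈ O) → f b ≤ f (chartAt E p (γ T)) →
      f b - f a ≤ dist ((chartAt E p).symm a) ((chartAt E p).symm b) + ε := fun T hT h e => by
    have := (cal_piece p hU hf hd h2 hT h).trans_lt h3
    rw [ENNReal.ofReal_lt_ofReal_iff (by positivity), h0, (chartAt E p).right_inv (hUt ha)] at this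
    linarith
  by_cases H : ∀ t ∈ Icc (0 : ℝ) 1, γ t ∈ O
  · exact key 1 (by norm_num) H (by rw [h1, (chartAt E p).right_inv (hUt hb)])
  push Not at H
  obtain ⟨T, hT, hm⟩ := (isCompact_Icc.inter_right (hO.isClosed_compl.preimage h2.continuous)
    (s := Icc (0 : ℝ) 1)).exists_isMinOn H continuousOn_id
  have hK' : IsClosed ((chartAt E p).symm '' {b ∈ U | f b ≤ c}) :=
    (hK.image_of_continuousOn ((chartAt E p).continuousOn_symm.mono fun b hb => hUt hb.1)).isClosed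
  have T0 : 0 < T := lt_of_le_of_ne hT.1.1 fun e => hT.2 (by
    rw [← e, h0]
    exact ⟨(chartAt E p).map_target (hUt ha), by
      rw [mem_preimage, (chartAt E p).right_inv (hUt ha)]; exact ha⟩)
  have nK : γ T ∉ (chartAt E p).symm '' {b ∈ U | f b ≤ c} := fun ⟨b', h', e⟩ => hT.2 (by
    rw [← e]
    exact ⟨(chartAt E p).map_target (hUt h'.1), by
      rw [mem_preimage, (chartAt E p).right_inv (hUt h'.1)]; exact h'.1⟩)
  obtain ⟨t, h4, h5⟩ := (((h2.continuous.continuousAt.eventually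
    (hK'.isOpen_compl.mem_nhds nK)).filter_mono nhdsWithin_le_nhds).and
    (Ioo_mem_nhdsLT T0)).exists
  have hs : ∀ s ∈ Icc 0 t, γ s ∈ O := fun s hs => by
    by_contra e
    exact (hs.2.trans_lt h5.2).not_ge (hm ⟨⟨hs.1, hs.2.trans (h5.2.le.trans hT.1.2)⟩, e⟩)
  have ht := hs t ⟨h5.1.le, le_rfl⟩
  refine key t ⟨h5.1.le, h5.2.le.trans hT.1.2⟩ hs (hbc.trans (le_of_not_ge fun e => ?_))
  exact h4 ⟨_, ⟨ht.2, e⟩, (chartAt E p).left_inv ht.1⟩

end Vale.Agent.P234
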