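import Vale.Agent.P234.Defs

/-! P234 CalcA: second derivative toolbox. -/

open Set Manifold Filter Metric
open scoped ContDiff Topology

namespace Vale.Agent.P234

variable {X : Type*} [NormedAddCommGroup X] [NormedSpace ℝ X]
  {P : Type*} [NormedAddCommGroup P] [NormedSpace ℝ P]

namespace CalcA

theorem ev_diff {f : X → ℝ} {x : X} (hf : ContDiffAt ℝ 2 f x) :
    ∀ᶠ z in 𝓝 x, DifferentiableAt ℝ f z :=
  (hf.eventually (by simp)).mono fun _ h => h.differentiableAt (by simp)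

theorem diff_fderiv {f : X → ℝ} {x : X} (hf : ContDiffAt ℝ 2 f x) :
    DifferentiableAt ℝ (fderiv ℝ f) x :=
  (hf.fderiv_right (m := 1) (by norm_num)).differentiableAt (by simp)

theorem has_D2 {f : X → ℝ} {x : X} (hf : ContDiffAt ℝ 2 f x) :
    HasFDerivAt (fderiv ℝ f) (D2 f x) x := (diff_fderiv hf).hasFDerivAt

theorem line_deriv (x v : X) (t : ℝ) : HasDerivAt (fun t : ℝ => x + t • v) v t := by
  simpa using ((hasDerivAt_id t).smul_const v).const_add x

theorem line_tendsto (x v : X) : Tendsto (fun t : ℝ => x + t • v) (𝓝 0) (𝓝 x) := by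
  have := (line_deriv x v 0).continuousAt.tendsto
  simpa using this

theorem deriv_line {f : X → ℝ} {x : X} (hf : ContDiffAt ℝ 2 f x) (v : X) :
    deriv (fun t : ℝ => f (x + t • v)) =ᶠ[𝓝 0] fun t : ℝ => fderiv ℝ f (x + t • v) v :=
  ((line_tendsto x v).eventually (ev_diff hf)).mono fun t h =>
    (h.hasFDerivAt.comp_hasDerivAt t (line_deriv x v t)).deriv

end CalcA

open CalcA

theorem D2_symm {f : X → ℝ} {x : X} (hf : ContDiffAt ℝ 2 f x) (v w : X) :
    D2 f x v w = D2 f x w v :=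
  (hf.isSymmSndFDerivAt (by simp)).eq v w

theorem D2_congr {f g : X → ℝ} {x : X} (h : f =ᶠ[𝓝 x] g) : D2 f x = D2 g x :=
  h.fderiv.fderiv_eq

theorem hasDerivAt_fderiv_line {f : X → ℝ} {x : X} (hf : ContDiffAt ℝ 2 f x) (v w : X) :
    HasDerivAt (fun t : ℝ => fderiv ℝ f (x + t • v) w) (D2 f x v w) 0 := by
  have h1 : HasFDerivAt (fderiv ℝ f) (D2 f x) (x + (0 : ℝ) • v) := by simpa using has_D2 hf
  have h2 : HasDerivAt (fun t : ℝ => fderiv ℝ f (x + t • v)) (D2 f x v) 0 :=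
    HasFDerivAt.comp_hasDerivAt (f := fun t : ℝ => x + t • v) (0 : ℝ) h1 (line_deriv x v 0)
  have h3 := h2.clm_apply (hasDerivAt_const (0 : ℝ) w)
  rw [map_zero, add_zero] at h3
  exact h3

theorem iteratedDeriv_two_line {f : X → ℝ} {x : X} (hf : ContDiffAt ℝ 2 f x) (v : X) :
    iteratedDeriv 2 (fun t : ℝ => f (x + t • v)) 0 = D2 f x v v := by
  rw [iteratedDeriv_succ, iteratedDeriv_one, (deriv_line hf v).deriv_eq]
  exact (hasDerivAt_fderiv_line hf v v).deriv

theorem D2_nonneg_of_isLocalMin {f : X → ℝ} {x : X} (hf : ContDiffAt ℝ 2 f x)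
    (h : IsLocalMin f x) (v : X) : 0 ≤ D2 f x v v := by
  by_contra hneg
  push Not at hneg
  have hmin : IsLocalMin (fun t : ℝ => f (x + t • v)) 0 := by
    have := (line_tendsto x v).eventually h
    simpa [IsLocalMin, IsMinFilter] using this
  have h2 : deriv (deriv fun t : ℝ => f (x + t • v)) 0 = D2 f x v v := by
    rw [← iteratedDeriv_two_line hf v, iteratedDeriv_succ, iteratedDeriv_one]
  have hc : ContinuousAt (fun t : ℝ => f (x + t • v)) 0 := by
    have : ContinuousAt f (x + (0 : ℝ) • v) := by simpa using hf.continuousAt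
    exact ContinuousAt.comp (f := fun t : ℝ => x + t • v) this (line_deriv x v 0).continuousAt
  have hmax := isLocalMax_of_deriv_deriv_neg (h2 ▸ hneg) hmin.deriv_eq_zero hc
  have hconst : (fun t : ℝ => f (x + t • v)) =ᶠ[𝓝 0] fun _ => f (x + (0 : ℝ) • v) := by
    filter_upwards [hmin, hmax] with t a b using le_antisymm b a
  rw [hconst.deriv.deriv_eq] at h2
  simp at h2
  linarith

theorem D2_add {f g : X → ℝ} {x : X} (hf : ContDiffAt ℝ 2 f x) (hg : ContDiffAt ℝ 2 g x)
    (v w : X) : D2 (fun z => f z + g z) x v w = D2 f x v w + D2 g x v w := by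
  have h : fderiv ℝ (fun z => f z + g z) =ᶠ[𝓝 x] fun z => fderiv ℝ f z + fderiv ℝ g z := by
    filter_upwards [ev_diff hf, ev_diff hg] with z a b using fderiv_fun_add a b
  rw [D2, h.fderiv_eq, ((has_D2 hf).fun_add (has_D2 hg)).fderiv]
  rfl

theorem D2_sub {f g : X → ℝ} {x : X} (hf : ContDiffAt ℝ 2 f x) (hg : ContDiffAt ℝ 2 g x)
    (v w : X) : D2 (fun z => f z - g z) x v w = D2 f x v w - D2 g x v w := by
  have h : fderiv ℝ (fun z => f z - g z) =ᶠ[𝓝 x] fun z => fderiv ℝ f z - fderiv ℝ g z := by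
    filter_upwards [ev_diff hf, ev_diff hg] with z a b using fderiv_fun_sub a b
  rw [D2, h.fderiv_eq, ((has_D2 hf).fun_sub (has_D2 hg)).fderiv]
  rfl

theorem D2_const_mul {f : X → ℝ} {x : X} (hf : ContDiffAt ℝ 2 f x) (c : ℝ)
    (v w : X) : D2 (fun z => c * f z) x v w = c * D2 f x v w := by
  have h : fderiv ℝ (fun z => c * f z) =ᶠ[𝓝 x] fun z => c • fderiv ℝ f z := by
    filter_upwards [ev_diff hf] with z a using fderiv_const_mul a c
  rw [D2, h.fderiv_eq, ((has_D2 hf).fun_const_smul c).fderiv]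
  rfl

theorem D2_add_const (f : X → ℝ) (x : X) (c : ℝ) : D2 (fun z => f z + c) x = D2 f x := by
  have h : fderiv ℝ (fun z => f z + c) = fderiv ℝ f := funext fun z => fderiv_add_const c
  rw [D2, h, D2]

theorem D2_comp_affine {f : X → ℝ} (L : P →L[ℝ] X) (c : X) {y : P}
    (hf : ContDiffAt ℝ 2 f (c + L y)) (v w : P) :
    D2 (fun z => f (c + L z)) y v w = D2 f (c + L y) (L v) (L w) := by
  have hL : ∀ z, HasFDerivAt (fun z => c + L z) L z := fun z => L.hasFDerivAt.const_add c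
  have h : fderiv ℝ (fun z => f (c + L z)) =ᶠ[𝓝 y] fun z => (fderiv ℝ f (c + L z)).comp L := by
    filter_upwards [(hL y).continuousAt.eventually (ev_diff hf)] with z a
    exact (a.hasFDerivAt.comp z (hL z)).fderiv
  have h2 := ((has_D2 hf).comp y (hL y)).clm_comp (hasFDerivAt_const L y)
  rw [D2, h.fderiv_eq]
  erw [h2.fderiv]
  simp

theorem D2_quad (g : X →L[ℝ] X →L[ℝ] ℝ) (hs : ∀ v w, g v w = g w v) (x v w : X) :
    D2 (fun z => g z z) x v w = 2 * g v w := by
  have h : fderiv ℝ (fun z => g z z) = fun z => ((2 : ℝ) • g) z := by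
    funext z
    have := (g.hasFDerivAt (x := z)).clm_apply (hasFDerivAt_id z)
    erw [this.fderiv]
    ext u
    simp [hs u z, two_mul]
  rw [D2, h, ((2 : ℝ) • g).fderiv]
  simp

/-- Expansion of the second derivative on a product. -/
theorem D2_prod {f : P × X → ℝ} (hf : ContDiffAt ℝ 2 f 0) (k : P) (ξ : X) :
    D2 f 0 (k, ξ) (k, ξ) = D2 (fun μ => f (μ, 0)) 0 k k +
      2 * deriv (fun t : ℝ => fderiv ℝ (fun ζ => f (t • k, ζ)) 0 ξ) 0 +
      D2 (fun ζ => f (0, ζ)) 0 ξ ξ := by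
  have h1 := D2_comp_affine (f := f) (ContinuousLinearMap.inl ℝ P X) 0 (y := 0)
    (by rw [map_zero, add_zero]; exact hf) k k
  have h2 := D2_comp_affine (f := f) (ContinuousLinearMap.inr ℝ P X) 0 (y := 0)
    (by rw [map_zero, add_zero]; exact hf) ξ ξ
  simp only [ContinuousLinearMap.inl_apply, ContinuousLinearMap.inr_apply, zero_add,
    Prod.mk_zero_zero] at h1 h2
  have h3 : (fun t : ℝ => fderiv ℝ (fun ζ => f (t • k, ζ)) 0 ξ) =ᶠ[𝓝 0]
      fun t : ℝ => fderiv ℝ f (0 + t • ((k, 0) : P × X)) (0, ξ) := by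
    filter_upwards [(line_tendsto (0 : P × X) (k, 0)).eventually (ev_diff hf)] with t a
    have e : (0 : P × X) + t • ((k, 0) : P × X) = (t • k, 0) := by simp
    rw [e] at a ⊢
    have := a.hasFDerivAt.comp (0 : X) (hasFDerivAt_prodMk_right (𝕜 := ℝ) (t • k) (0 : X))
    erw [this.fderiv]
    simp
  rw [h1, h2, h3.deriv_eq, (hasDerivAt_fderiv_line hf (k, 0) (0, ξ)).deriv]
  have e : ((k, ξ) : P × X) = (k, 0) + (0, ξ) := by simp
  rw [e]
  simp only [map_add, add_apply]
  rw [D2_symm hf (0, ξ) (k, 0)]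
  ring

end Vale.Agent.P234
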