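import Vale.Agent.P234.CalcA

/-! P234 CalcB: parametric derivatives, uniform Taylor expansions. -/

open Set Manifold Filter Metric
open scoped ContDiff Topology

namespace Vale.Agent.P234

variable {X : Type*} [NormedAddCommGroup X] [NormedSpace ℝ X]
  {P : Type*} [NormedAddCommGroup P] [NormedSpace ℝ P]

theorem contDiffAt_fderiv_param {Y : Type*} [NormedAddCommGroup Y] [NormedSpace ℝ Y]
    {F : P × X → Y} {θ : P} {x : X} (hF : ∀ᶠ q in 𝓝 (θ, x), ContDiffAt ℝ ∞ F q) :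
    ∀ᶠ q in 𝓝 (θ, x), ContDiffAt ℝ ∞
      (fun q : P × X => fderiv ℝ (fun z => F (q.1, z)) q.2) q := by
  refine hF.mono fun q hq => ?_
  refine ContDiffAt.fderiv (n := ∞) (f := fun (q : P × X) (z : X) => F (q.1, z))
    (g := fun q => q.2) ?_ contDiffAt_snd (by simp)
  have h : ContDiffAt ℝ ∞ (fun u : (P × X) × X => ((u.1.1, u.2) : P × X)) (q, q.2) := by fun_prop
  exact ContDiffAt.comp (g := F) (f := fun u : (P × X) × X => ((u.1.1, u.2) : P × X)) (q, q.2) hq h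

theorem contDiffAt_D2_param {F : P × X → ℝ} {θ : P} {x : X}
    (hF : ∀ᶠ q in 𝓝 (θ, x), ContDiffAt ℝ ∞ F q) :
    ∀ᶠ θ' in 𝓝 θ, ContDiffAt ℝ ∞ (fun θ'' => D2 (fun z => F (θ'', z)) x) θ' := by
  have h := contDiffAt_fderiv_param (contDiffAt_fderiv_param hF)
  have hc : ContinuousAt (fun θ' : P => ((θ', x) : P × X)) θ := by fun_prop
  refine (hc.eventually h).mono fun θ' hθ' => ?_
  have h2 : ContDiffAt ℝ ∞ (fun θ' : P => ((θ', x) : P × X)) θ' := by fun_prop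
  exact ContDiffAt.comp (f := fun θ' : P => ((θ', x) : P × X)) θ' hθ' h2

namespace CalcB

theorem fderiv_slice {Y : Type*} [NormedAddCommGroup Y] [NormedSpace ℝ Y] {F : P × X → Y}
    {θ : P} {x : X} (h : DifferentiableAt ℝ F (θ, x)) (ξ : X) :
    fderiv ℝ (fun z => F (θ, z)) x ξ = fderiv ℝ F (θ, x) (0, ξ) := by
  have := h.hasFDerivAt.comp x (hasFDerivAt_prodMk_right (𝕜 := ℝ) θ x)
  erw [this.fderiv]
  simp

omit [NormedSpace ℝ P] in
theorem tend_pair {ι : Type*} {l : Filter ι} {θ : P} {ξ : X} {θk : ι → P} {rk : ι → ℝ}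
    {ξk : ι → X} (hθ : Tendsto θk l (𝓝 θ)) (hr : Tendsto rk l (𝓝[≠] 0))
    (hξ : Tendsto ξk l (𝓝 ξ)) : Tendsto (fun k => (θk k, rk k • ξk k)) l (𝓝 (θ, 0)) := by
  have := (hr.mono_right nhdsWithin_le_nhds).smul hξ
  rw [zero_smul] at this
  exact hθ.prodMk_nhds this

theorem bigO {ι : Type*} {l : Filter ι} {ξ : X} (rk : ι → ℝ) {ξk : ι → X}
    (hξ : Tendsto ξk l (𝓝 ξ)) : (fun k => rk k • ξk k) =O[l] rk := by
  have := (Asymptotics.isBigO_refl rk l).smul (hξ.isBigO_one ℝ)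
  simpa using this

theorem tay2_aux {F : P × X → ℝ} {θ : P} (hF : ContDiffAt ℝ 2 F (θ, 0)) :
    (fun q : P × X => F q - F (q.1, 0) - fderiv ℝ F (q.1, 0) (0, q.2) -
      D2 F (θ, 0) (0, q.2) (0, q.2) / 2) =o[𝓝 (θ, 0)] fun q => ‖q.2‖ ^ 2 := by
  have hs : HasStrictFDerivAt (fderiv ℝ F) (D2 F (θ, 0)) (θ, 0) :=
    (hF.fderiv_right (m := 1) (by norm_num)).hasStrictFDerivAt (by simp)
  rw [Asymptotics.isLittleO_iff]
  intro c hc
  have h1 := Asymptotics.isLittleO_iff.1 hs.isLittleO hc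
  rw [nhds_prod_eq] at h1
  obtain ⟨s, hs1, hs2⟩ := (eventually_prod_self_iff (r := fun x y =>
    ‖fderiv ℝ F x - fderiv ℝ F y - D2 F (θ, 0) (x - y)‖ ≤ c * ‖x - y‖)).1 h1
  obtain ⟨δ, hδ, hb⟩ := Metric.eventually_nhds_iff_ball.1
    ((CalcA.ev_diff hF).and (show ∀ᶠ q in 𝓝 ((θ, 0) : P × X), q ∈ s from hs1))
  filter_upwards [ball_mem_nhds _ hδ] with q hq
  have hm : ∀ t ∈ Icc (0 : ℝ) 1, ((q.1, 0) : P × X) + t • (0, q.2) ∈ ball ((θ, 0) : P × X) δ := by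
    intro t ht
    rw [mem_ball, Prod.dist_eq, max_lt_iff] at hq ⊢
    refine ⟨by simpa using hq.1, lt_of_le_of_lt ?_ hq.2⟩
    simp only [Prod.snd_add, Prod.smul_snd, zero_add, dist_zero_right, norm_smul, Real.norm_eq_abs,
      abs_of_nonneg ht.1]
    exact mul_le_of_le_one_left (norm_nonneg _) ht.2
  have hd : ∀ t ∈ Icc (0 : ℝ) 1, HasDerivWithinAt
      (fun t : ℝ => F (((q.1, 0) : P × X) + t • (0, q.2)) - t * fderiv ℝ F (q.1, 0) (0, q.2) -
        t ^ 2 * (D2 F (θ, 0) (0, q.2) (0, q.2) / 2))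
      ((fderiv ℝ F (((q.1, 0) : P × X) + t • (0, q.2)) - fderiv ℝ F (q.1, 0) -
        D2 F (θ, 0) (t • (0, q.2))) (0, q.2)) (Icc 0 1) t := by
    intro t ht
    have a : HasDerivAt (fun t : ℝ => F (((q.1, 0) : P × X) + t • (0, q.2)))
        (fderiv ℝ F (((q.1, 0) : P × X) + t • (0, q.2)) (0, q.2)) t :=
      HasFDerivAt.comp_hasDerivAt (f := fun t : ℝ => ((q.1, 0) : P × X) + t • (0, q.2)) t
        (hb _ (hm t ht)).1.hasFDerivAt (CalcA.line_deriv _ _ t)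
    have b := (a.sub ((hasDerivAt_id' t).mul_const (fderiv ℝ F (q.1, 0) (0, q.2)))).sub
      ((hasDerivAt_pow 2 t).mul_const (D2 F (θ, 0) (0, q.2) (0, q.2) / 2))
    refine HasDerivAt.hasDerivWithinAt (b.congr_deriv ?_)
    simp only [map_smul, sub_apply, smul_apply, smul_eq_mul]
    norm_num
    ring
  have hn : ‖((0, q.2) : P × X)‖ = ‖q.2‖ := by simp [Prod.norm_def]
  have := norm_image_sub_le_of_norm_deriv_le_segment_01' (C := c * ‖q.2‖ ^ 2) hd fun t ht => by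
    have a := hs2 _ (hb _ (hm t (Ico_subset_Icc_self ht))).2 _ (hb _ (hm 0 (by simp))).2
    simp only [zero_smul, add_zero, add_sub_cancel_left] at a
    refine ((ContinuousLinearMap.le_opNorm _ _).trans
      (mul_le_mul_of_nonneg_right a (norm_nonneg _))).trans ?_
    rw [norm_smul, hn, Real.norm_eq_abs, abs_of_nonneg ht.1]
    have : t * ‖q.2‖ ≤ ‖q.2‖ := mul_le_of_le_one_left (norm_nonneg _) ht.2.le
    calc c * (t * ‖q.2‖) * ‖q.2‖ ≤ c * ‖q.2‖ * ‖q.2‖ := by gcongr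
      _ = _ := by ring
  have e : ((q.1, 0) : P × X) + (0, q.2) = q := by simp
  simp only [one_smul, zero_smul, add_zero, one_mul, one_pow, zero_mul, sub_zero, e] at this
  rw [Real.norm_of_nonneg (sq_nonneg ‖q.2‖)]
  refine le_of_eq_of_le ?_ this
  congr 1
  ring

end CalcB

open CalcB

theorem tay1 {ι : Type*} {l : Filter ι} {F : P × X → ℝ} {θ : P} {ξ : X}
    (hF : ContDiffAt ℝ 1 F (θ, 0)) {θk : ι → P} {rk : ι → ℝ} {ξk : ι → X}
    (hθ : Tendsto θk l (𝓝 θ)) (hr : Tendsto rk l (𝓝[≠] 0)) (hξ : Tendsto ξk l (𝓝 ξ)) :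
    Tendsto (fun k => (F (θk k, rk k • ξk k) - F (θk k, 0)) / rk k) l
      (𝓝 (fderiv ℝ (fun z => F (θ, z)) 0 ξ)) := by
  have hs := (hF.hasStrictFDerivAt (by simp)).isLittleO
  have ht : Tendsto (fun k => (((θk k, rk k • ξk k), (θk k, 0)) : (P × X) × (P × X))) l
      (𝓝 ((θ, 0), (θ, 0))) :=
    (tend_pair hθ hr hξ).prodMk_nhds (hθ.prodMk_nhds tendsto_const_nhds)
  have h1 := hs.comp_tendsto ht
  have h2 : (fun k => ((θk k, rk k • ξk k) : P × X) - (θk k, 0)) =O[l] rk := by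
    refine Asymptotics.IsBigO.trans (Asymptotics.IsBigO.of_norm_le fun k => ?_)
      (bigO rk hξ).norm_left
    simp [Prod.norm_def]
  have h3 := (h1.trans_isBigO h2).tendsto_div_nhds_zero
  have h4 : Tendsto (fun k => fderiv ℝ F (θ, 0) (0, ξk k)) l (𝓝 (fderiv ℝ F (θ, 0) (0, ξ))) :=
    ((fderiv ℝ F (θ, 0)).continuous.tendsto _).comp (tendsto_const_nhds.prodMk_nhds hξ)
  have h5 := h3.add h4
  rw [zero_add] at h5
  rw [fderiv_slice (hF.differentiableAt (by simp))]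
  refine h5.congr' ?_
  filter_upwards [hr.eventually self_mem_nhdsWithin] with k hk
  have hk' : rk k ≠ 0 := hk
  have e : ((θk k, rk k • ξk k) : P × X) - (θk k, 0) = rk k • (0, ξk k) := by simp
  simp only [Function.comp, e, map_smul, smul_eq_mul]
  field_simp
  ring

theorem tay2 {ι : Type*} {l : Filter ι} {F : P × X → ℝ} {θ : P} {ξ : X}
    (hF : ContDiffAt ℝ 2 F (θ, 0)) {θk : ι → P} {rk : ι → ℝ} {ξk : ι → X}
    (hθ : Tendsto θk l (𝓝 θ)) (hr : Tendsto rk l (𝓝[≠] 0)) (hξ : Tendsto ξk l (𝓝 ξ)) :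
    Tendsto (fun k => (F (θk k, rk k • ξk k) - F (θk k, 0) -
        rk k * fderiv ℝ (fun z => F (θk k, z)) 0 (ξk k)) / rk k ^ 2) l
      (𝓝 (D2 (fun z => F (θ, z)) 0 ξ ξ / 2)) := by
  have h1 := (tay2_aux hF).comp_tendsto (tend_pair hθ hr hξ)
  have h2 : (fun k => ‖rk k • ξk k‖ ^ 2) =O[l] fun k => rk k ^ 2 := (bigO rk hξ).norm_left.pow 2
  have h3 := (h1.trans_isBigO h2).tendsto_div_nhds_zero
  have h0 : Tendsto (fun k => ((0, ξk k) : P × X)) l (𝓝 (0, ξ)) :=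
    tendsto_const_nhds.prodMk_nhds hξ
  have h4 : Tendsto (fun k => D2 F (θ, 0) (0, ξk k) (0, ξk k) / 2) l
      (𝓝 (D2 F (θ, 0) (0, ξ) (0, ξ) / 2)) := by
    have : Continuous fun u : P × X => D2 F (θ, 0) u u / 2 := by fun_prop
    exact (this.tendsto _).comp h0
  have h5 := h3.add h4
  rw [zero_add] at h5
  have h6 := D2_comp_affine (f := F) (ContinuousLinearMap.inr ℝ P X) (θ, 0) (y := 0)
    (by rw [map_zero, add_zero]; exact hF) ξ ξ
  simp only [ContinuousLinearMap.inr_apply, Prod.mk_add_mk, add_zero, zero_add] at h6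
  rw [h6]
  refine h5.congr' ?_
  filter_upwards [hr.eventually self_mem_nhdsWithin,
    (hθ.prodMk_nhds (tendsto_const_nhds (x := (0 : X)))).eventually (CalcA.ev_diff hF)] with k hk hd
  have hk' : rk k ≠ 0 := hk
  have e : ((0, rk k • ξk k) : P × X) = rk k • (0, ξk k) := by simp
  simp only [Function.comp, e, map_smul, smul_apply, smul_eq_mul, fderiv_slice hd]
  field_simp
  ring

theorem tay2' {ι : Type*} {l : Filter ι} {f : X → ℝ} {ξ : X}
    (hf : ContDiffAt ℝ 2 f 0) {rk : ι → ℝ} {ξk : ι → X}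
    (hr : Tendsto rk l (𝓝[≠] 0)) (hξ : Tendsto ξk l (𝓝 ξ)) :
    Tendsto (fun k => (f (rk k • ξk k) - f 0 - rk k * fderiv ℝ f 0 (ξk k)) / rk k ^ 2) l
      (𝓝 (D2 f 0 ξ ξ / 2)) :=
  tay2 (P := ℝ) (F := fun q => f q.2) (θ := 0) (θk := fun _ => 0)
    (ContDiffAt.comp (g := f) (f := fun q : ℝ × X => q.2) (0, 0) hf contDiffAt_snd)
    tendsto_const_nhds hr hξ

/-- First and second order information from finitely many inequalities. -/
theorem fm {ι κ : Type*} [Fintype ι] {l : Filter κ} [l.NeBot] {r : κ → ℝ}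
    {lam b s : κ → ι → ℝ} {lam₀ b₀ s₀ : ι → ℝ} (hr : Tendsto r l (𝓝[>] 0))
    (hl : ∀ i, Tendsto (fun k => lam k i) l (𝓝 (lam₀ i)))
    (hb : ∀ i, Tendsto (fun k => b k i) l (𝓝 (b₀ i)))
    (hs : ∀ i, Tendsto (fun k => s k i) l (𝓝 (s₀ i)))
    (hl0 : ∀ k i, 0 ≤ lam k i) (hsum : ∀ k, ∑ i, lam k i * b k i = 0)
    (h : ∀ᶠ k in l, ∀ i, r k * b k i + r k ^ 2 * s k i ≤ 0) :
    (∀ i, 0 < lam₀ i → b₀ i = 0) ∧ ∑ i, lam₀ i * s₀ i ≤ 0 := by
  have hpos : ∀ᶠ k in l, 0 < r k := hr.eventually self_mem_nhdsWithin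
  have hr0 := hr.mono_right nhdsWithin_le_nhds
  have h1 : ∀ i, b₀ i ≤ 0 := fun i => by
    have a := (hb i).add (hr0.mul (hs i))
    rw [zero_mul, add_zero] at a
    refine le_of_tendsto a ?_
    filter_upwards [hpos, h] with k hk hk'
    refine le_of_mul_le_mul_left ?_ hk
    have := hk' i
    nlinarith
  have h2 : ∀ i, 0 ≤ lam₀ i := fun i => ge_of_tendsto' (hl i) fun k => hl0 k i
  have h3 : ∑ i, lam₀ i * b₀ i = 0 := by
    have a := tendsto_finsetSum Finset.univ fun i _ => (hl i).mul (hb i)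
    simp only [hsum] at a
    exact tendsto_nhds_unique a tendsto_const_nhds
  refine ⟨fun i hi => ?_, ?_⟩
  · have := (Finset.sum_eq_zero_iff_of_nonpos fun i _ =>
      mul_nonpos_of_nonneg_of_nonpos (h2 i) (h1 i)).1 h3 i (Finset.mem_univ i)
    exact (mul_eq_zero.1 this).resolve_left hi.ne'
  · refine le_of_tendsto (tendsto_finsetSum Finset.univ fun i _ => (hl i).mul (hs i)) ?_
    filter_upwards [hpos, h] with k hk hk'
    have a : ∑ i, lam k i * (r k * b k i + r k ^ 2 * s k i) ≤ 0 :=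
      Finset.sum_nonpos fun i _ => mul_nonpos_of_nonneg_of_nonpos (hl0 k i) (hk' i)
    have e : ∑ i, lam k i * (r k * b k i + r k ^ 2 * s k i) =
        r k * ∑ i, lam k i * b k i + r k ^ 2 * ∑ i, lam k i * s k i := by
      rw [Finset.mul_sum, Finset.mul_sum, ← Finset.sum_add_distrib]
      exact Finset.sum_congr rfl fun i _ => by ring
    rw [e, hsum, mul_zero, zero_add] at a
    exact nonpos_of_mul_nonpos_right a (by positivity)

/-- A sequence of nonzero vectors tending to zero has a subsequence with convergent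
directions. -/
theorem exists_direction [FiniteDimensional ℝ X] {z : ℕ → X} (hz : Tendsto z atTop (𝓝 0))
    (h0 : ∀ k, z k ≠ 0) : ∃ (φ : ℕ → ℕ) (r : ℕ → ℝ) (ξk : ℕ → X) (ξ : X), StrictMono φ ∧
      ξ ≠ 0 ∧ Tendsto r atTop (𝓝[>] 0) ∧ Tendsto ξk atTop (𝓝 ξ) ∧ ∀ k, z (φ k) = r k • ξk k := by
  have := FiniteDimensional.proper_real X
  have hn : ∀ k, 0 < ‖z k‖ := fun k => norm_pos_iff.2 (h0 k)
  obtain ⟨ξ, hξ, φ, hφ, ht⟩ := (isCompact_sphere (0 : X) 1).tendsto_subseq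
    (x := fun k => ‖z k‖⁻¹ • z k) fun k => by
      rw [mem_sphere_zero_iff_norm, norm_smul, norm_inv, norm_norm, inv_mul_cancel₀ (hn k).ne']
  refine ⟨φ, fun k => ‖z (φ k)‖, fun k => ‖z (φ k)‖⁻¹ • z (φ k), ξ, hφ, ?_, ?_, ht, fun k => ?_⟩
  · rintro rfl
    simp at hξ
  · refine tendsto_nhdsWithin_iff.2 ⟨?_, Eventually.of_forall fun k => hn _⟩
    simpa using (hz.comp hφ.tendsto_atTop).norm
  · rw [smul_smul, mul_inv_cancel₀ (hn _).ne', one_smul]

end Vale.Agent.P234
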