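import Vale.Agent.P234.Defs0

/-! P234 Ch: the metric tensor in charts. -/

open Bundle Set Manifold Filter Metric
open scoped ContDiff Topology

namespace Vale.Agent.P234

variable {E : Type*} [NormedAddCommGroup E] [NormedSpace ℝ E] [FiniteDimensional ℝ E]
  {M : Type*} [MetricSpace M] [ChartedSpace E M] [IsManifold 𝓘(ℝ, E) ∞ M]
  [RiemannianBundle (fun x : M => TangentSpace 𝓘(ℝ, E) x)]
  [IsContMDiffRiemannianBundle 𝓘(ℝ, E) ∞ E (fun x : M => TangentSpace 𝓘(ℝ, E) x)]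

theorem GM_symm (p : M) (a v w : E) : GM p a v w = GM p a w v := by
  rw [GM_apply, GM_apply, real_inner_comm]

theorem DPsi_bijective {p : M} {a : E} (ha : a ∈ (chartAt E p).target) :
    Function.Bijective (DPsi p a) :=
  (mdifferentiable_chart (I := 𝓘(ℝ, E)) p).symm.mfderiv_bijective ha

theorem GM_pos {p : M} {a : E} (ha : a ∈ (chartAt E p).target) (v : E) (hv : v ≠ 0) :
    0 < GM p a v v := by
  rw [GM_apply]
  exact real_inner_self_pos.2 fun e => hv ((DPsi_bijective ha).1 (e.trans (map_zero _).symm))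

theorem ch_md_symm {p : M} {a : E} (ha : a ∈ (chartAt E p).target) :
    MDifferentiableAt 𝓘(ℝ, E) 𝓘(ℝ, E) (chartAt E p).symm a :=
  mdifferentiableAt_atlas_symm (chart_mem_atlas E p) ha

theorem ch_md {p y : M} (hy : y ∈ (chartAt E p).source) :
    MDifferentiableAt 𝓘(ℝ, E) 𝓘(ℝ, E) (chartAt E p) y :=
  mdifferentiableAt_atlas (chart_mem_atlas E p) hy

theorem GM_smooth (p : M) : ContDiffOn ℝ ∞ (GM (E := E) p) (chartAt E p).target := by
  refine contDiffOn_clm_apply.2 fun v => contDiffOn_clm_apply.2 fun w => ?_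
  have T : ∀ v : E, ContMDiffOn 𝓘(ℝ, E) (𝓘(ℝ, E).prod 𝓘(ℝ, E)) ∞ (fun a => TotalSpace.mk' E
      (E := fun x : M => TangentSpace 𝓘(ℝ, E) x) ((chartAt E p).symm a) (DPsi p a v))
      (chartAt E p).target := fun v => by
    have h := ((contMDiffOn_chart_symm (I := 𝓘(ℝ, E)) (n := ∞) (x := p)).contMDiffOn_tangentMapWithin
      (m := ∞) (by simp) (chartAt E p).open_target.uniqueMDiffOn).comp
      (contMDiff_vectorSpace_iff_contDiff.2 (contDiff_const (c := v))).contMDiffOn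
      (s := (chartAt E p).target) (fun a ha => ha)
    refine h.congr fun a ha => ?_
    exact (tangentMapWithin_eq_tangentMap (p := ⟨a, v⟩)
      ((chartAt E p).open_target.uniqueMDiffOn a ha) (ch_md_symm ha)).symm
  exact contMDiffOn_iff_contDiffOn.1 (ContMDiffOn.inner_bundle (IB := 𝓘(ℝ, E)) (F := E)
    (E := fun x : M => TangentSpace 𝓘(ℝ, E) x) (T v) (T w))

/-- the inner product of two vectors read in a chart -/
theorem ch_key {q y : M} (hy : y ∈ (chartAt E q).source) (α β : TangentSpace 𝓘(ℝ, E) y) :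
    GM q (chartAt E q y) (mfderiv 𝓘(ℝ, E) 𝓘(ℝ, E) (chartAt E q) y α)
      (mfderiv 𝓘(ℝ, E) 𝓘(ℝ, E) (chartAt E q) y β) = inner ℝ α β := by
  have tr : ∀ (z : M) (_ : z = y) (u u' : E), @inner ℝ (TangentSpace 𝓘(ℝ, E) z) _ u u' =
      @inner ℝ (TangentSpace 𝓘(ℝ, E) y) _ u u' := fun z h u u' => by subst h; rfl
  have e := fun γ => DFunLike.congr_fun
    ((mdifferentiable_chart (I := 𝓘(ℝ, E)) q).symm_comp_deriv hy) γ
  refine ((GM_apply _ _ _ _).trans (tr _ ((chartAt E q).left_inv hy) _ _)).trans ?_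
  exact congrArg₂ (fun u u' : E => @inner ℝ (TangentSpace 𝓘(ℝ, E) y) _ u u') (e α) (e β)

theorem GM_compat (p q : M) {a : E} (ha : a ∈ (chartAt E p).target)
    (hq : (chartAt E p).symm a ∈ (chartAt E q).source) (v w : E) :
    GM q (chartAt E q ((chartAt E p).symm a))
      (fderiv ℝ (fun b => chartAt E q ((chartAt E p).symm b)) a v)
      (fderiv ℝ (fun b => chartAt E q ((chartAt E p).symm b)) a w) = GM p a v w := by
  have d := mfderiv_comp a (ch_md hq) (ch_md_symm ha)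
  rw [mfderiv_eq_fderiv] at d
  have e : fderiv ℝ (fun b => chartAt E q ((chartAt E p).symm b)) a = _ := d
  rw [e]
  exact ch_key hq (DPsi p a v) (DPsi p a w)

theorem ch_md_curve {p : M} {γ : ℝ → M} {t : ℝ} (hγ : ContinuousAt γ t)
    (ht : γ t ∈ (chartAt E p).source) (hw : DifferentiableAt ℝ (fun s => chartAt E p (γ s)) t) :
    MDifferentiableAt 𝓘(ℝ, ℝ) 𝓘(ℝ, E) γ t := by
  refine (MDifferentiableAt.comp t (g := (chartAt E p).symm) (f := fun s => chartAt E p (γ s))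
    (ch_md_symm ((chartAt E p).map_source ht)) hw.mdifferentiableAt).congr_of_eventuallyEq ?_
  filter_upwards [hγ.eventually ((chartAt E p).open_source.mem_nhds ht)] with s hs
  exact ((chartAt E p).left_inv hs).symm

/-- velocity of a curve read in a chart -/
theorem ch_hasDerivAt {p : M} {γ : ℝ → M} {t : ℝ} (hγ : MDifferentiableAt 𝓘(ℝ, ℝ) 𝓘(ℝ, E) γ t)
    (ht : γ t ∈ (chartAt E p).source) : HasDerivAt (fun s => chartAt E p (γ s))
      (mfderiv 𝓘(ℝ, E) 𝓘(ℝ, E) (chartAt E p) (γ t) (mfderiv 𝓘(ℝ, ℝ) 𝓘(ℝ, E) γ t (1 : ℝ))) t := by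
  have h : HasFDerivAt (fun s => chartAt E p (γ s)) (_ : ℝ →L[ℝ] E) t :=
    hasMFDerivAt_iff_hasFDerivAt.1 ((ch_md ht).hasMFDerivAt.comp t hγ.hasMFDerivAt)
  exact h.hasDerivAt

/-- Speed of a curve read in a chart. -/
theorem norm_mfderiv_eq {p : M} {γ : ℝ → M} {t : ℝ} {w : E} (hγ : ContinuousAt γ t)
    (ht : γ t ∈ (chartAt E p).source) (hw : HasDerivAt (fun s => chartAt E p (γ s)) w t) :
    ‖mfderiv 𝓘(ℝ, ℝ) 𝓘(ℝ, E) γ t (1 : ℝ)‖ = √(GM p (chartAt E p (γ t)) w w) := by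
  rw [hw.unique (ch_hasDerivAt (ch_md_curve hγ ht hw.differentiableAt) ht), ch_key ht,
    norm_eq_sqrt_real_inner]

end Vale.Agent.P234
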