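import Vale.Agent.P234.Good

/-! P234 Conc: concavity from MTW, Jensen, the Hessian inequality. -/

open Set Manifold Filter Metric
open scoped ContDiff Topology

namespace Vale.Agent.P234

variable {E : Type*} [NormedAddCommGroup E] [NormedSpace ℝ E] [FiniteDimensional ℝ E]
  {M : Type*} [MetricSpace M] [ChartedSpace E M] [IsManifold 𝓘(ℝ, E) ∞ M] [CompactSpace M]

namespace Geo

variable (Γ : Geo E M) {p : M} {a : E}

theorem concave_A (hM : Γ.MTW) (ha : a ∈ (chartAt E p).target) {u η ξ : E} {X₀ X₁ : ℝ}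
    (hI : ∀ X ∈ Icc X₀ X₁, u + X • η ∈ Γ.Io p a) (h : Γ.G p a ξ η = 0) :
    ConcaveOn ℝ (Icc X₀ X₁) (fun X => Γ.A p a (u + X • η) ξ ξ) := by
  have h1 : ∀ X ∈ Icc X₀ X₁, ContDiffAt ℝ ∞ (fun X : ℝ => Γ.A p a (u + X • η) ξ ξ) X :=
    fun X hX => ((ContDiffAt.comp X (f := fun X : ℝ => u + X • η)
      (Γ.A_smooth_fix ha (Γ.good_of_Io ha (hI X hX))).self_of_nhds (by fun_prop)).clm_apply
        contDiffAt_const).clm_apply contDiffAt_const
  refine concaveOn_of_deriv2_nonpos (convex_Icc _ _)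
    (fun X hX => (h1 X hX).continuousAt.continuousWithinAt)
    (fun X hX => ((h1 X (interior_subset hX)).differentiableAt (by simp)).differentiableWithinAt)
    (fun X hX => (((h1 X (interior_subset hX)).derivWithin (m := 1) (by norm_cast)).differentiableAt
      (by simp)).differentiableWithinAt) fun X hX => ?_
  have h2 := hM p a ha _ (hI X (interior_subset hX)) ξ η h
  have h3 : (fun s : ℝ => iteratedDeriv 2 (fun t : ℝ => Γ.C p a (u + X • η + s • η) (t • ξ)) 0)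
      =ᶠ[𝓝 0] fun s => Γ.A p a (u + (X + s) • η) ξ ξ := by
    have c : Tendsto (fun s : ℝ => X + s) (𝓝 0) (𝓝 X) :=
      (by fun_prop : Continuous fun s : ℝ => X + s).tendsto' 0 X (add_zero X)
    filter_upwards [c.eventually (mem_interior_iff_mem_nhds.1 hX)] with s hs
    have := iteratedDeriv_two_line ((Γ.C_smooth_pt ha
      (Γ.good_of_Io ha (hI _ hs))).self_of_nhds.of_le (by norm_cast)) ξ
    simp only [zero_add] at this
    rw [add_assoc, ← add_smul, this, A]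
  rw [h3.iteratedDeriv_eq,
    iteratedDeriv_comp_const_add 2 (fun X : ℝ => Γ.A p a (u + X • η) ξ ξ) X] at h2
  simpa only [add_zero, iteratedDeriv_eq_iterate] using h2

theorem jensen (hM : Γ.MTW) {τ : ℝ} (hR : Γ.R τ) (ha : a ∈ (chartAt E p).target)
    {v : Fin (Module.finrank ℝ E + 1) → E} {l : Fin (Module.finrank ℝ E + 1) → ℝ}
    (hv : ∀ i, v i ∈ Γ.Ib p a) (hl : l ∈ stdSimplex ℝ _) {ξ : E}
    (hξ : ∀ i, 0 < l i → τ * Γ.G p a (v i - ∑ j, l j • v j) ξ = 0) :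
    ∑ i, l i * Γ.A p a (τ • v i) ξ ξ ≤ Γ.A p a (τ • ∑ j, l j • v j) ξ ξ := by
  set w := ∑ j, l j • v j with hw
  let S : Set E := {x | (∃ l' ∈ stdSimplex ℝ _, ∑ j, l' j • v j = x) ∧ τ * Γ.G p a (x - w) ξ = 0}
  have h1 : Convex ℝ S := by
    rintro x ⟨⟨l1, k1, e1⟩, f1⟩ y ⟨⟨l2, k2, e2⟩, f2⟩ s t hs ht hst
    refine ⟨⟨_, convex_stdSimplex ℝ _ k1 k2 hs ht hst, ?_⟩, ?_⟩
    · simp only [← e1, ← e2, Pi.add_apply, Pi.smul_apply, smul_eq_mul, add_smul, mul_smul,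
        Finset.sum_add_distrib, Finset.smul_sum]
    · simp only [map_sub, map_add, map_smul, sub_apply,
        add_apply, smul_apply, smul_eq_mul] at f1 f2 ⊢
      linear_combination s * f1 + t * f2 + τ * Γ.G p a w ξ * hst
  have h2 : ConcaveOn ℝ S fun x => Γ.A p a (τ • x) ξ ξ := ⟨h1, fun x hx y hy s t hs ht hst => by
    have e : ∀ X : ℝ, τ • x + X • (τ • (y - x)) = τ • ((1 - X) • x + X • y) := fun X => by module
    have := (Γ.concave_A hM ha (u := τ • x) (η := τ • (y - x)) (ξ := ξ) (X₀ := 0) (X₁ := 1)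
      (fun X hX => by
        obtain ⟨⟨l', k, e'⟩, -⟩ := h1 hx hy (sub_nonneg.2 hX.2) hX.1 (sub_add_cancel _ _)
        rw [e, ← e']
        exact (hR p a ha v l' hv k).1) (by
        have f1 := hx.2
        have f2 := hy.2
        rw [Γ.symm]
        simp only [map_sub, map_smul, sub_apply,
          smul_apply, smul_eq_mul] at f1 f2 ⊢
        linear_combination f2 - f1)).2 (left_mem_Icc.2 zero_le_one) (right_mem_Icc.2 zero_le_one)
      hs ht hst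
    simp only [e] at this
    simpa [show 1 - t = s by linarith] using this⟩
  have h3 := h2.le_map_sum (t := Finset.univ) (p := fun i => if 0 < l i then v i else w)
    (fun i _ => hl.1 i) hl.2 fun i _ => by
      split_ifs with c
      · exact ⟨⟨_, single_mem_stdSimplex ℝ i, by simp [Pi.single_apply]⟩, hξ i c⟩
      · exact ⟨⟨l, hl, rfl⟩, by simp⟩
  have e : ∀ i, ¬0 < l i → l i = 0 := fun i c => le_antisymm (not_lt.1 c) (hl.1 i)
  rw [show ∑ i, l i • (if 0 < l i then v i else w) = w from Finset.sum_congr rfl fun i _ => by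
    split_ifs with c
    exacts [rfl, by simp [e i c]]] at h3
  refine le_trans (le_of_eq (Finset.sum_congr rfl fun i _ => ?_)) h3
  split_ifs with c
  exacts [rfl, by simp [e i c]]

theorem gap_sum (ha : a ∈ (chartAt E p).target) {τ σ : ℝ} (hτ : 0 < τ) (hτσ : τ < σ) (hσ : σ < 1)
    {v : Fin (Module.finrank ℝ E + 1) → E} {l : Fin (Module.finrank ℝ E + 1) → ℝ}
    (hv : ∀ i, v i ∈ Γ.Ib p a) (hl : l ∈ stdSimplex ℝ _) {ξ : E} (hξ0 : ξ ≠ 0) :
    τ * (∑ i, l i * Γ.A p a (σ • v i) ξ ξ) / σ < ∑ i, l i * Γ.A p a (τ • v i) ξ ξ := by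
  have h1 := fun i => Γ.gap ha hτ hτσ (Γ.smul_mem_Io ha (hv i) (hτ.trans hτσ).le hσ) hξ0
  obtain ⟨i, -, hi⟩ := Finset.exists_lt_of_sum_lt (f := fun _ => (0 : ℝ)) (g := l)
    (s := Finset.univ) (by rw [hl.2]; simp)
  rw [Finset.mul_sum, Finset.sum_div]
  simp only [mul_left_comm τ, mul_div_assoc (l _)]
  exact Finset.sum_lt_sum (fun j _ => mul_le_mul_of_nonneg_left (h1 j).le (hl.1 j))
    ⟨i, Finset.mem_univ i, mul_lt_mul_of_pos_left (h1 i) hi⟩

theorem hess (hM : Γ.MTW) {τ σ : ℝ} (hR : Γ.R τ) (hτ : 0 ≤ τ) (hτσ : τ < σ) (hσ : σ < 1)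
    (ha : a ∈ (chartAt E p).target)
    {v : Fin (Module.finrank ℝ E + 1) → E} {l : Fin (Module.finrank ℝ E + 1) → ℝ}
    (hv : ∀ i, v i ∈ Γ.Ib p a) (hl : l ∈ stdSimplex ℝ _) {ξ : E} (hξ0 : ξ ≠ 0)
    (hξ : ∀ i, 0 < l i → τ * Γ.G p a (v i - ∑ j, l j • v j) ξ = 0) :
    τ * (∑ i, l i * Γ.A p a (σ • v i) ξ ξ) / σ < Γ.A p a (τ • ∑ j, l j • v j) ξ ξ := by
  rcases hτ.eq_or_lt with h | h
  · rw [← h, zero_mul, zero_div, zero_smul, Γ.A_zero ha]
    exact Γ.pos p a ha ξ hξ0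
  · exact (Γ.gap_sum ha h hτσ hσ hv hl hξ0).trans_le (Γ.jensen hM hR ha hv hl hξ)

/-- Smooth lower support for `c (z, y) - c (x, y)`. -/
theorem support (ha : a ∈ (chartAt E p).target) {v : E} (hv : v ∈ Γ.Ib p a) {σ : ℝ}
    (hσ0 : 0 < σ) (hσ : σ < 1) (ζ : E) :
    (Γ.C p a (σ • v) 0 - Γ.C p a (σ • v) ζ) / σ ≤
      dist ((chartAt E p).symm a) (Γ.Ex p a v) ^ 2 / 2 -
        dist (Γ.Ex p a ζ) (Γ.Ex p a v) ^ 2 / 2 := by
  have h1 := dist_sq_div_le (Γ.Ex p a ζ) (Γ.Ex p a (σ • v)) (Γ.Ex p a v) hσ0 (sub_pos.2 hσ)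
  have h2 := Γ.seg ha hv hσ0.le hσ.le le_rfl
  have h3 := Real.sq_sqrt (bil_nonneg _ (Γ.pos p a ha) v)
  have h4 : 1 - σ ≠ 0 := (sub_pos.2 hσ).ne'
  rw [one_smul] at h2
  rw [h2, add_sub_cancel, div_one, mul_pow, h3,
    show (1 - σ) ^ 2 * Γ.G p a v v / (1 - σ) = (1 - σ) * Γ.G p a v v by field_simp] at h1
  rw [Γ.C_zero ha (Γ.smul_mem_Ib ha hv hσ0.le hσ.le), show dist _ _ = _ from hv, h3, C]
  simp only [map_smul, smul_apply, smul_eq_mul]
  rw [show (σ * (σ * Γ.G p a v v) / 2 - dist (Γ.Ex p a ζ) (Γ.Ex p a (σ • v)) ^ 2 / 2) / σ =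
    σ * Γ.G p a v v / 2 - dist (Γ.Ex p a ζ) (Γ.Ex p a (σ • v)) ^ 2 / σ / 2 by field_simp]
  linarith

end Geo

end Vale.Agent.P234
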