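import Vale.Agent.P234.Defs

/-! P234 Phi: the finite maximum. -/

open Set Manifold Filter Metric
open scoped ContDiff Topology

namespace Vale.Agent.P234

variable {M ι : Type*} [MetricSpace M] [Fintype ι] [Nonempty ι] (κ : ι → ℝ) (y : ι → M)

theorem le_phi (x : M) (i : ι) : κ i - dist x (y i) ^ 2 / 2 ≤ phi κ y x :=
  Finset.le_sup' (fun i => κ i - dist x (y i) ^ 2 / 2) (Finset.mem_univ i)

theorem exists_phi_eq (x : M) : ∃ i, phi κ y x = κ i - dist x (y i) ^ 2 / 2 := by
  obtain ⟨i, -, h⟩ := Finset.exists_mem_eq_sup' Finset.univ_nonempty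
    (fun i => κ i - dist x (y i) ^ 2 / 2)
  exact ⟨i, h⟩

theorem continuous_phi : Continuous (phi κ y) :=
  Continuous.finset_sup'_apply (f := fun i x => κ i - dist x (y i) ^ 2 / 2) Finset.univ_nonempty
    fun i _ => by fun_prop

theorem phi_self (z : M) : phi (fun i => dist z (y i) ^ 2 / 2) y z = 0 := by
  obtain ⟨i, h⟩ := exists_phi_eq (fun i => dist z (y i) ^ 2 / 2) y z
  rw [h, sub_self]

end Vale.Agent.P234
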