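import Vale.Agent.P234.Defs

/-! P234 Ult: limits along ultrafilters. -/

open Set Filter Metric
open scoped Topology ContDiff

universe u

namespace Vale.Agent.P234

theorem ultra_lim {X κ : Type*} [TopologicalSpace X] (U : Ultrafilter κ) {s : Set X}
    (hs : IsCompact s) {u : κ → X} (h : ∀ᶠ k in (U : Filter κ), u k ∈ s) :
    ∃ x ∈ s, Tendsto u U (𝓝 x) := by
  obtain ⟨x, hx, hx'⟩ := hs.ultrafilter_le_nhds (U.map u) (by
    rw [Ultrafilter.coe_map, le_principal_iff, mem_map]; exact h)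
  exact ⟨x, hx, hx'⟩

theorem ultra_dir {X κ : Type*} [NormedAddCommGroup X] [NormedSpace ℝ X] [FiniteDimensional ℝ X]
    (U : Ultrafilter κ) {z : κ → X} (hz : Tendsto z U (𝓝 0))
    (h0 : ∀ᶠ k in (U : Filter κ), z k ≠ 0) : ∃ (r : κ → ℝ) (ξk : κ → X) (ξ : X),
      ξ ≠ 0 ∧ Tendsto r U (𝓝[>] 0) ∧ Tendsto ξk U (𝓝 ξ) ∧ ∀ k, z k = r k • ξk k := by
  haveI : ProperSpace X := FiniteDimensional.proper_real X
  obtain ⟨ξ, hξ, hξ'⟩ := ultra_lim U (isCompact_sphere (0 : X) 1)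
    (u := fun k => ‖z k‖⁻¹ • z k) (by
      filter_upwards [h0] with k hk
      rw [mem_sphere_zero_iff_norm, norm_smul, norm_inv, norm_norm,
        inv_mul_cancel₀ (norm_ne_zero_iff.2 hk)])
  refine ⟨fun k => ‖z k‖, fun k => ‖z k‖⁻¹ • z k, ξ, ?_, ?_, hξ', fun k => ?_⟩
  · rintro rfl
    simp at hξ
  · refine tendsto_nhdsWithin_iff.2 ⟨by simpa using hz.norm, ?_⟩
    filter_upwards [h0] with k hk
    exact norm_pos_iff.2 hk
  · by_cases hk : z k = 0
    · simp [hk]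
    · rw [smul_smul, mul_inv_cancel₀ (norm_ne_zero_iff.2 hk), one_smul]

/-- An ultrafilter on the set of counterexamples. -/
theorem ultra_of_not_eventually {X : Type u} {l : Filter X} {P : X → Prop}
    (h : ¬∀ᶠ x in l, P x) : ∃ (κ : Type u) (U : Ultrafilter κ) (f : κ → X),
      Tendsto f U l ∧ ∀ k, ¬P (f k) := by
  have h1 : (comap (Subtype.val : {x // ¬P x} → X) l).NeBot := by
    rw [comap_neBot_iff_frequently]
    refine (not_eventually.1 h).mono fun x hx => ⟨⟨x, hx⟩, rfl⟩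
  exact ⟨{x // ¬P x}, Ultrafilter.of _, Subtype.val, tendsto_iff_comap.2 (Ultrafilter.of_le _),
    fun k => k.2⟩

theorem ev_choice {α β : Type*} {l : Filter α} [l.NeBot] (r : α → β → Prop)
    (h : ∀ᶠ x in l, ∃ y, r x y) : ∃ f : α → β, ∀ᶠ x in l, r x (f x) := h.choice

theorem two_le_inf : (2 : WithTop ℕ∞) ≤ ∞ := ENat.LEInfty.out

theorem one_le_inf : (1 : WithTop ℕ∞) ≤ ∞ := ENat.LEInfty.out

theorem tendsto_ne_of_gt {κ : Type*} {l : Filter κ} {r : κ → ℝ} (h : Tendsto r l (𝓝[>] 0)) :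
    Tendsto r l (𝓝[≠] 0) :=
  h.mono_right (nhdsWithin_mono _ fun _ hx => ne_of_gt hx)

end Vale.Agent.P234
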