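import Vale.Agent.P234.Good
import Vale.Agent.P234.Phi
import Vale.Agent.P234.Ult

/-! P234 Dan: Danskin lemma, local minima are global. -/

open Set Manifold Filter Metric
open scoped ContDiff Topology

namespace Vale.Agent.P234

variable {E : Type*} [NormedAddCommGroup E] [NormedSpace ℝ E] [FiniteDimensional ℝ E]
  {M : Type*} [MetricSpace M] [ChartedSpace E M] [IsManifold 𝓘(ℝ, E) ∞ M] [CompactSpace M]

namespace Geo

variable (Γ : Geo E M) {p : M} {a : E}

theorem danskin (ha : a ∈ (chartAt E p).target) {ι : Type*} [Fintype ι] [Nonempty ι]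
    (κ : ι → ℝ) (y : ι → M) {τ : ℝ} (hτ : 0 ≤ τ) {F : M → ℝ} {u : E}
    (hF : HasFDerivAt (fun ζ => F (Γ.Ex p a ζ)) (-Γ.G p a u) 0)
    (hmin : IsLocalMin (fun x => τ * phi κ y x + F x) ((chartAt E p).symm a)) (ξ : E) :
    ∃ i, ∃ v ∈ Γ.Ib p a, Γ.Ex p a v = y i ∧
      phi κ y ((chartAt E p).symm a) = κ i - dist ((chartAt E p).symm a) (y i) ^ 2 / 2 ∧
      Γ.G p a u ξ ≤ τ * Γ.G p a v ξ := by
  obtain ⟨U, hU⟩ : ∃ U : Ultrafilter ℝ, (U : Filter ℝ) ≤ 𝓝[>] (0 : ℝ) :=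
    ⟨Ultrafilter.of _, Ultrafilter.of_le _⟩
  have hs0 : Tendsto (fun s : ℝ => s) U (𝓝[>] 0) := hU
  have hs0' : Tendsto (fun s : ℝ => s) U (𝓝 0) := hs0.mono_right nhdsWithin_le_nhds
  have hx : Tendsto (fun s : ℝ => Γ.Ex p a (s • ξ)) U (𝓝 ((chartAt E p).symm a)) := by
    have h3 : Tendsto (fun s : ℝ => s • ξ) U (𝓝 0) := by simpa using hs0'.smul_const ξ
    have h4 := ((Γ.continuous_ex ha).tendsto 0).comp h3
    rwa [Γ.ex0 p a ha] at h4
  obtain ⟨i, hi⟩ := (Ultrafilter.eventually_exists_iff (f := U)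
    (P := fun (i : ι) (s : ℝ) => phi κ y (Γ.Ex p a (s • ξ)) =
      κ i - dist (Γ.Ex p a (s • ξ)) (y i) ^ 2 / 2)).1
    (Eventually.of_forall fun s => exists_phi_eq κ y _)
  have hact : phi κ y ((chartAt E p).symm a) =
      κ i - dist ((chartAt E p).symm a) (y i) ^ 2 / 2 :=
    tendsto_nhds_unique_of_eventuallyEq (((continuous_phi κ y).tendsto _).comp hx)
      ((((hx.dist tendsto_const_nhds).pow 2).div_const 2).const_sub (κ i)) hi
  choose m hm1 hm2 using fun s : ℝ => Γ.mid (Γ.Ex p a (s • ξ)) (y i)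
  obtain ⟨m₀, -, hm₀⟩ := ultra_lim U isCompact_univ (u := m) (Eventually.of_forall fun _ => trivial)
  have hd := (hx.dist (tendsto_const_nhds (x := y i))).div_const 2
  have h1 := tendsto_nhds_unique_of_eventuallyEq (hx.dist hm₀) hd (Eventually.of_forall hm1)
  have h2 := tendsto_nhds_unique_of_eventuallyEq (hm₀.dist tendsto_const_nhds) hd
    (Eventually.of_forall hm2)
  obtain ⟨v, hv, hvy, hvm⟩ := Γ.midpt ha h1 h2
  refine ⟨i, v, hv, hvy, hact, ?_⟩
  have hβ := Γ.smul_mem_Io ha hv (s := 1 / 2) (by norm_num) (by norm_num)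
  have hd1 := Γ.dq ha (Γ.Io_subset_Ib ha hβ) (Γ.good_of_Io ha hβ) (mk := m)
    (by rw [hvm]; exact hm₀) (tendsto_ne_of_gt hs0) ξ
  have hd2 : Tendsto (fun s : ℝ => (F (Γ.Ex p a (s • ξ)) - F ((chartAt E p).symm a)) / s) U
      (𝓝 (-Γ.G p a u ξ)) := by
    have h3 : HasDerivAt (fun s : ℝ => F (Γ.Ex p a (s • ξ))) (-Γ.G p a u ξ) 0 := by
      have h4 : HasDerivAt (fun s : ℝ => s • ξ) ξ 0 := by
        simpa using (hasDerivAt_id (0 : ℝ)).smul_const ξ
      have h5 := HasFDerivAt.comp_hasDerivAt_of_eq (0 : ℝ) hF h4 (by simp)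
      exact h5
    refine (h3.tendsto_slope_zero_right.comp hs0).congr fun s => ?_
    simp only [Function.comp_apply, zero_add, zero_smul, Γ.ex0 p a ha, smul_eq_mul]
    ring
  have h5 := ge_of_tendsto (hd2.sub (hd1.const_mul τ)) (b := 0) (by
    filter_upwards [hi, hx.eventually hmin, hs0.eventually self_mem_nhdsWithin] with s h6 h7 h8
    have h9 : 0 < s := h8
    have h10 := dist_sq_div_le ((chartAt E p).symm a) (m s) (y i) one_pos one_pos
    rw [← mul_div_assoc, ← sub_div]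
    refine div_nonneg ?_ h9.le
    rw [h6, hact] at h7
    have h11 : dist (Γ.Ex p a (s • ξ)) (y i) ^ 2 / 2 =
        dist (Γ.Ex p a (s • ξ)) (m s) ^ 2 + dist (m s) (y i) ^ 2 := by
      rw [hm1, hm2]; ring
    have h12 : τ * (dist ((chartAt E p).symm a) (y i) ^ 2 / 2) ≤
        τ * (dist ((chartAt E p).symm a) (m s) ^ 2 + dist (m s) (y i) ^ 2) :=
      mul_le_mul_of_nonneg_left (by linarith) hτ
    rw [h11] at h7
    linarith)
  simp only [map_smul, ContinuousLinearMap.smul_apply, smul_eq_mul] at h5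
  linarith

theorem loc_to_glob {τ : ℝ} (hτ : 0 < τ) (hR : Γ.R τ) {ι : Type*} [Fintype ι] [Nonempty ι]
    (κ : ι → ℝ) (y : ι → M) {x' m' yh : M} (hg1 : GoodPair E x' m') (hg2 : GoodPair E m' yh)
    (hmin : IsLocalMin (fun q : M × M => τ * phi κ y q.1 + dist q.1 q.2 ^ 2 + dist q.2 yh ^ 2)
      (x', m')) (x : M) :
    τ * phi κ y x' + dist x' m' ^ 2 + dist m' yh ^ 2 ≤ τ * phi κ y x + dist x yh ^ 2 / 2 := by
  have hb : chartAt E m' m' ∈ (chartAt E m').target := mem_chart_target E m'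
  have hm : (chartAt E m').symm (chartAt E m' m') = m' :=
    (chartAt E m').left_inv (mem_chart_source E m')
  generalize chartAt E m' m' = b at hb hm
  obtain ⟨α, hα, hαe⟩ := Γ.hr hb x'
  obtain ⟨β, hβ, hβe⟩ := Γ.hr hb yh
  have hd1 := Γ.hasFDerivAt_dist_sq hb hα (by rw [hm, hαe]; exact hg1.symm)
  have hd2 := Γ.hasFDerivAt_dist_sq hb hβ (by rw [hm, hβe]; exact hg2)
  have he0 : Γ.Ex m' b 0 = m' := by rw [Γ.ex0 m' b hb, hm]
  have hloc : IsLocalMin (fun ζ => dist (Γ.Ex m' b ζ) (Γ.Ex m' b α) ^ 2 +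
      dist (Γ.Ex m' b ζ) (Γ.Ex m' b β) ^ 2) 0 := by
    have h1 : Tendsto (fun ζ => (x', Γ.Ex m' b ζ)) (𝓝 0) (𝓝 (x', m')) := by
      refine tendsto_const_nhds.prodMk_nhds ?_
      have := (Γ.continuous_ex hb).tendsto 0
      rwa [he0] at this
    filter_upwards [h1.eventually hmin] with ζ hζ
    rw [hαe, hβe, he0, dist_comm m' x', dist_comm (Γ.Ex m' b ζ) x']
    linarith
  have hαβ : α = -β := by
    have h1 := hloc.hasFDerivAt_eq_zero (hd1.add hd2)
    refine bil_ext _ (Γ.pos m' b hb) fun w => ?_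
    have h2 := congrArg (fun L : E →L[ℝ] ℝ => L w) h1
    simp only [ContinuousLinearMap.add_apply, ContinuousLinearMap.smul_apply, smul_eq_mul,
      ContinuousLinearMap.zero_apply] at h2
    simp only [map_neg, ContinuousLinearMap.neg_apply]
    linarith
  have hx' : Γ.Ex m' b ((-1 : ℝ) • β) = x' := by rw [neg_one_smul, ← hαβ, hαe]
  obtain ⟨w, hw1, hw2⟩ := Γ.flow m' x' b hb β (-1) (by rw [hx']; exact mem_chart_source E x')
  rw [hx'] at hw1 hw2
  have ha : chartAt E x' x' ∈ (chartAt E x').target := mem_chart_target E x'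
  have hz : (chartAt E x').symm (chartAt E x' x') = x' :=
    (chartAt E x').left_inv (mem_chart_source E x')
  generalize chartAt E x' x' = a at ha hz hw1 hw2
  have hwm : Γ.Ex x' a w = m' := by simpa [he0] using hw2 1
  have hwy : Γ.Ex x' a ((2 : ℝ) • w) = yh := by
    have := hw2 2
    norm_num at this
    rw [this, hβe]
  have hdm : dist x' m' = √(Γ.G x' a w w) := by
    have h1 : dist ((chartAt E m').symm b) (Γ.Ex m' b α) = _ := hα
    rw [hm, hαe, hαβ] at h1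
    rw [dist_comm, h1, hw1]
    simp
  have hdy : dist m' yh = √(Γ.G x' a w w) := by
    have h1 : dist ((chartAt E m').symm b) (Γ.Ex m' b β) = _ := hβ
    rw [hm, hβe] at h1
    rw [h1, hw1]
  have hwI : w ∈ Γ.Ib x' a := by
    change dist _ _ = _
    rw [hz, hwm, hdm]
  have hF : HasFDerivAt (fun ζ => dist (Γ.Ex x' a ζ) m' ^ 2) (-Γ.G x' a ((2 : ℝ) • w)) 0 := by
    have := Γ.hasFDerivAt_dist_sq ha hwI (by rw [hz, hwm]; exact hg1)
    rw [hwm] at this
    convert this using 1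
    ext ξ
    simp
  have hmin' : IsLocalMin (fun x => τ * phi κ y x + dist x m' ^ 2) ((chartAt E x').symm a) := by
    rw [hz]
    have h1 : Tendsto (fun x => (x, m')) (𝓝 x') (𝓝 (x', m')) :=
      tendsto_id.prodMk_nhds tendsto_const_nhds
    filter_upwards [h1.eventually hmin] with x hx
    linarith
  have hdan := Γ.danskin ha κ y hτ.le (F := fun x => dist x m' ^ 2) hF hmin'
  rw [hz] at hdan
  have hS : IsCompact {v ∈ Γ.Ib x' a | ∃ i, Γ.Ex x' a v = y i ∧
      phi κ y x' = κ i - dist x' (y i) ^ 2 / 2} := by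
    refine (Γ.isCompact_Ib ha).inter_right ?_
    have : {v | ∃ i, Γ.Ex x' a v = y i ∧ phi κ y x' = κ i - dist x' (y i) ^ 2 / 2} =
        ⋃ i, {v | Γ.Ex x' a v = y i ∧ phi κ y x' = κ i - dist x' (y i) ^ 2 / 2} := by
      ext v; simp
    change IsClosed {v | ∃ i, Γ.Ex x' a v = y i ∧ phi κ y x' = κ i - dist x' (y i) ^ 2 / 2}
    rw [this]
    exact isClosed_iUnion_of_finite fun i =>
      (isClosed_eq (Γ.continuous_ex ha) continuous_const).inter isClosed_const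
  obtain ⟨v, l, hv, hl, hsum⟩ := cara (Γ.G x' a) (Γ.symm x' a) (Γ.pos x' a ha) hS
    (u := τ⁻¹ • (2 : ℝ) • w) (fun ξ => by
      obtain ⟨i, v, h1, h2, h3, h4⟩ := hdan ξ
      refine ⟨v, ⟨h1, i, h2, h3⟩, ?_⟩
      rw [map_smul, ContinuousLinearMap.smul_apply, smul_eq_mul, inv_mul_le_iff₀ hτ]
      exact h4)
  obtain ⟨h1, h2⟩ := hR x' a ha v l (fun i => (hv i).1) hl
  rw [hsum, smul_inv_smul₀ hτ.ne'] at h1 h2
  rw [hz, hwy] at h2
  have h3 : dist x' yh = 2 * √(Γ.G x' a w w) := by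
    have h4 : dist ((chartAt E x').symm a) (Γ.Ex x' a ((2 : ℝ) • w)) = _ := Γ.Io_subset_Ib ha h1
    rw [hz, hwy, bil_sqrt_smul] at h4
    rw [h4]; norm_num
  have h5 : dist x' m' ^ 2 + dist m' yh ^ 2 = dist x' yh ^ 2 / 2 := by
    rw [hdm, hdy, h3]; ring
  by_cases hx : x = x'
  · rw [hx]; linarith
  obtain ⟨j, hj⟩ := h2 x hx
  obtain ⟨i, hi1, hi2⟩ := (hv j).2
  rw [hi1] at hj
  have h6 := mul_le_mul_of_nonneg_left (le_phi κ y x i) hτ.le
  rw [hi2]
  nlinarith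

end Geo

end Vale.Agent.P234
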