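import Mathlib

/-! Working definitions for P234 (everything in charts, no dependent types). -/

open Set Manifold Filter Metric
open scoped ContDiff Topology

namespace Vale.Agent.P234

/-- Second derivative as a bilinear map. -/
noncomputable def D2 {X : Type*} [NormedAddCommGroup X] [NormedSpace ℝ X] (f : X → ℝ) (x : X) :
    X →L[ℝ] X →L[ℝ] ℝ := fderiv ℝ (fderiv ℝ f) x

/-- `γ` is distance realizing with speed `L` near every point of `J`. -/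
def LocGeod {M : Type*} [MetricSpace M] (γ : ℝ → M) (L : ℝ) (J : Set ℝ) : Prop :=
  ∀ t₀ ∈ J, ∃ ε > 0, ∀ s ∈ Ioo (t₀ - ε) (t₀ + ε), ∀ t ∈ Ioo (t₀ - ε) (t₀ + ε),
    dist (γ s) (γ t) = L * |s - t|

/-- `max_i (κ i - c (x, y i))`. -/
noncomputable def phi {M ι : Type*} [MetricSpace M] [Fintype ι] [Nonempty ι]
    (κ : ι → ℝ) (y : ι → M) (x : M) : ℝ :=
  Finset.univ.sup' Finset.univ_nonempty (fun i => κ i - dist x (y i) ^ 2 / 2)

/-- Output of the geodesic ODE in a chart: `X (a, v)` is the time one point of the solution of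
the Euler-Lagrange equations with initial data `(a, v)`. -/
structure Spray {E : Type*} [NormedAddCommGroup E] [NormedSpace ℝ E]
    (G : E → E →L[ℝ] E →L[ℝ] ℝ) (T : Set E) (a₀ : E) where
  X : E × E → E
  r : ℝ
  r_pos : 0 < r
  ball_sub : ball a₀ r ⊆ T
  smX : ContDiffOn ℝ ∞ X (ball a₀ r ×ˢ ball 0 r)
  maps : ∀ a ∈ ball a₀ r, ∀ v ∈ ball (0 : E) r, X (a, v) ∈ T
  X0 : ∀ a ∈ ball a₀ r, X (a, 0) = a
  dX0 : ∀ a ∈ ball a₀ r, ∀ v, fderiv ℝ X (a, 0) (0, v) = v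
  el : ∀ a ∈ ball a₀ r, ∀ (v : E) (t : ℝ), t • v ∈ ball (0 : E) r → ∀ w : E,
    HasDerivAt (fun s : ℝ => G (X (a, s • v)) (fderiv ℝ X (a, s • v) (0, v)) w)
      (1 / 2 * fderiv ℝ G (X (a, t • v)) w (fderiv ℝ X (a, t • v) (0, v))
        (fderiv ℝ X (a, t • v) (0, v))) t

variable (E : Type*) [NormedAddCommGroup E] [NormedSpace ℝ E]
  (M : Type*) [MetricSpace M] [ChartedSpace E M]

/-- The squared distance is smooth near `(x, y)`. -/
def GoodPair {M : Type*} [MetricSpace M] [ChartedSpace E M] (x y : M) : Prop :=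
  ∀ᶠ q in 𝓝 (x, y), ContMDiffAt (𝓘(ℝ, E).prod 𝓘(ℝ, E)) 𝓘(ℝ, ℝ) ∞
    (fun q : M × M => dist q.1 q.2 ^ 2) q

/-- A Riemannian metric read in the charts, together with its link to the distance. -/
structure RM where
  G : M → E → E →L[ℝ] E →L[ℝ] ℝ
  smG : ∀ p, ContDiffOn ℝ ∞ (G p) (chartAt E p).target
  symm : ∀ p a v w, G p a v w = G p a w v
  pos : ∀ p, ∀ a ∈ (chartAt E p).target, ∀ v, v ≠ 0 → 0 < G p a v v
  compat : ∀ p q, ∀ a ∈ (chartAt E p).target, (chartAt E p).symm a ∈ (chartAt E q).source →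
    ∀ v w, G q (chartAt E q ((chartAt E p).symm a))
      (fderiv ℝ (fun b => chartAt E q ((chartAt E p).symm b)) a v)
      (fderiv ℝ (fun b => chartAt E q ((chartAt E p).symm b)) a w) = G p a v w
  up : ∀ (p : M) (β β' : ℝ → E) (L : ℝ),
    (∀ t ∈ Icc (0 : ℝ) 1, β t ∈ (chartAt E p).target ∧ HasDerivAt β (β' t) t ∧
      √(G p (β t) (β' t) (β' t)) ≤ L) → ContinuousOn β' (Icc 0 1) →
    dist ((chartAt E p).symm (β 0)) ((chartAt E p).symm (β 1)) ≤ L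
  cal : ∀ (p : M) (U : Set E) (f : E → ℝ) (c : ℝ), IsOpen U → U ⊆ (chartAt E p).target →
    ContDiffOn ℝ 1 f U → (∀ b ∈ U, ∀ J, fderiv ℝ f b J ≤ √(G p b J J)) →
    IsCompact {b ∈ U | f b ≤ c} → ∀ a ∈ U, ∀ b ∈ U, f b ≤ c →
    f b - f a ≤ dist ((chartAt E p).symm a) ((chartAt E p).symm b)
  mid : ∀ x y : M, ∃ m, dist x m = dist x y / 2 ∧ dist m y = dist x y / 2

variable {E M}

/-- Chart form of the geodesic predicate. -/
def RM.IsGeo (R : RM E M) (p : M) (a v : E) (γ : ℝ → M) : Prop :=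
  γ 0 = (chartAt E p).symm a ∧ HasDerivAt (fun t => chartAt E p (γ t)) v 0 ∧
    LocGeod γ (√(R.G p a v v)) univ

open Classical in
/-- Chart form of the exponential map. -/
noncomputable def RM.Ex (R : RM E M) (p : M) (a v : E) : M :=
  if h : ∃ γ, R.IsGeo p a v γ then h.choose 1 else (chartAt E p).symm a

/-- Local exponential and logarithm in the chart at `p`. -/
structure Loc (R : RM E M) (p : M) where
  X : E × E → E
  Lg : E × E → E
  r : ℝ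
  r' : ℝ
  r'_pos : 0 < r'
  r'_le : r' ≤ r
  ball_sub : ball (chartAt E p p) r ⊆ (chartAt E p).target
  smX : ContDiffOn ℝ ∞ X (ball (chartAt E p p) r ×ˢ ball 0 r)
  maps : ∀ a ∈ ball (chartAt E p p) r, ∀ v ∈ ball (0 : E) r, X (a, v) ∈ (chartAt E p).target
  X0 : ∀ a ∈ ball (chartAt E p p) r, X (a, 0) = a
  dX0 : ∀ a ∈ ball (chartAt E p p) r, ∀ v, HasDerivAt (fun t : ℝ => X (a, t • v)) v 0
  inj : ∀ a ∈ ball (chartAt E p p) r, InjOn (fun v => X (a, v)) (ball 0 r)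
  rad : ∀ a ∈ ball (chartAt E p p) r, ∀ v ∈ ball (0 : E) r,
    dist ((chartAt E p).symm a) ((chartAt E p).symm (X (a, v))) = √(R.G p a v v)
  lip : ∀ a ∈ ball (chartAt E p p) r, ∀ v ∈ ball (0 : E) r, ∀ s ∈ Icc (-1 : ℝ) 1,
    ∀ t ∈ Icc (-1 : ℝ) 1,
    dist ((chartAt E p).symm (X (a, s • v))) ((chartAt E p).symm (X (a, t • v))) ≤
      |s - t| * √(R.G p a v v)
  smLg : ContDiffOn ℝ ∞ Lg (ball (chartAt E p p) r' ×ˢ ball (chartAt E p p) r')
  Lg_mem : ∀ a ∈ ball (chartAt E p p) r', ∀ b ∈ ball (chartAt E p p) r', Lg (a, b) ∈ ball 0 r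
  XLg : ∀ a ∈ ball (chartAt E p p) r', ∀ b ∈ ball (chartAt E p p) r', X (a, Lg (a, b)) = b

variable (E M)

/-- Everything the main argument uses about geodesics. -/
structure Geo where
  G : M → E → E →L[ℝ] E →L[ℝ] ℝ
  Ex : M → E → E → M
  smG : ∀ p, ContDiffOn ℝ ∞ (G p) (chartAt E p).target
  symm : ∀ p a v w, G p a v w = G p a w v
  pos : ∀ p, ∀ a ∈ (chartAt E p).target, ∀ v, v ≠ 0 → 0 < G p a v v
  ex0 : ∀ p, ∀ a ∈ (chartAt E p).target, Ex p a 0 = (chartAt E p).symm a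
  smEx : ∀ p, ∀ a ∈ (chartAt E p).target, ∀ v,
    ContMDiffAt 𝓘(ℝ, E × E) 𝓘(ℝ, E) ∞ (fun q : E × E => Ex p q.1 q.2) (a, v)
  lip : ∀ p, ∀ a ∈ (chartAt E p).target, ∀ (v : E) (s t : ℝ),
    dist (Ex p a (s • v)) (Ex p a (t • v)) ≤ |s - t| * √(G p a v v)
  flow : ∀ p q, ∀ a ∈ (chartAt E p).target, ∀ (v : E) (t₀ : ℝ),
    Ex p a (t₀ • v) ∈ (chartAt E q).source → ∃ w : E,
      G q (chartAt E q (Ex p a (t₀ • v))) w w = G p a v v ∧
      ∀ s : ℝ, Ex q (chartAt E q (Ex p a (t₀ • v))) (s • w) = Ex p a ((t₀ + s) • v)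
  trans : ∀ p q, ∀ a ∈ (chartAt E p).target, (chartAt E p).symm a ∈ (chartAt E q).source →
    ∃ T : E ≃L[ℝ] E,
      (∀ v w, G q (chartAt E q ((chartAt E p).symm a)) (T v) (T w) = G p a v w) ∧
      ∀ v, Ex q (chartAt E q ((chartAt E p).symm a)) (T v) = Ex p a v
  mid : ∀ x y : M, ∃ m, dist x m = dist x y / 2 ∧ dist m y = dist x y / 2
  locHR : ∃ δ > 0, ∀ p, ∀ a ∈ (chartAt E p).target, ∀ y, dist ((chartAt E p).symm a) y < δ →
    ∃ v, dist ((chartAt E p).symm a) y = √(G p a v v) ∧ Ex p a v = y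
  locGood : ∃ δ > 0, ∀ x y : M, dist x y < δ → GoodPair E x y

variable {E M}

namespace Geo

variable (Γ : Geo E M)

/-- Closed injectivity domain: minimizing velocities. -/
def Ib (p : M) (a : E) : Set E :=
  {v | dist ((chartAt E p).symm a) (Γ.Ex p a v) = √(Γ.G p a v v)}

/-- Injectivity domain. -/
def Io (p : M) (a : E) : Set E := {v | ∃ c : ℝ, 1 < c ∧ c • v ∈ Γ.Ib p a}

/-- The cost in normal coordinates. -/
noncomputable def C (p : M) (a v ζ : E) : ℝ := dist (Γ.Ex p a ζ) (Γ.Ex p a v) ^ 2 / 2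

/-- Hessian of the cost in normal coordinates. -/
noncomputable def A (p : M) (a v : E) : E →L[ℝ] E →L[ℝ] ℝ := D2 (Γ.C p a v) 0

/-- Broken cost through a point near the midpoint. -/
noncomputable def B (p : M) (a u : E) (q : E × E) : ℝ :=
  dist (Γ.Ex p a q.1) (Γ.Ex p a ((1 / 2 : ℝ) • u + q.2)) ^ 2 +
    dist (Γ.Ex p a ((1 / 2 : ℝ) • u + q.2)) (Γ.Ex p a u) ^ 2

/-- Index form at the midpoint. -/
noncomputable def Q (p : M) (a u : E) : E →L[ℝ] E →L[ℝ] ℝ :=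
  D2 (fun μ => Γ.B p a u (0, μ)) 0

/-- Weak MTW in charts. -/
def MTW : Prop :=
  ∀ p, ∀ a ∈ (chartAt E p).target, ∀ v ∈ Γ.Io p a, ∀ ξ η : E, Γ.G p a ξ η = 0 →
    iteratedDeriv 2 (fun s : ℝ =>
      iteratedDeriv 2 (fun t : ℝ => Γ.C p a (v + s • η) (t • ξ)) 0) 0 ≤ 0

/-- The statement propagated in `τ` by the continuity method. -/
def R (τ : ℝ) : Prop :=
  ∀ p, ∀ a ∈ (chartAt E p).target, ∀ (v : Fin (Module.finrank ℝ E + 1) → E)
    (l : Fin (Module.finrank ℝ E + 1) → ℝ), (∀ i, v i ∈ Γ.Ib p a) → l ∈ stdSimplex ℝ _ →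
    τ • ∑ i, l i • v i ∈ Γ.Io p a ∧
    ∀ x, x ≠ (chartAt E p).symm a → ∃ i,
      0 < τ * (dist ((chartAt E p).symm a) (Γ.Ex p a (v i)) ^ 2 / 2 -
          dist x (Γ.Ex p a (v i)) ^ 2 / 2) +
        dist x (Γ.Ex p a (τ • ∑ i, l i • v i)) ^ 2 / 2 -
        dist ((chartAt E p).symm a) (Γ.Ex p a (τ • ∑ i, l i • v i)) ^ 2 / 2

end Geo

end Vale.Agent.P234
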