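import Vale.Agent.P234.Stmt
import Vale.Agent.P234.Defs

/-! The Riemannian metric of Mathlib read in a chart. -/

open Bundle Set Manifold Filter Metric
open scoped ContDiff Topology

namespace Vale.Agent.P234

variable {E : Type*} [NormedAddCommGroup E] [NormedSpace ℝ E]
  {M : Type*} [MetricSpace M] [ChartedSpace E M]
  [RiemannianBundle (fun x : M => TangentSpace 𝓘(ℝ, E) x)]

/-- Derivative of the inverse chart. -/
noncomputable def DPsi (p : M) (a : E) :
    E →L[ℝ] TangentSpace 𝓘(ℝ, E) ((chartAt E p).symm a) :=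
  mfderiv 𝓘(ℝ, E) 𝓘(ℝ, E) (chartAt E p).symm a

/-- The metric tensor in the chart at `p`. -/
noncomputable def GM (p : M) (a : E) : E →L[ℝ] E →L[ℝ] ℝ :=
  ContinuousLinearMap.bilinearComp
    (innerSL ℝ (E := TangentSpace 𝓘(ℝ, E) ((chartAt E p).symm a)) :
      TangentSpace 𝓘(ℝ, E) ((chartAt E p).symm a) →L[ℝ]
        TangentSpace 𝓘(ℝ, E) ((chartAt E p).symm a) →L[ℝ] ℝ)
    (DPsi p a) (DPsi p a)

theorem GM_apply (p : M) (a v w : E) : GM p a v w = inner ℝ (DPsi p a v) (DPsi p a w) := rfl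

theorem sqrt_GM (p : M) (a v : E) : √(GM p a v v) = ‖DPsi p a v‖ := by
  rw [GM_apply, real_inner_self_eq_norm_sq, Real.sqrt_sq (norm_nonneg _)]

end Vale.Agent.P234
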