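import Vale.Agent.P234.Defs

/-! P234 GP: basic API for GoodPair. -/

open Set Manifold Filter Metric
open scoped ContDiff Topology

namespace Vale.Agent.P234

variable {E : Type*} [NormedAddCommGroup E] [NormedSpace ℝ E] [FiniteDimensional ℝ E]
  {M : Type*} [MetricSpace M] [ChartedSpace E M] [IsManifold 𝓘(ℝ, E) ∞ M] [CompactSpace M]

set_option linter.unusedSectionVars false

theorem GoodPair.symm {x y : M} (h : GoodPair E x y) : GoodPair E y x := by
  have t : Tendsto (Prod.swap : M × M → M × M) (𝓝 (y, x)) (𝓝 (x, y)) :=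
    continuous_swap.tendsto (y, x)
  filter_upwards [t.eventually h] with q hq
  have s : ContMDiffAt (𝓘(ℝ, E).prod 𝓘(ℝ, E)) (𝓘(ℝ, E).prod 𝓘(ℝ, E)) ∞
      (Prod.swap : M × M → M × M) q := contMDiffAt_snd.prodMk contMDiffAt_fst
  have := hq.comp q s
  simpa [Function.comp_def, dist_comm] using this

theorem GoodPair.eventually {x y : M} (h : GoodPair E x y) :
    ∀ᶠ q : M × M in 𝓝 (x, y), GoodPair E q.1 q.2 := h.eventually_nhds

theorem GoodPair.comp {F : Type*} [NormedAddCommGroup F] [NormedSpace ℝ F] {f g : F → M} {t₀ : F}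
    (h : GoodPair E (f t₀) (g t₀))
    (hf : ∀ᶠ t in 𝓝 t₀, ContMDiffAt 𝓘(ℝ, F) 𝓘(ℝ, E) ∞ f t)
    (hg : ∀ᶠ t in 𝓝 t₀, ContMDiffAt 𝓘(ℝ, F) 𝓘(ℝ, E) ∞ g t) :
    ∀ᶠ t in 𝓝 t₀, ContDiffAt ℝ ∞ (fun t => dist (f t) (g t) ^ 2) t := by
  have c : Tendsto (fun t => (f t, g t)) (𝓝 t₀) (𝓝 (f t₀, g t₀)) :=
    hf.self_of_nhds.continuousAt.prodMk hg.self_of_nhds.continuousAt
  filter_upwards [c.eventually h, hf, hg] with t h1 h2 h3
  exact contMDiffAt_iff_contDiffAt.1 (h1.comp t (h2.prodMk h3))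

theorem goodPair_of_chart {p q x y : M} (hx : x ∈ (chartAt E p).source)
    (hy : y ∈ (chartAt E q).source)
    (h : ∀ᶠ z : E × E in 𝓝 (chartAt E p x, chartAt E q y), ContDiffAt ℝ ∞
      (fun z : E × E => dist ((chartAt E p).symm z.1) ((chartAt E q).symm z.2) ^ 2) z) :
    GoodPair E x y := by
  have c : Tendsto (fun w : M × M => (chartAt E p w.1, chartAt E q w.2)) (𝓝 (x, y))
      (𝓝 (chartAt E p x, chartAt E q y)) :=
    (((chartAt E p).continuousAt hx).comp_of_eq continuousAt_fst rfl).prodMk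
      (((chartAt E q).continuousAt hy).comp_of_eq continuousAt_snd rfl)
  have o : IsOpen ((chartAt E p).source ×ˢ (chartAt E q).source) :=
    (chartAt E p).open_source.prod (chartAt E q).open_source
  filter_upwards [c.eventually h, o.mem_nhds (mk_mem_prod hx hy)] with w h1 h2
  have s1 : ContMDiffAt 𝓘(ℝ, E) 𝓘(ℝ, E) ∞ (chartAt E p) w.1 :=
    contMDiffOn_chart.contMDiffAt ((chartAt E p).open_source.mem_nhds h2.1)
  have s2 : ContMDiffAt 𝓘(ℝ, E) 𝓘(ℝ, E) ∞ (chartAt E q) w.2 :=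
    contMDiffOn_chart.contMDiffAt ((chartAt E q).open_source.mem_nhds h2.2)
  have s3 : ContMDiffAt (𝓘(ℝ, E).prod 𝓘(ℝ, E)) 𝓘(ℝ, E × E) ∞
      (fun w : M × M => (chartAt E p w.1, chartAt E q w.2)) w :=
    (s1.comp w contMDiffAt_fst).prodMk_space (s2.comp w contMDiffAt_snd)
  refine (h1.contMDiffAt.comp w s3).congr_of_eventuallyEq ?_
  filter_upwards [o.mem_nhds h2] with w' h3
  simp only [Function.comp]
  rw [(chartAt E p).left_inv h3.1, (chartAt E q).left_inv h3.2]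

theorem contMDiffAt_chart_symm {p : M} {a : E} (ha : a ∈ (chartAt E p).target) :
    ∀ᶠ b in 𝓝 a, ContMDiffAt 𝓘(ℝ, E) 𝓘(ℝ, E) ∞ (chartAt E p).symm b := by
  filter_upwards [(chartAt E p).open_target.mem_nhds ha] with b hb
  exact contMDiffOn_chart_symm.contMDiffAt ((chartAt E p).open_target.mem_nhds hb)

theorem contDiffAt_chart_comp {F : Type*} [NormedAddCommGroup F] [NormedSpace ℝ F] {f : F → M}
    {t₀ : F} {q : M} (hq : f t₀ ∈ (chartAt E q).source)
    (hf : ContMDiffAt 𝓘(ℝ, F) 𝓘(ℝ, E) ∞ f t₀) :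
    ContDiffAt ℝ ∞ (fun t => chartAt E q (f t)) t₀ := by
  have s : ContMDiffAt 𝓘(ℝ, E) 𝓘(ℝ, E) ∞ (chartAt E q) (f t₀) :=
    contMDiffOn_chart.contMDiffAt ((chartAt E q).open_source.mem_nhds hq)
  exact contMDiffAt_iff_contDiffAt.1 (s.comp t₀ hf)

end Vale.Agent.P234
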