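import Vale.Agent.P234.ExP
import Vale.Agent.P234.GP

/-! P234 ExL: uniform local Hopf-Rinow and smoothness of the squared distance. -/

open Set Manifold Filter Metric
open scoped ContDiff Topology

namespace Vale.Agent.P234

variable {E : Type*} [NormedAddCommGroup E] [NormedSpace ℝ E] [FiniteDimensional ℝ E]
  {M : Type*} [MetricSpace M] [ChartedSpace E M] [IsManifold 𝓘(ℝ, E) ∞ M] [CompactSpace M]

theorem exists_unif_pair {N : Type*} [MetricSpace N] [CompactSpace N] {P : N → N → N → Prop}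
    (h : ∀ p, ∀ᶠ q : N × N in 𝓝 (p, p), P p q.1 q.2) :
    ∃ δ > 0, ∀ x y, dist x y < δ → ∃ p, P p x y := by
  have h1 : ∀ p, ∃ t ∈ 𝓝 p, ∀ x ∈ t, ∀ y ∈ t, P p x y := fun p => by
    have := h p
    rw [nhds_prod_eq] at this
    exact eventually_prod_self_iff.1 this
  choose t ht H using h1
  obtain ⟨δ, δ0, hδ⟩ := lebesgue_number_lemma_of_metric isCompact_univ
    (c := fun p => interior (t p)) (fun _ => isOpen_interior)
    fun p _ => mem_iUnion.2 ⟨p, mem_interior_iff_mem_nhds.2 (ht p)⟩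
  refine ⟨δ, δ0, fun x y hxy => ?_⟩
  obtain ⟨p, hp⟩ := hδ x trivial
  exact ⟨p, H p x (interior_subset (hp (mem_ball_self δ0))) y
    (interior_subset (hp (mem_ball'.2 hxy)))⟩

omit [NormedSpace ℝ E] [FiniteDimensional ℝ E] [IsManifold 𝓘(ℝ, E) ∞ M] [CompactSpace M] in
theorem tendsto_chart_pair (p : M) : Tendsto (fun q : M × M => (chartAt E p q.1, chartAt E p q.2))
    (𝓝 (p, p)) (𝓝 (chartAt E p p, chartAt E p p)) := by
  have h := (chartAt E p).continuousAt (mem_chart_source E p)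
  exact (h.tendsto.comp (continuous_fst.tendsto (p, p))).prodMk_nhds
    (h.tendsto.comp (continuous_snd.tendsto (p, p)))

omit [NormedSpace ℝ E] [FiniteDimensional ℝ E] [IsManifold 𝓘(ℝ, E) ∞ M] [CompactSpace M] in
theorem eventually_source_pair (p : M) : ∀ᶠ q : M × M in 𝓝 (p, p),
    q.1 ∈ (chartAt E p).source ∧ q.2 ∈ (chartAt E p).source :=
  prod_mem_nhds (chart_source_mem_nhds E p) (chart_source_mem_nhds E p)

theorem RM.locHR (R : RM E M) : ∃ δ > 0, ∀ p, ∀ a ∈ (chartAt E p).target, ∀ y,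
    dist ((chartAt E p).symm a) y < δ →
    ∃ v, dist ((chartAt E p).symm a) y = √(R.G p a v v) ∧ R.Ex p a v = y := by
  obtain ⟨δ, δ0, H⟩ := exists_unif_pair (P := fun p x y : M => x ∈ (chartAt E p).source ∧
    ∃ v, dist x y = √(R.G p (chartAt E p x) v v) ∧ R.Ex p (chartAt E p x) v = y) fun p => by
    obtain ⟨L⟩ := R.exists_loc p
    obtain ⟨ρ, ρ0, ρ1, hρ⟩ := L.geo
    have m1 : chartAt E p p ∈ ball (chartAt E p p) L.r' := mem_ball_self L.r'_pos
    have s1 := ball_subset_ball (x := chartAt E p p) L.r'_le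
    have z : L.Lg (chartAt E p p, chartAt E p p) = 0 :=
      L.inj _ (s1 m1) (L.Lg_mem _ m1 _ m1) (mem_ball_self (L.r'_pos.trans_le L.r'_le))
        ((L.XLg _ m1 _ m1).trans (L.X0 _ (s1 m1)).symm)
    have c : ContinuousAt L.Lg (chartAt E p p, chartAt E p p) := L.smLg.continuousOn.continuousAt
      (prod_mem_nhds (ball_mem_nhds _ L.r'_pos) (ball_mem_nhds _ L.r'_pos))
    filter_upwards [eventually_source_pair (E := E) p, tendsto_chart_pair (E := E) p
      (prod_mem_nhds (ball_mem_nhds _ ρ0) (ball_mem_nhds _ L.r'_pos)),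
      (c.tendsto.comp (tendsto_chart_pair p)) (show ball 0 ρ ∈ 𝓝 _ from z ▸ ball_mem_nhds _ ρ0)]
      with q h1 h2 h3
    have a1 := ball_subset_ball ρ1 h2.1
    have a2 := L.Lg_mem _ a1 _ h2.2
    have a3 := L.rad _ (s1 a1) _ a2
    have a4 := L.ex_eq (s1 a1) a2 (hρ _ h2.1 _ h3)
    rw [L.XLg _ a1 _ h2.2, (chartAt E p).left_inv h1.2] at a3 a4
    rw [(chartAt E p).left_inv h1.1] at a3
    exact ⟨h1.1, _, a3, a4⟩
  refine ⟨δ, δ0, fun p a ha y hy => ?_⟩
  obtain ⟨q, hq, v, h1, h2⟩ := H _ _ hy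
  obtain ⟨T, t1, t2⟩ := R.ex_trans' ha hq
  exact ⟨T.symm v, by rw [← t1, T.apply_symm_apply, h1], by rw [← t2, T.apply_symm_apply, h2]⟩

theorem RM.locGood (R : RM E M) : ∃ δ > 0, ∀ x y : M, dist x y < δ → GoodPair E x y := by
  obtain ⟨δ, δ0, H⟩ := exists_unif_pair (P := fun _ x y : M => GoodPair E x y) fun p => by
    obtain ⟨L⟩ := R.exists_loc p
    filter_upwards [eventually_source_pair (E := E) p, tendsto_chart_pair (E := E) p
      (prod_mem_nhds (ball_mem_nhds _ L.r'_pos) (ball_mem_nhds _ L.r'_pos))] with q h1 h2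
    have o := (isOpen_ball (x := chartAt E p p) (ε := L.r')).prod
      (isOpen_ball (x := chartAt E p p) (ε := L.r'))
    refine goodPair_of_chart h1.1 h1.2 ?_
    filter_upwards [o.mem_nhds h2] with z hz
    have a1 := L.smLg.contDiffAt (o.mem_nhds hz)
    have a2 := ((R.smG p).contDiffAt ((chartAt E p).open_target.mem_nhds
      (L.ball_sub (ball_subset_ball L.r'_le hz.1)))).comp z contDiffAt_fst
    refine ((a2.clm_apply a1).clm_apply a1).congr_of_eventuallyEq ?_
    filter_upwards [o.mem_nhds hz] with z' hz'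
    exact L.dist_sq hz'.1 hz'.2
  exact ⟨δ, δ0, fun x y h => (H x y h).elim fun _ h => h⟩

end Vale.Agent.P234
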