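import Vale.Agent.P234.Glob2

/-! P234 ExP: algebraic properties of the exponential map. -/

open Set Manifold Filter Metric
open scoped ContDiff Topology

namespace Vale.Agent.P234

variable {E : Type*} [NormedAddCommGroup E] [NormedSpace ℝ E] [FiniteDimensional ℝ E]
  {M : Type*} [MetricSpace M] [ChartedSpace E M] [IsManifold 𝓘(ℝ, E) ∞ M] [CompactSpace M]

theorem LocGeod.affine {N : Type*} [MetricSpace N] {γ : ℝ → N} {L : ℝ} (h : LocGeod γ L univ)
    (t₀ c : ℝ) : LocGeod (fun s => γ (t₀ + c * s)) (|c| * L) univ := by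
  intro s₀ _
  obtain ⟨ε, hε, H⟩ := h (t₀ + c * s₀) trivial
  have c0 : 0 < |c| + 1 := by positivity
  have key : ∀ s ∈ Ioo (s₀ - ε / (|c| + 1)) (s₀ + ε / (|c| + 1)),
      t₀ + c * s ∈ Ioo (t₀ + c * s₀ - ε) (t₀ + c * s₀ + ε) := by
    intro s hs
    have h1 : |s - s₀| < ε / (|c| + 1) := abs_lt.2 ⟨by linarith [hs.1], by linarith [hs.2]⟩
    rw [lt_div_iff₀ c0] at h1
    have h2 : |c * (s - s₀)| < ε := by rw [abs_mul]; nlinarith [abs_nonneg (s - s₀)]
    rw [abs_lt] at h2
    constructor <;> linarith [h2.1, h2.2]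
  refine ⟨ε / (|c| + 1), by positivity, fun s hs t ht => ?_⟩
  rw [H _ (key s hs) _ (key t ht), show t₀ + c * s - (t₀ + c * t) = c * (s - t) by ring, abs_mul]
  ring

theorem RM.ex_eq (R : RM E M) {p : M} {a v : E} (ha : a ∈ (chartAt E p).target) {γ : ℝ → M}
    (h : R.IsGeo p a v γ) (t : ℝ) : R.Ex p a (t • v) = γ t := by
  have h1 : R.IsGeo p a (t • v) fun s => γ (0 + t * s) := by
    refine ⟨by simpa using h.1, ?_, ?_⟩
    · have h2 : HasDerivAt (fun s : ℝ => 0 + t * s) t 0 := by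
        simpa using ((hasDerivAt_id (0 : ℝ)).const_mul t).const_add 0
      exact h.2.1.scomp_of_eq 0 h2 (by simp)
    · rw [bil_sqrt_smul]; exact h.2.2.affine 0 t
  have h2 : ∃ γ, R.IsGeo p a (t • v) γ := ⟨_, h1⟩
  rw [RM.Ex, dif_pos h2, R.isGeo_unique ha h2.choose_spec h1]
  simp

theorem RM.isGeo_ex (R : RM E M) {p : M} {a : E} (ha : a ∈ (chartAt E p).target) (v : E) :
    R.IsGeo p a v (fun t => R.Ex p a (t • v)) := by
  obtain ⟨γ, h⟩ := R.isGeo_exists ha v
  rwa [show (fun t : ℝ => R.Ex p a (t • v)) = γ from funext (R.ex_eq ha h)]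

theorem RM.ex0 (R : RM E M) {p : M} {a : E} (ha : a ∈ (chartAt E p).target) :
    R.Ex p a 0 = (chartAt E p).symm a := by
  simpa using (R.isGeo_ex ha 0).1

theorem RM.ex_lip (R : RM E M) {p : M} {a : E} (ha : a ∈ (chartAt E p).target) (v : E)
    (s t : ℝ) : dist (R.Ex p a (s • v)) (R.Ex p a (t • v)) ≤ |s - t| * √(R.G p a v v) :=
  (R.isGeo_ex ha v).2.2.dist_le (Real.sqrt_nonneg _) s t

theorem RM.ex_flow (R : RM E M) {p q : M} {a : E} (ha : a ∈ (chartAt E p).target) (v : E)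
    (t₀ : ℝ) (hq : R.Ex p a (t₀ • v) ∈ (chartAt E q).source) : ∃ w : E,
      HasDerivAt (fun t : ℝ => chartAt E q (R.Ex p a (t • v))) w t₀ ∧
      R.G q (chartAt E q (R.Ex p a (t₀ • v))) w w = R.G p a v v ∧
      ∀ s : ℝ, R.Ex q (chartAt E q (R.Ex p a (t₀ • v))) (s • w) = R.Ex p a ((t₀ + s) • v) := by
  have hγ := (R.isGeo_ex ha v).2.2
  have hb := (chartAt E q).map_source hq
  obtain ⟨w, h1, h2⟩ := R.geod_vel (Real.sqrt_nonneg _) (fun t _ => hγ t trivial) hq
  refine ⟨w, h1, (Real.sqrt_inj (bil_nonneg _ (R.pos q _ hb) _)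
    (bil_nonneg _ (R.pos p a ha) _)).1 h2, fun s => ?_⟩
  refine R.ex_eq (γ := fun s => R.Ex p a ((t₀ + s) • v)) hb ⟨?_, ?_, ?_⟩ s
  · rw [(chartAt E q).left_inv hq]; simp
  · exact HasDerivAt.comp_const_add (f := fun t : ℝ => chartAt E q (R.Ex p a (t • v))) t₀ 0
      (by rwa [add_zero])
  · rw [h2]
    simpa using hγ.affine t₀ 1

theorem RM.ex_trans (R : RM E M) {p q : M} {a : E} (ha : a ∈ (chartAt E p).target)
    (hq : (chartAt E p).symm a ∈ (chartAt E q).source) (v : E) :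
    R.Ex q (chartAt E q ((chartAt E p).symm a))
      (fderiv ℝ (fun b => chartAt E q ((chartAt E p).symm b)) a v) = R.Ex p a v := by
  obtain ⟨h0, h1, h2⟩ := R.isGeo_ex ha v
  have h3 := R.ex_eq (γ := fun t => R.Ex p a (t • v))
    (v := fderiv ℝ (fun b => chartAt E q ((chartAt E p).symm b)) a v)
    ((chartAt E q).map_source hq) ⟨?_, ?_, ?_⟩ 1
  · simpa using h3
  · rw [(chartAt E q).left_inv hq]; exact h0
  · have d := (contDiffAt_chart_trans ha hq).self_of_nhds.differentiableAt (by simp)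
    have h4 := d.hasFDerivAt.comp_hasDerivAt_of_eq 0 h1
      (by rw [h0, (chartAt E p).right_inv ha])
    refine h4.congr_of_eventuallyEq ?_
    have h5 : ∀ᶠ t : ℝ in 𝓝 0, R.Ex p a (t • v) ∈ (chartAt E p).source :=
      h2.continuousAt trivial ((chartAt E p).open_source.mem_nhds
        (by rw [h0]; exact (chartAt E p).map_target ha))
    filter_upwards [h5] with t ht
    simp only [Function.comp, (chartAt E p).left_inv ht]
  · rwa [R.compat p q a ha hq]

theorem RM.ex_trans' (R : RM E M) {p q : M} {a : E} (ha : a ∈ (chartAt E p).target)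
    (hq : (chartAt E p).symm a ∈ (chartAt E q).source) : ∃ T : E ≃L[ℝ] E,
      (∀ v w, R.G q (chartAt E q ((chartAt E p).symm a)) (T v) (T w) = R.G p a v w) ∧
      ∀ v, R.Ex q (chartAt E q ((chartAt E p).symm a)) (T v) = R.Ex p a v := by
  have hinj : Function.Injective
      (fderiv ℝ (fun b => chartAt E q ((chartAt E p).symm b)) a).toLinearMap := by
    refine (injective_iff_map_eq_zero _).2 fun v hv => by_contra fun h => ?_
    have h1 := R.pos p a ha v h
    have hv' : fderiv ℝ (fun b => chartAt E q ((chartAt E p).symm b)) a v = 0 := hv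
    rw [← R.compat p q a ha hq, hv'] at h1
    simp at h1
  exact ⟨(LinearEquiv.ofInjectiveEndo _ hinj).toContinuousLinearEquiv,
    fun v w => R.compat p q a ha hq v w, fun v => R.ex_trans ha hq v⟩

theorem Loc.ex_eq {R : RM E M} {p : M} (L : Loc R p) {a v : E}
    (ha : a ∈ ball (chartAt E p p) L.r) (hv : v ∈ ball (0 : E) L.r)
    (hgeo : ∀ s ∈ Icc (-1 : ℝ) 1, ∀ t ∈ Icc (-1 : ℝ) 1,
      dist ((chartAt E p).symm (L.X (a, s • v))) ((chartAt E p).symm (L.X (a, t • v))) =
        √(R.G p a v v) * |s - t|) :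
    R.Ex p a v = (chartAt E p).symm (L.X (a, v)) := by
  have ha' := L.ball_sub ha
  obtain ⟨h0, h1, h2⟩ := R.isGeo_ex ha' v
  beta_reduce at h0
  have c0 := Real.sqrt_nonneg (R.G p a v v)
  have g2 : LocGeod (fun t : ℝ => (chartAt E p).symm (L.X (a, t • v))) √(R.G p a v v)
      (Ioo (-1) 1) := by
    intro t₀ ht
    have m1 := min_le_left (1 - t₀) (1 + t₀)
    have m2 := min_le_right (1 - t₀) (1 + t₀)
    exact ⟨min (1 - t₀) (1 + t₀), lt_min (by linarith [ht.2]) (by linarith [ht.1]),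
      fun s hs t ht' => hgeo s ⟨by linarith [hs.1], by linarith [hs.2]⟩ t
        ⟨by linarith [ht'.1], by linarith [ht'.2]⟩⟩
  have z : (0 : ℝ) ∈ Ioo (-1 : ℝ) 1 := by norm_num
  have d2 : HasDerivAt (fun t : ℝ => chartAt E p ((chartAt E p).symm (L.X (a, t • v)))) v 0 := by
    refine (L.dX0 a ha v).congr_of_eventuallyEq ?_
    filter_upwards [Icc_mem_nhds z.1 z.2] with t ht
    refine (chartAt E p).right_inv (L.maps a ha _ ?_)
    rw [mem_ball_zero_iff] at hv ⊢
    rw [norm_smul, Real.norm_eq_abs]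
    exact (mul_le_of_le_one_left (norm_nonneg _) (abs_le.2 ht)).trans_lt hv
  have e1 := R.geod_eventuallyEq c0 c0 (fun t _ => h2 t trivial)
    (fun t ht => g2 t (by rw [ht]; exact z)) (by rw [h0]; simp [L.X0 a ha])
    (by rw [h0]; exact (chartAt E p).map_target ha') h1 d2
  have e2 := R.geod_eqOn isPreconnected_Ioo c0 (fun t _ => h2 t trivial) g2 z e1
  have e3 := e2.of_subset_closure (t := Icc (-1) 1)
    (fun t _ => (h2.continuousAt trivial).continuousWithinAt)
    (LipschitzOnWith.of_dist_le_mul (K := ⟨_, c0⟩) fun s hs t ht =>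
      (hgeo s hs t ht).le).continuousOn Ioo_subset_Icc_self (by rw [closure_Ioo (by norm_num)])
  simpa using e3 (show (1 : ℝ) ∈ Icc (-1 : ℝ) 1 by norm_num)

end Vale.Agent.P234
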