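import Vale.Agent.P234.ExL

/-! P234 ExS: joint smoothness of the exponential map, packaging. -/

open Set Manifold Filter Metric
open scoped ContDiff Topology

namespace Vale.Agent.P234

variable {E : Type*} [NormedAddCommGroup E] [NormedSpace ℝ E] [FiniteDimensional ℝ E]
  {M : Type*} [MetricSpace M] [ChartedSpace E M] [IsManifold 𝓘(ℝ, E) ∞ M] [CompactSpace M]

theorem RM.smEx_small (R : RM E M) : ∃ ρ > 0, ∀ p : M, ∀ a ∈ (chartAt E p).target, ∀ v : E,
    √(R.G p a v v) < ρ →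
      ContMDiffAt 𝓘(ℝ, E × E) 𝓘(ℝ, E) ∞ (fun q : E × E => R.Ex p q.1 q.2) (a, v) := by
  obtain ⟨ρ, ρ0, H⟩ := R.unif
  refine ⟨ρ, ρ0, fun p a ha v hv => ?_⟩
  obtain ⟨q, L, r, r1, hq, h1, h2, h3⟩ := H ((chartAt E p).symm a)
  have r2 := r1.trans L.r'_le
  have t0 := (contDiffAt_chart_trans ha hq).self_of_nhds
  have t1 : ContDiffAt ℝ ∞ (fun z : E × E => (chartAt E q ((chartAt E p).symm z.1),
      fderiv ℝ (fun b => chartAt E q ((chartAt E p).symm b)) z.1 z.2)) (a, v) :=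
    (t0.comp (a, v) contDiffAt_fst).prodMk
      (((t0.fderiv_right (m := ∞) (by simp)).comp (a, v) contDiffAt_fst).clm_apply contDiffAt_snd)
  have m1 : (chartAt E q ((chartAt E p).symm a),
      fderiv ℝ (fun b => chartAt E q ((chartAt E p).symm b)) a v) ∈
      ball (chartAt E q q) r ×ˢ ball (0 : E) r :=
    ⟨h1, h2 _ (by rwa [R.compat p q a ha hq])⟩
  have b1 := ball_subset_ball r2 m1.1
  have b2 := ball_subset_ball r2 m1.2
  have t2 := (L.smX.contDiffAt ((isOpen_ball.prod isOpen_ball).mem_nhds ⟨b1, b2⟩)).comp (a, v) t1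
  have t3 := (contMDiffAt_chart_symm (L.maps _ b1 _ b2)).self_of_nhds.comp (a, v) t2.contMDiffAt
  refine t3.congr_of_eventuallyEq ?_
  have e1 : ∀ᶠ b in 𝓝 a, b ∈ (chartAt E p).target ∧ (chartAt E p).symm b ∈ (chartAt E q).source :=
    Eventually.and ((chartAt E p).open_target.mem_nhds ha)
      ((chartAt E p).continuousAt_symm ha ((chartAt E q).open_source.mem_nhds hq))
  filter_upwards [continuous_fst.tendsto (a, v) e1,
    t1.continuousAt ((isOpen_ball.prod isOpen_ball).mem_nhds m1)] with z z1 z2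
  rw [← R.ex_trans z1.1 z1.2]
  exact L.ex_eq (ball_subset_ball r2 z2.1) (ball_subset_ball r2 z2.2) (h3 _ z2.1 _ z2.2)

theorem RM.smEx_double (R : RM E M) {ρ : ℝ} (H : ∀ p : M, ∀ a ∈ (chartAt E p).target, ∀ v : E,
    √(R.G p a v v) < ρ →
      ContMDiffAt 𝓘(ℝ, E × E) 𝓘(ℝ, E) ∞ (fun q : E × E => R.Ex p q.1 q.2) (a, v))
    (p : M) {a : E} (ha : a ∈ (chartAt E p).target) (u : E) (hu : √(R.G p a u u) < ρ) :
    ContMDiffAt 𝓘(ℝ, E × E) 𝓘(ℝ, E) ∞ (fun q : E × E => R.Ex p q.1 ((2 : ℝ) • q.2)) (a, u) := by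
  obtain ⟨q, hq0⟩ : ∃ q, q = R.Ex p a u := ⟨_, rfl⟩
  have hq : R.Ex p a u ∈ (chartAt E q).source := hq0 ▸ mem_chart_source E q
  have s0 := H p a ha u hu
  obtain ⟨F, hF⟩ : ∃ F : E × E → E, F = fun z => chartAt E q (R.Ex p z.1 z.2) := ⟨_, rfl⟩
  have f0 : ContDiffAt ℝ ∞ F (a, u) := hF ▸ contDiffAt_chart_comp hq s0
  have key : ∀ᶠ z : E × E in 𝓝 (a, u), R.G q (F z) (fderiv ℝ F z (0, z.2))
      (fderiv ℝ F z (0, z.2)) = R.G p z.1 z.2 z.2 ∧
      R.Ex q (F z) (fderiv ℝ F z (0, z.2)) = R.Ex p z.1 ((2 : ℝ) • z.2) := by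
    filter_upwards [continuous_fst.tendsto (a, u) ((chartAt E p).open_target.mem_nhds ha),
      s0.continuousAt ((chartAt E q).open_source.mem_nhds hq),
      (f0.of_le (m := 1) (by simp)).eventually (by simp)] with z z1 z2 z3
    obtain ⟨w, w1, w2, w3⟩ := R.ex_flow (q := q) z1 z.2 1 (by rw [one_smul]; exact z2)
    have d1 : HasDerivAt (fun t : ℝ => (z.1, t • z.2)) ((0 : E), z.2) 1 := by
      simpa using (hasDerivAt_const (1 : ℝ) z.1).prodMk ((hasDerivAt_id (1 : ℝ)).smul_const z.2)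
    have d2 := (z3.differentiableAt (by simp)).hasFDerivAt.comp_hasDerivAt_of_eq 1 d1 (by simp)
    have e : fderiv ℝ F z (0, z.2) = w := d2.unique (by rw [hF]; exact w1)
    have w4 := w3 1
    rw [one_smul, one_smul, one_add_one_eq_two] at w4
    rw [one_smul] at w2
    rw [e, hF]
    exact ⟨w2, w4⟩
  have t1 : ContDiffAt ℝ ∞ (fun z : E × E => (F z, fderiv ℝ F z (0, z.2))) (a, u) :=
    f0.prodMk ((f0.fderiv_right (m := ∞) (by simp)).clm_apply
      (contDiffAt_const.prodMk contDiffAt_snd))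
  have s1 := H q (F (a, u)) (hF ▸ (chartAt E q).map_source hq) (fderiv ℝ F (a, u) (0, u))
    (by rwa [key.self_of_nhds.1])
  refine (s1.comp (a, u) t1.contMDiffAt).congr_of_eventuallyEq ?_
  filter_upwards [key] with z hz
  exact hz.2.symm

theorem RM.smEx (R : RM E M) (p : M) {a : E} (ha : a ∈ (chartAt E p).target) (v : E) :
    ContMDiffAt 𝓘(ℝ, E × E) 𝓘(ℝ, E) ∞ (fun q : E × E => R.Ex p q.1 q.2) (a, v) := by
  obtain ⟨ρ, ρ0, H⟩ := R.smEx_small
  have key : ∀ n : ℕ, ∀ p : M, ∀ a ∈ (chartAt E p).target, ∀ v : E, √(R.G p a v v) < 2 ^ n * ρ →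
      ContMDiffAt 𝓘(ℝ, E × E) 𝓘(ℝ, E) ∞ (fun q : E × E => R.Ex p q.1 q.2) (a, v) := by
    intro n
    induction n with
    | zero => simpa using H
    | succ n ih =>
      intro p a ha v hv
      have h1 := R.smEx_double ih p ha ((2⁻¹ : ℝ) • v) (by
        rw [bil_sqrt_smul, abs_of_pos (by norm_num)]
        rw [pow_succ] at hv
        linarith)
      have h2 : ContDiffAt ℝ ∞ (fun z : E × E => (z.1, (2⁻¹ : ℝ) • z.2)) (a, v) := by fun_prop
      refine (h1.comp (a, v) h2.contMDiffAt).congr_of_eventuallyEq (Eventually.of_forall fun z => ?_)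
      simp
  obtain ⟨n, hn⟩ := pow_unbounded_of_one_lt (√(R.G p a v v) / ρ) (one_lt_two (α := ℝ))
  exact key n p a ha v ((div_lt_iff₀ ρ0).1 hn)

theorem RM.toGeo (R : RM E M) : ∃ Γ : Geo E M, Γ.G = R.G ∧ Γ.Ex = R.Ex :=
  ⟨{ G := R.G
     Ex := R.Ex
     smG := R.smG
     symm := R.symm
     pos := R.pos
     ex0 := fun _ _ ha => R.ex0 ha
     smEx := fun p _ ha v => R.smEx p ha v
     lip := fun _ _ ha v s t => R.ex_lip ha v s t
     flow := fun _ _ _ ha v t₀ hq => (R.ex_flow ha v t₀ hq).imp fun _ h => h.2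
     trans := fun _ _ _ ha hq => R.ex_trans' ha hq
     mid := R.mid
     locHR := R.locHR
     locGood := R.locGood }, rfl, rfl⟩

end Vale.Agent.P234
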