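import Vale.Agent.P234.Defs

/-! P234 IFT: smooth implicit function theorem. -/

open Set Manifold Filter Metric
open scoped ContDiff Topology

namespace Vale.Agent.P234

variable {X : Type*} [NormedAddCommGroup X] [NormedSpace ℝ X]
  {P : Type*} [NormedAddCommGroup P] [NormedSpace ℝ P]

theorem ift2 {Y : Type*} [NormedAddCommGroup Y] [NormedSpace ℝ Y] [CompleteSpace P]
    [CompleteSpace X] [CompleteSpace Y] {Φ : P × X → Y} {θ₀ : P} {x₀ : X}
    (hΦ : ∀ᶠ q in 𝓝 (θ₀, x₀), ContDiffAt ℝ ∞ Φ q) (L : X ≃L[ℝ] Y)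
    (hL : HasFDerivAt (fun x => Φ (θ₀, x)) (L : X →L[ℝ] Y) x₀) :
    ∃ μ : P → X, μ θ₀ = x₀ ∧
      (∀ᶠ θ in 𝓝 θ₀, ContDiffAt ℝ ∞ μ θ ∧ Φ (θ, μ θ) = Φ (θ₀, x₀)) ∧
      ∀ᶠ q in 𝓝 (θ₀, x₀), Φ q = Φ (θ₀, x₀) → q.2 = μ q.1 := by
  have h0 := hΦ.self_of_nhds
  let D : P × X → X →L[ℝ] Y := fun q => fderiv ℝ Φ q ∘L ContinuousLinearMap.inr ℝ P X
  have e0 : D (θ₀, x₀) = L := (HasFDerivAt.comp x₀ (g := Φ) (f := fun x => (θ₀, x))
    (h0.differentiableAt (by simp)).hasFDerivAt (hasFDerivAt_prodMk_right θ₀ x₀)).unique hL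
  have cD : ContinuousAt D (θ₀, x₀) :=
    (h0.continuousAt_fderiv (by simp)).clm_comp continuousAt_const
  have hD : ∀ᶠ q in 𝓝 (θ₀, x₀), (D q).IsInvertible := by
    have := cD.eventually (e0 ▸ L.nhds)
    filter_upwards [this] with q hq
    exact hq
  have i0 := hD.self_of_nhds
  have pn : (∞ : WithTop ℕ∞) ≠ 0 := by simp
  have m0 := h0.implicitFunction_apply_self pn i0
  have m1 := h0.eventually_apply_implicitFunction pn i0
  have m2 := h0.eventually_apply_eq_iff_implicitFunction pn i0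
  have mc := (h0.contDiffAt_implicitFunction pn i0).continuousAt
  set μ := h0.implicitFunction pn i0
  have tc : Tendsto (fun θ => (θ, μ θ)) (𝓝 θ₀) (𝓝 (θ₀, x₀)) := by
    have := continuousAt_id.prodMk mc
    rw [ContinuousAt] at this
    simpa only [id, m0] using this
  refine ⟨μ, m0, ?_, m2.mono fun q hq h => (hq.1 h).symm⟩
  filter_upwards [m1, tc.eventually (hΦ.and (hD.and m2.eventually_nhds))] with θ h1 h2
  obtain ⟨h2, h3, h4⟩ := h2
  refine ⟨(h2.contDiffAt_implicitFunction pn h3).congr_of_eventuallyEq ?_, h1⟩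
  have t2 : Tendsto (fun θ' => (θ', h2.implicitFunction pn h3 θ')) (𝓝 θ) (𝓝 (θ, μ θ)) := by
    have := continuousAt_id.prodMk (h2.contDiffAt_implicitFunction pn h3).continuousAt
    rw [ContinuousAt] at this
    simpa only [id, h2.implicitFunction_apply_self pn h3] using this
  filter_upwards [t2.eventually h4, h2.eventually_apply_implicitFunction pn h3] with θ' a b
  exact a.1 (b.trans h1)

end Vale.Agent.P234
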