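import Vale.Agent.P234.GP
import Vale.Agent.P234.IFT
import Vale.Agent.P234.CalcB
import Vale.Agent.P234.Tch

/-! P234 F6: unique nondegenerate midpoint gives a smooth cost. -/

open Set Manifold Filter Metric
open scoped ContDiff Topology

namespace Vale.Agent.P234

variable {E : Type*} [NormedAddCommGroup E] [NormedSpace ℝ E] [FiniteDimensional ℝ E]
  {M : Type*} [MetricSpace M] [ChartedSpace E M] [IsManifold 𝓘(ℝ, E) ∞ M] [CompactSpace M]

theorem f6_min {M : Type*} [MetricSpace M] {x y m : M} (h1 : dist x m = dist x y / 2)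
    (h2 : dist m y = dist x y / 2) (z : M) :
    dist x m ^ 2 + dist m y ^ 2 ≤ dist x z ^ 2 + dist z y ^ 2 := by
  have h := dist_triangle x z y
  have h0 := dist_nonneg (x := x) (y := y)
  rw [h1, h2]
  nlinarith [sq_nonneg (dist x z - dist z y), mul_self_le_mul_self h0 h]

theorem f6_near {M : Type*} [MetricSpace M] [CompactSpace M] {x₀ y₀ m₀ : M}
    (huniq : ∀ m, dist x₀ m = dist x₀ y₀ / 2 → dist m y₀ = dist x₀ y₀ / 2 → m = m₀) {O : Set M}
    (hO : O ∈ 𝓝 m₀) : ∀ᶠ w : M × M in 𝓝 (x₀, y₀), ∀ m, dist w.1 m = dist w.1 w.2 / 2 →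
      dist m w.2 = dist w.1 w.2 / 2 → m ∈ O := by
  have hK : IsCompact (interior O)ᶜ := isOpen_interior.isClosed_compl.isCompact
  have h := hK.eventually_forall_of_forall_eventually (x₀ := (x₀, y₀))
    (P := fun (w : M × M) m => ¬ (dist w.1 m = dist w.1 w.2 / 2 ∧ dist m w.2 = dist w.1 w.2 / 2))
    fun m hm => by
      have c : IsClosed {z : (M × M) × M | dist z.1.1 z.2 = dist z.1.1 z.1.2 / 2 ∧
          dist z.2 z.1.2 = dist z.1.1 z.1.2 / 2} :=
        (isClosed_eq (by fun_prop) (by fun_prop)).inter (isClosed_eq (by fun_prop) (by fun_prop))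
      refine c.isOpen_compl.mem_nhds fun h => hm ?_
      rw [huniq m h.1 h.2]
      exact mem_interior_iff_mem_nhds.2 hO
  filter_upwards [h] with w hw m h1 h2
  by_contra hm
  exact hw m (fun h => hm (interior_subset h)) ⟨h1, h2⟩

theorem good_of_midpoint
    (hmid : ∀ x y : M, ∃ m, dist x m = dist x y / 2 ∧ dist m y = dist x y / 2)
    {x₀ y₀ : M} {n : E → M} (hn : ∀ᶠ μ in 𝓝 (0 : E), ContMDiffAt 𝓘(ℝ, E) 𝓘(ℝ, E) ∞ n μ)
    (hsurj : 𝓝 (n 0) ≤ map n (𝓝 0)) (hg1 : GoodPair E x₀ (n 0)) (hg2 : GoodPair E (n 0) y₀)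
    (huniq : ∀ m, dist x₀ m = dist x₀ y₀ / 2 → dist m y₀ = dist x₀ y₀ / 2 → m = n 0)
    (hQ : ∀ k, k ≠ 0 → 0 < D2 (fun μ => dist x₀ (n μ) ^ 2 + dist (n μ) y₀ ^ 2) 0 k k) :
    GoodPair E x₀ y₀ := by
  have hx := mem_chart_source E x₀
  have hy := mem_chart_source E y₀
  have ex := (chartAt E x₀).left_inv hx
  have ey := (chartAt E y₀).left_inv hy
  set θ₀ : E × E := (chartAt E x₀ x₀, chartAt E y₀ y₀) with hθ
  let S : (E × E) × E → ℝ := fun q => dist ((chartAt E x₀).symm q.1.1) (n q.2) ^ 2 +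
    dist (n q.2) ((chartAt E y₀).symm q.1.2) ^ 2
  have s1 : ∀ᶠ q : (E × E) × E in 𝓝 (θ₀, 0), ContMDiffAt 𝓘(ℝ, (E × E) × E) 𝓘(ℝ, E) ∞
      (fun q : (E × E) × E => (chartAt E x₀).symm q.1.1) q := by
    filter_upwards [(continuous_fst.fst.tendsto ((θ₀, 0) : (E × E) × E)).eventually
      (contMDiffAt_chart_symm ((chartAt E x₀).map_source hx))] with q hq
    exact hq.comp q (contDiff_fst.fst.contDiffAt.contMDiffAt)
  have s2 : ∀ᶠ q : (E × E) × E in 𝓝 (θ₀, 0), ContMDiffAt 𝓘(ℝ, (E × E) × E) 𝓘(ℝ, E) ∞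
      (fun q : (E × E) × E => (chartAt E y₀).symm q.1.2) q := by
    filter_upwards [(continuous_fst.snd.tendsto ((θ₀, 0) : (E × E) × E)).eventually
      (contMDiffAt_chart_symm ((chartAt E y₀).map_source hy))] with q hq
    exact hq.comp q (contDiff_fst.snd.contDiffAt.contMDiffAt)
  have s3 : ∀ᶠ q : (E × E) × E in 𝓝 (θ₀, 0), ContMDiffAt 𝓘(ℝ, (E × E) × E) 𝓘(ℝ, E) ∞
      (fun q : (E × E) × E => n q.2) q := by
    filter_upwards [(continuous_snd.tendsto ((θ₀, 0) : (E × E) × E)).eventually hn] with q hq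
    exact hq.comp q (contDiff_snd.contDiffAt.contMDiffAt)
  have hS : ∀ᶠ q in 𝓝 (θ₀, (0 : E)), ContDiffAt ℝ ∞ S q := by
    filter_upwards [GoodPair.comp (t₀ := (θ₀, (0 : E))) (by rw [ex]; exact hg1) s1 s3,
      GoodPair.comp (t₀ := (θ₀, (0 : E))) (by rw [ey]; exact hg2) s3 s2] with q h1 h2
    exact h1.add h2
  have hΦ := contDiffAt_fderiv_param hS
  have e0 : (fun z => S (θ₀, z)) = fun μ => dist x₀ (n μ) ^ 2 + dist (n μ) y₀ ^ 2 := by
    funext z; simp only [S, hθ, ex, ey]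
  obtain ⟨L, hL⟩ := bil_equiv _ hQ
  have d0 : DifferentiableAt ℝ (fun x => fderiv ℝ (fun z => S (θ₀, z)) x) 0 :=
    (hΦ.self_of_nhds.comp 0 (f := fun x : E => (θ₀, x))
      (contDiff_const.prodMk contDiff_id).contDiffAt).differentiableAt (by simp)
  obtain ⟨μ, m0, m1, m2⟩ := ift2 hΦ L (by
    rw [hL, ← e0]; exact d0.hasFDerivAt)
  have crit : ∀ (θ : E × E) (ν : E),
      dist ((chartAt E x₀).symm θ.1) (n ν) =
        dist ((chartAt E x₀).symm θ.1) ((chartAt E y₀).symm θ.2) / 2 →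
      dist (n ν) ((chartAt E y₀).symm θ.2) =
        dist ((chartAt E x₀).symm θ.1) ((chartAt E y₀).symm θ.2) / 2 →
      fderiv ℝ (fun z => S (θ, z)) ν = 0 := fun θ ν h1 h2 =>
    IsLocalMin.fderiv_eq_zero (Eventually.of_forall fun z => f6_min h1 h2 (n z))
  have c0 : fderiv ℝ (fun z => S (θ₀, z)) 0 = 0 := by
    obtain ⟨m, h1, h2⟩ := hmid x₀ y₀
    have := huniq m h1 h2
    subst this
    exact crit θ₀ 0 (by rw [ex, ey]; exact h1) (by rw [ex, ey]; exact h2)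
  rw [nhds_prod_eq] at m2
  obtain ⟨W, hW, V, hV, m3⟩ := eventually_prod_iff.1 m2
  have c : Tendsto (fun θ : E × E => ((chartAt E x₀).symm θ.1, (chartAt E y₀).symm θ.2)) (𝓝 θ₀)
      (𝓝 (x₀, y₀)) := by
    have := (((chartAt E x₀).continuousAt_symm ((chartAt E x₀).map_source hx)).comp_of_eq
      (continuousAt_fst (p := θ₀)) rfl).prodMk
      (((chartAt E y₀).continuousAt_symm ((chartAt E y₀).map_source hy)).comp_of_eq
      (continuousAt_snd (p := θ₀)) rfl)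
    have h2 := this.tendsto
    simp only [Function.comp, hθ, ex, ey] at h2
    exact h2
  have key : ∀ᶠ θ : E × E in 𝓝 θ₀, dist ((chartAt E x₀).symm θ.1) ((chartAt E y₀).symm θ.2) ^ 2 =
      2 * S (θ, μ θ) := by
    filter_upwards [hW, c.eventually (f6_near huniq (hsurj (image_mem_map hV)))] with θ h1 h2
    obtain ⟨m, a1, a2⟩ := hmid ((chartAt E x₀).symm θ.1) ((chartAt E y₀).symm θ.2)
    obtain ⟨ν, b1, rfl⟩ := h2 m a1 a2
    have b2 : ν = μ θ := m3 h1 b1 ((crit θ ν a1 a2).trans c0.symm)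
    simp only [S, ← b2, a1, a2]
    ring
  have t : Tendsto (fun θ => (θ, μ θ)) (𝓝 θ₀) (𝓝 (θ₀, 0)) := by
    have := m1.self_of_nhds.1.continuousAt.tendsto
    rw [m0] at this
    exact tendsto_id.prodMk_nhds this
  refine goodPair_of_chart hx hy ?_
  filter_upwards [key.eventually_nhds, m1, t.eventually hS] with θ h1 h2 h3
  have h4 : ContDiffAt ℝ ∞ (fun θ => 2 * S (θ, μ θ)) θ :=
    contDiffAt_const.mul (h3.comp θ (f := fun θ => (θ, μ θ)) (contDiffAt_id.prodMk h2.1))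
  exact h4.congr_of_eventuallyEq h1

end Vale.Agent.P234
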