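import Vale.Agent.P234.Ch

/-! P234 Up: upper bound for the distance, existence of midpoints. -/

open Bundle Set Manifold Filter Metric
open scoped ContDiff Topology

namespace Vale.Agent.P234

variable {E : Type*} [NormedAddCommGroup E] [NormedSpace ℝ E] [FiniteDimensional ℝ E]
  {M : Type*} [MetricSpace M] [ChartedSpace E M] [IsManifold 𝓘(ℝ, E) ∞ M]
  [RiemannianBundle (fun x : M => TangentSpace 𝓘(ℝ, E) x)]
  [IsContMDiffRiemannianBundle 𝓘(ℝ, E) ∞ E (fun x : M => TangentSpace 𝓘(ℝ, E) x)]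

variable [IsRiemannianManifold 𝓘(ℝ, E) M]

theorem up_edist {γ : ℝ → M} {a b : ℝ} (hγ : ContMDiffOn 𝓘(ℝ, ℝ) 𝓘(ℝ, E) 1 γ (Icc a b))
    (hab : a ≤ b) : edist (γ a) (γ b) ≤ pathELength 𝓘(ℝ, E) γ a b := by
  rw [IsRiemannianManifold.out (I := 𝓘(ℝ, E))]
  exact riemannianEDist_le_pathELength hγ rfl rfl hab

include E in
theorem up_path (x y : M) {ε : ℝ} (hε : 0 < ε) : ∃ γ : ℝ → M, γ 0 = x ∧ γ 1 = y ∧
    ContMDiff 𝓘(ℝ, ℝ) 𝓘(ℝ, E) 1 γ ∧
    pathELength 𝓘(ℝ, E) γ 0 1 < ENNReal.ofReal (dist x y + ε) := by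
  have h : riemannianEDist 𝓘(ℝ, E) x y < ENNReal.ofReal (dist x y + ε) := by
    rw [← IsRiemannianManifold.out, edist_dist]
    exact (ENNReal.ofReal_lt_ofReal_iff (by positivity)).2 (by linarith)
  obtain ⟨γ, h0, h1, h2, h3, -⟩ := exists_lt_locally_constant_of_riemannianEDist_lt h one_pos
  exact ⟨γ, h0, h1, h2, h3⟩

theorem dist_le_of_curve (p : M) (β β' : ℝ → E) (L : ℝ)
    (h : ∀ t ∈ Icc (0 : ℝ) 1, β t ∈ (chartAt E p).target ∧ HasDerivAt β (β' t) t ∧
      √(GM p (β t) (β' t) (β' t)) ≤ L) (hc : ContinuousOn β' (Icc 0 1)) :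
    dist ((chartAt E p).symm (β 0)) ((chartAt E p).symm (β 1)) ≤ L := by
  have hL : 0 ≤ L := (Real.sqrt_nonneg _).trans (h 0 (by norm_num)).2.2
  have h1 : ContDiffOn ℝ 1 β (Icc 0 1) :=
    (contDiffOn_one_iff_derivWithin (uniqueDiffOn_Icc one_pos)).2
      ⟨fun t ht => (h t ht).2.1.differentiableAt.differentiableWithinAt, hc.congr fun t ht =>
        (h t ht).2.1.hasDerivWithinAt.derivWithin (uniqueDiffOn_Icc one_pos t ht)⟩
  have h2 : ContMDiffOn 𝓘(ℝ, ℝ) 𝓘(ℝ, E) 1 (fun t => (chartAt E p).symm (β t)) (Icc 0 1) :=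
    (contMDiffOn_chart_symm (I := 𝓘(ℝ, E)) (n := 1) (x := p)).comp h1.contMDiffOn
      fun t ht => (h t ht).1
  have h3 := up_edist h2 zero_le_one
  rw [pathELength_eq_lintegral_mfderiv_Icc] at h3
  have h4 := h3.trans (MeasureTheory.setLIntegral_mono' (g := fun _ => ENNReal.ofReal L)
    measurableSet_Icc fun t ht => by
      obtain ⟨a, b, c⟩ := h t ht
      have := norm_mfderiv_eq (p := p) (γ := fun t => (chartAt E p).symm (β t)) (w := β' t)
        (((chartAt E p).continuousAt_symm a).comp b.continuousAt) ((chartAt E p).map_target a)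
        (b.congr_of_eventuallyEq (by
          filter_upwards [b.continuousAt.eventually ((chartAt E p).open_target.mem_nhds a)]
            with s hs using (chartAt E p).right_inv hs))
      rw [(chartAt E p).right_inv a] at this
      rw [← ofReal_norm_eq_enorm]
      exact ENNReal.ofReal_le_ofReal (this.trans_le c))
  rw [edist_dist] at h4
  simpa [ENNReal.ofReal_le_ofReal_iff hL] using h4

include E in
theorem exists_mid [CompactSpace M] (x y : M) :
    ∃ m, dist x m = dist x y / 2 ∧ dist m y = dist x y / 2 := by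
  have d0 := dist_nonneg (x := x) (y := y)
  have key : ∀ ε > 0, ∃ m, dist x m = dist x y / 2 ∧ dist m y ≤ dist x y / 2 + ε := fun ε hε => by
    obtain ⟨γ, h0, h1, h2, h3⟩ := up_path (E := E) x y hε
    obtain ⟨t, ht, e⟩ := intermediate_value_Icc zero_le_one
      (f := fun t => dist x (γ t)) (continuous_const.dist h2.continuous).continuousOn
      (show dist x y / 2 ∈ _ by simp only [h0, h1, dist_self]; constructor <;> linarith)
    refine ⟨γ t, e, ?_⟩
    have a := up_edist h2.contMDiffOn ht.1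
    have b := up_edist h2.contMDiffOn ht.2
    rw [← pathELength_add ht.1 ht.2] at h3
    have := (add_le_add a b).trans_lt h3
    rw [h0, h1, edist_dist, edist_dist, ← ENNReal.ofReal_add dist_nonneg dist_nonneg,
      ENNReal.ofReal_lt_ofReal_iff (by positivity)] at this
    simp only at e
    linarith
  obtain ⟨m1, hm1, -⟩ := key 1 one_pos
  obtain ⟨m, hm, H⟩ := (isClosed_eq (continuous_const.dist continuous_id) continuous_const
    (f := fun m => dist x m) (g := fun _ => dist x y / 2)).isCompact.exists_isMinOn ⟨m1, hm1⟩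
    (f := fun m => dist m y) (continuous_id.dist continuous_const).continuousOn
  refine ⟨m, hm, le_antisymm (le_of_forall_pos_le_add fun ε hε => ?_) ?_⟩
  · obtain ⟨m', h1, h2⟩ := key ε hε
    exact (H h1).trans h2
  · have := dist_triangle x m y
    simp only [mem_setOf_eq] at hm
    linarith

end Vale.Agent.P234
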