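import Vale.Agent.P234.Main
import Vale.Agent.P234.ExS
import Vale.Agent.P234.Up
import Vale.Agent.P234.Cal
import Vale.Agent.P234.Br

/-! P234 Final: back to the manifold. -/

open Bundle Set Manifold Filter Metric
open scoped ContDiff Topology

namespace Vale.Agent.P234

variable {E : Type*} [NormedAddCommGroup E] [NormedSpace ℝ E] [FiniteDimensional ℝ E]
  {M : Type*} [MetricSpace M] [ChartedSpace E M] [IsManifold 𝓘(ℝ, E) ∞ M]
  [RiemannianBundle (fun x : M => TangentSpace 𝓘(ℝ, E) x)]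
  [IsContMDiffRiemannianBundle 𝓘(ℝ, E) ∞ E (fun x : M => TangentSpace 𝓘(ℝ, E) x)]

variable [IsRiemannianManifold 𝓘(ℝ, E) M] [CompactSpace M]

theorem exists_RM : ∃ R : RM E M, R.G = GM :=
  ⟨{ G := GM
     smG := GM_smooth
     symm := GM_symm
     pos := fun _ _ ha v hv => GM_pos ha v hv
     compat := fun p q _ ha hq v w => GM_compat p q ha hq v w
     up := dist_le_of_curve
     cal := calibration
     mid := exists_mid (E := E) }, rfl⟩

theorem expMap_eq (R : RM E M) (hR : R.G = GM) {p : M} {a : E} (ha : a ∈ (chartAt E p).target)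
    (v : E) : expMap ((chartAt E p).symm a) (DPsi p a v) = R.Ex p a v := by
  have h : ∃ γ : ℝ → M, IsGeodesic ((chartAt E p).symm a) (DPsi p a v) γ := by
    obtain ⟨γ, hγ⟩ := R.isGeo_exists ha v
    exact ⟨γ, (isGeodesic_iff R hR ha v γ).2 hγ⟩
  rw [expMap, dif_pos h, ← R.ex_eq ha ((isGeodesic_iff R hR ha v _).1 h.choose_spec) 1, one_smul]

theorem exists_geo : ∃ Γ : Geo E M, Γ.G = GM ∧ ∀ p, ∀ a ∈ (chartAt E p).target, ∀ v,
    expMap ((chartAt E p).symm a) (DPsi p a v) = Γ.Ex p a v := by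
  obtain ⟨R, hR⟩ := exists_RM (E := E) (M := M)
  obtain ⟨Γ, h1, h2⟩ := R.toGeo
  exact ⟨Γ, h1.trans hR, fun p a ha v => by rw [h2]; exact expMap_eq R hR ha v⟩

omit [IsRiemannianManifold 𝓘(ℝ, E) M] in
theorem mem_injDom_iff (Γ : Geo E M) (hG : Γ.G = GM) {p : M} {a : E}
    (hE : ∀ v, expMap ((chartAt E p).symm a) (DPsi p a v) = Γ.Ex p a v) (v : E) :
    DPsi p a v ∈ injDom ((chartAt E p).symm a) ↔ v ∈ Γ.Io p a := by
  refine exists_congr fun c => and_congr_right fun hc => ?_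
  rw [← map_smul, hE, Geo.Ib, mem_setOf_eq, bil_sqrt_smul, hG, sqrt_GM, abs_of_pos (by linarith)]

omit [FiniteDimensional ℝ E] [IsManifold 𝓘(ℝ, E) ∞ M] [IsRiemannianManifold 𝓘(ℝ, E) M]
  [CompactSpace M] [RiemannianBundle (fun x : M => TangentSpace 𝓘(ℝ, E) x)]
  [IsContMDiffRiemannianBundle 𝓘(ℝ, E) ∞ E (fun x : M => TangentSpace 𝓘(ℝ, E) x)]
  [NormedSpace ℝ E] in
theorem chart_ind {P : M → Prop}
    (h : ∀ p, ∀ a ∈ (chartAt E p).target, P ((chartAt E p).symm a)) (x : M) : P x := by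
  have := h x _ (mem_chart_target E x)
  rwa [(chartAt E x).left_inv (mem_chart_source E x)] at this

theorem final_geod (x : M) (v : TangentSpace 𝓘(ℝ, E) x) : ∃! γ : ℝ → M, IsGeodesic x v γ := by
  revert v
  refine chart_ind (E := E) (P := fun x => ∀ v : TangentSpace 𝓘(ℝ, E) x,
    ∃! γ : ℝ → M, IsGeodesic x v γ) (fun p a ha v => ?_) x
  obtain ⟨R, hR⟩ := exists_RM (E := E) (M := M)
  obtain ⟨u, rfl⟩ := (DPsi_bijective ha).2 v
  simp only [isGeodesic_iff R hR ha]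
  obtain ⟨γ, hγ⟩ := R.isGeo_exists ha u
  exact ⟨γ, hγ, fun γ' h => R.isGeo_unique ha h hγ⟩

theorem final_smooth (x : M) (v ξ η : TangentSpace 𝓘(ℝ, E) x) (hv : v ∈ injDom x) :
    ContDiffAt ℝ ∞ (fun q : ℝ × ℝ => cost (expMap x (q.2 • ξ)) (expMap x (v + q.1 • η))) 0 := by
  revert v ξ η
  refine chart_ind (E := E) (P := fun x => ∀ v ξ η : TangentSpace 𝓘(ℝ, E) x, v ∈ injDom x →
    ContDiffAt ℝ ∞ (fun q : ℝ × ℝ => cost (expMap x (q.2 • ξ)) (expMap x (v + q.1 • η))) 0)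
    (fun p a ha v ξ η hv => ?_) x
  obtain ⟨Γ, hG, hE⟩ := exists_geo (E := E) (M := M)
  obtain ⟨v, rfl⟩ := (DPsi_bijective ha).2 v
  obtain ⟨ξ, rfl⟩ := (DPsi_bijective ha).2 ξ
  obtain ⟨η, rfl⟩ := (DPsi_bijective ha).2 η
  rw [mem_injDom_iff Γ hG (hE p a ha)] at hv
  simp only [← map_smul, ← map_add, hE p a ha]
  have h1 := (Γ.C_smooth_fix ha (Γ.good_of_Io ha hv)).self_of_nhds
  have h2 : ContDiff ℝ ∞ (fun q : ℝ × ℝ => (v + q.1 • η, q.2 • ξ)) := by fun_prop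
  exact ContDiffAt.comp (f := fun q : ℝ × ℝ => (v + q.1 • η, q.2 • ξ))
    (g := fun q : E × E => Γ.C p a q.1 q.2) 0 (by simpa using h1) h2.contDiffAt

theorem final_convex (h : WeakMTW E M) (x : M) : Convex ℝ (injDom (E := E) x) := by
  refine chart_ind (E := E) (P := fun x => Convex ℝ (injDom (E := E) x)) (fun p a ha => ?_) x
  obtain ⟨Γ, hG, hE⟩ := exists_geo (E := E) (M := M)
  have hM : Γ.MTW := by
    intro p a ha v hv ξ η hξη
    have h1 := h _ (DPsi p a v) (DPsi p a ξ) (DPsi p a η)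
      ((mem_injDom_iff Γ hG (hE p a ha) v).2 hv) (by rw [← GM_apply, ← hG]; exact hξη)
    simp only [mtw, ← map_smul, ← map_add, hE p a ha, cost] at h1
    simp only [Geo.C]
    linarith
  intro v hv w hw α β hα hβ hαβ
  obtain ⟨v, rfl⟩ := (DPsi_bijective ha).2 v
  obtain ⟨w, rfl⟩ := (DPsi_bijective ha).2 w
  rw [← map_smul, ← map_smul, ← map_add]
  rw [mem_injDom_iff Γ hG (hE p a ha)] at hv hw ⊢
  exact Γ.convex_Io hM ha hv hw hα hβ hαβ

end Vale.Agent.P234
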