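import Vale.Agent.P234.Bl
import Vale.Agent.P234.Conc

/-! P234 Focal: no focalization inside a segment. -/

open Set Manifold Filter Metric
open scoped ContDiff Topology

namespace Vale.Agent.P234

variable {E : Type*} [NormedAddCommGroup E] [NormedSpace ℝ E] [FiniteDimensional ℝ E]
  {M : Type*} [MetricSpace M] [ChartedSpace E M] [IsManifold 𝓘(ℝ, E) ∞ M] [CompactSpace M]

namespace Geo

variable (Γ : Geo E M) {p : M} {a : E}

theorem focal_lin {c L : ℝ} (h : ∀ T : ℝ, L ≤ T * c) : c = 0 := by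
  by_contra hc
  have := h ((L - 1) / c)
  rw [div_mul_cancel₀ _ hc] at this
  linarith

theorem focal_lim (ha : a ∈ (chartAt E p).target) {u : E} (hu : u ∈ Γ.Ib p a) (ξ k : E) {L : ℝ}
    (hL : ∀ᶠ τ in 𝓝[<] (1 : ℝ), L ≤ Γ.A p a (τ • u) ξ ξ) (T : ℝ) :
    L ≤ 2 * Γ.A p a ((1 / 2 : ℝ) • u) ξ ξ - 4 * T * Γ.G p a k ξ + T ^ 2 * Γ.Q p a u k k := by
  have hsm : Tendsto (fun τ : ℝ => τ • u) (𝓝[<] 1) (𝓝 u) := by
    have : Tendsto (fun τ : ℝ => τ • u) (𝓝 1) (𝓝 ((1 : ℝ) • u)) :=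
      (continuous_id.smul continuous_const).tendsto 1
    rw [one_smul] at this
    exact this.mono_left nhdsWithin_le_nhds
  have h1 : Tendsto (fun τ : ℝ => Γ.A p a ((1 / 2 : ℝ) • (τ • u)) ξ ξ) (𝓝[<] 1)
      (𝓝 (Γ.A p a ((1 / 2 : ℝ) • u) ξ ξ)) :=
    (Γ.contA ha (Γ.smul_mem_Io ha hu (by norm_num) (by norm_num)) ξ ξ).tendsto.comp
      (hsm.const_smul (1 / 2 : ℝ))
  have h2 : Tendsto (fun τ : ℝ => Γ.Q p a (τ • u) k k) (𝓝[<] 1) (𝓝 (Γ.Q p a u k k)) := by
    have hc : ContinuousAt (fun u' => Γ.Q p a u' k k) u :=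
      ((Γ.Q_smooth ha hu).continuousAt.clm_apply continuousAt_const).clm_apply continuousAt_const
    exact hc.tendsto.comp hsm
  have h3 : Tendsto (fun τ : ℝ => 2 * Γ.A p a ((1 / 2 : ℝ) • (τ • u)) ξ ξ - 4 * T * Γ.G p a k ξ +
      T ^ 2 * Γ.Q p a (τ • u) k k) (𝓝[<] 1) (𝓝 (2 * Γ.A p a ((1 / 2 : ℝ) • u) ξ ξ -
        4 * T * Γ.G p a k ξ + T ^ 2 * Γ.Q p a u k k)) :=
    ((h1.const_mul 2).sub_const _).add (h2.const_mul _)
  refine ge_of_tendsto h3 ?_
  filter_upwards [hL, Ioo_mem_nhdsLT (show (0 : ℝ) < 1 by norm_num)] with τ hτ hτ'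
  have hI : τ • u ∈ Γ.Io p a := Γ.smul_mem_Io ha hu hτ'.1.le hτ'.2
  have h4 := Γ.A_le_D2_B ha hI ξ (T • k)
  rw [Γ.D2_B ha (Γ.Io_subset_Ib ha hI)] at h4
  simp only [map_smul, ContinuousLinearMap.smul_apply, smul_eq_mul] at h4
  nlinarith

theorem focal_A_rad (ha : a ∈ (chartAt E p).target) {u : E} (hu : u ∈ Γ.Ib p a) {τ : ℝ}
    (hτ : τ ∈ Ioo (0 : ℝ) 1) (ξ : E) : Γ.A p a (τ • u) u ξ = Γ.G p a u ξ := by
  have hI : τ • u ∈ Γ.Io p a := Γ.smul_mem_Io ha hu hτ.1.le hτ.2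
  have h := Γ.A_rad ha (Γ.Io_subset_Ib ha hI) (Γ.good_of_Io ha hI) ξ
  simp only [map_smul, ContinuousLinearMap.smul_apply, smul_eq_mul] at h
  exact mul_left_cancel₀ hτ.1.ne' h

theorem focal_low (ha : a ∈ (chartAt E p).target) {u : E} (hu : u ∈ Γ.Io p a) (ξ : E) :
    ∀ᶠ τ in 𝓝[<] (1 : ℝ), Γ.A p a u ξ ξ - 1 ≤ Γ.A p a (τ • u) ξ ξ := by
  have hsm : Tendsto (fun τ : ℝ => τ • u) (𝓝[<] 1) (𝓝 u) := by
    have : Tendsto (fun τ : ℝ => τ • u) (𝓝 1) (𝓝 ((1 : ℝ) • u)) :=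
      (continuous_id.smul continuous_const).tendsto 1
    rw [one_smul] at this
    exact this.mono_left nhdsWithin_le_nhds
  have h := (Γ.contA ha hu ξ ξ).tendsto.comp hsm
  exact h.eventually (eventually_ge_nhds (by linarith))

theorem focal (hM : Γ.MTW) (ha : a ∈ (chartAt E p).target) {P₀ η : E} {θ : ℝ} (hθ0 : 0 < θ)
    (hθ1 : θ < 1) (h0 : P₀ ∈ Γ.Io p a) (h1 : P₀ + η ∈ Γ.Io p a)
    (hseg : ∀ τ ∈ Ioo (0 : ℝ) 1, ∀ X ∈ Icc (0 : ℝ) 1, τ • (P₀ + X • η) ∈ Γ.Io p a)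
    {k : E} (hk : k ≠ 0) : 0 < Γ.Q p a (P₀ + θ • η) k k := by
  by_contra hQ
  push Not at hQ
  have hs := Γ.symm p a
  have hp := Γ.pos p a ha
  have hIoo : Ioo (0 : ℝ) 1 ∈ 𝓝[<] (1 : ℝ) := Ioo_mem_nhdsLT (by norm_num)
  have hIb : ∀ X ∈ Icc (0 : ℝ) 1, P₀ + X • η ∈ Γ.Ib p a := by
    intro X hX
    have hsm : Tendsto (fun τ : ℝ => τ • (P₀ + X • η)) (𝓝[<] 1) (𝓝 (P₀ + X • η)) := by
      have : Tendsto (fun τ : ℝ => τ • (P₀ + X • η)) (𝓝 1) (𝓝 ((1 : ℝ) • (P₀ + X • η))) :=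
        (continuous_id.smul continuous_const).tendsto 1
      rw [one_smul] at this
      exact this.mono_left nhdsWithin_le_nhds
    refine (Γ.isClosed_Ib ha).mem_of_tendsto hsm ?_
    filter_upwards [hIoo] with τ hτ
    exact Γ.Io_subset_Ib ha (hseg τ hτ X hX)
  set w := P₀ + θ • η with hw
  have hwI : w ∈ Γ.Ib p a := hIb θ ⟨hθ0.le, hθ1.le⟩
  have hconc : ∀ ξ, Γ.G p a ξ η = 0 → ∀ τ ∈ Ioo (0 : ℝ) 1,
      ConcaveOn ℝ (Icc 0 1) (fun X : ℝ => Γ.A p a (τ • (P₀ + X • η)) ξ ξ) := by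
    intro ξ hξ τ hτ
    have he : ∀ X : ℝ, τ • P₀ + X • (τ • η) = τ • (P₀ + X • η) := by
      intro X; rw [smul_add, smul_comm]
    have := Γ.concave_A hM ha (u := τ • P₀) (η := τ • η) (ξ := ξ) (X₀ := 0) (X₁ := 1)
      (fun X hX => by rw [he]; exact hseg τ hτ X hX) (by simp [hξ])
    simpa only [he] using this
  have hkill : ∀ ξ (L : ℝ), (∀ᶠ τ in 𝓝[<] (1 : ℝ), L ≤ Γ.A p a (τ • w) ξ ξ) →
      Γ.G p a k ξ = 0 := by
    intro ξ L hL
    have := focal_lin (c := -4 * Γ.G p a k ξ) (L := L - 2 * Γ.A p a ((1 / 2 : ℝ) • w) ξ ξ)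
      (fun T => by
        have h := Γ.focal_lim ha hwI ξ k hL T
        nlinarith [mul_nonpos_of_nonneg_of_nonpos (sq_nonneg T) hQ])
    linarith
  have hperp : ∀ ξ, Γ.G p a ξ η = 0 → Γ.G p a k ξ = 0 := by
    intro ξ hξ
    refine hkill ξ ((1 - θ) * (Γ.A p a P₀ ξ ξ - 1) + θ * (Γ.A p a (P₀ + η) ξ ξ - 1)) ?_
    filter_upwards [hIoo, Γ.focal_low ha h0 ξ, Γ.focal_low ha h1 ξ] with τ hτ hl0 hl1
    have h := (hconc ξ hξ τ hτ).2 (x := 0) (y := 1) (by simp) (by simp)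
      (show 0 ≤ 1 - θ by linarith) hθ0.le (by ring)
    simp only [smul_eq_mul, mul_zero, mul_one, zero_add, zero_smul, add_zero, one_smul] at h
    nlinarith
  have hη : η ≠ 0 := by
    rintro rfl
    exact (hp k hk).ne' (hperp k (by simp))
  have hηη := hp η hη
  set β := Γ.G p a k η / Γ.G p a η η with hβ
  have hkη : k = β • η := by
    by_contra hne
    have h1' : Γ.G p a (k - β • η) η = 0 := by
      simp only [map_sub, map_smul, ContinuousLinearMap.sub_apply, ContinuousLinearMap.smul_apply,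
        smul_eq_mul, hβ]
      field_simp
      ring
    have h2' := hperp _ h1'
    have h3' := hp (k - β • η) (sub_ne_zero.2 hne)
    have h4' : Γ.G p a (k - β • η) (k - β • η) =
        Γ.G p a k (k - β • η) - β * Γ.G p a (k - β • η) η := by
      rw [hs (k - β • η) η]
      simp only [map_sub, map_smul, ContinuousLinearMap.sub_apply, ContinuousLinearMap.smul_apply,
        smul_eq_mul]
      ring
    rw [h4', h1', h2'] at h3'
    simp at h3'
  have hβ0 : β ≠ 0 := by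
    intro h
    rw [h, zero_smul] at hkη
    exact hk hkη
  have hkw : Γ.G p a k w = 0 := by
    refine hkill w (Γ.G p a w w) ?_
    filter_upwards [hIoo] with τ hτ
    exact (Γ.focal_A_rad ha hwI hτ w).ge
  have hwη : Γ.G p a w η = 0 := by
    rw [hkη] at hkw
    simp only [map_smul, ContinuousLinearMap.smul_apply, smul_eq_mul] at hkw
    rw [hs]
    exact (mul_eq_zero.1 hkw).resolve_left hβ0
  set L' := (Γ.G p a w w - (Γ.A p a (P₀ + η) w w - 1)) / (1 - θ) with hL'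
  have hu : ∀ X : ℝ, P₀ + (θ + X) • η = w + X • η := by
    intro X; rw [hw, add_smul, add_assoc]
  have hmain : ∀ X ∈ Ioo (0 : ℝ) (1 - θ), ∀ s : ℝ, -L' ≤
      2 * X * Γ.A p a ((1 / 2 : ℝ) • (w + X • η)) η η - 4 * s * Γ.G p a k η +
        s ^ 2 * (Γ.Q p a (w + X • η) k k / X) := by
    intro X hX s
    have hX0 := hX.1
    have huI : w + X • η ∈ Γ.Ib p a := by
      rw [← hu]; exact hIb _ ⟨by linarith [hX.1], by linarith [hX.2]⟩
    have hlow : ∀ᶠ τ in 𝓝[<] (1 : ℝ), -L' / X ≤ Γ.A p a (τ • (w + X • η)) η η := by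
      filter_upwards [hIoo, Γ.focal_low ha h1 w] with τ hτ hl1
      have h1θ : 0 < 1 - θ := by linarith
      have hlam0 : 0 ≤ X / (1 - θ) := by positivity
      have hlam1 : 0 ≤ 1 - X / (1 - θ) := by
        rw [sub_nonneg, div_le_one h1θ]; exact hX.2.le
      have h := (hconc w hwη τ hτ).2 (x := θ) (y := 1) ⟨hθ0.le, hθ1.le⟩ (by simp)
        hlam1 hlam0 (by ring)
      have he : (1 - X / (1 - θ)) • θ + (X / (1 - θ)) • (1 : ℝ) = θ + X := by
        simp only [smul_eq_mul]; field_simp; ring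
      rw [he] at h
      simp only [smul_eq_mul, one_smul, hu] at h
      rw [← hw, Γ.focal_A_rad ha hwI hτ w] at h
      set u := w + X • η with hu'
      have hI : τ • u ∈ Γ.Io p a := Γ.smul_mem_Io ha huI hτ.1.le hτ.2
      have e1 := Γ.focal_A_rad ha huI hτ u
      have e2 := Γ.focal_A_rad ha huI hτ η
      have e3 := Γ.A_symm ha (Γ.good_of_Io ha hI) u η
      have hwu : w = u - X • η := by rw [hu']; abel
      have e4 : Γ.A p a (τ • u) w w = Γ.G p a u u - 2 * X * Γ.G p a u η +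
          X ^ 2 * Γ.A p a (τ • u) η η := by
        conv_lhs => rw [hwu]
        simp only [map_sub, map_smul, ContinuousLinearMap.sub_apply,
          ContinuousLinearMap.smul_apply, smul_eq_mul]
        rw [← e3, e1, e2]; ring
      have e5 : Γ.G p a u u = Γ.G p a w w + X ^ 2 * Γ.G p a η η := by
        simp only [hu', map_add, map_smul, ContinuousLinearMap.add_apply,
          ContinuousLinearMap.smul_apply, smul_eq_mul]
        rw [hs η w, hwη]; ring
      have e6 : Γ.G p a u η = X * Γ.G p a η η := by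
        simp only [hu', map_add, map_smul, ContinuousLinearMap.add_apply,
          ContinuousLinearMap.smul_apply, smul_eq_mul]
        rw [hwη]; ring
      rw [e4, e5, e6] at h
      have h7 : -(X * L') ≤ X ^ 2 * Γ.A p a (τ • u) η η := by
        have : X * L' = X / (1 - θ) * (Γ.G p a w w - (Γ.A p a (P₀ + η) w w - 1)) := by
          rw [hL']; field_simp
        rw [this]
        nlinarith [mul_le_mul_of_nonneg_left hl1 hlam0, mul_pos (pow_pos hX0 2) hηη]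
      rw [div_le_iff₀ hX0]
      nlinarith
    have h := Γ.focal_lim ha huI η k hlow (s / X)
    have h' := mul_le_mul_of_nonneg_left h hX0.le
    have e1 : X * (-L' / X) = -L' := by field_simp
    have e2 : X * (2 * Γ.A p a ((1 / 2 : ℝ) • (w + X • η)) η η - 4 * (s / X) * Γ.G p a k η +
        (s / X) ^ 2 * Γ.Q p a (w + X • η) k k) =
        2 * X * Γ.A p a ((1 / 2 : ℝ) • (w + X • η)) η η - 4 * s * Γ.G p a k η +
        s ^ 2 * (Γ.Q p a (w + X • η) k k / X) := by field_simp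
    rwa [e1, e2] at h'
  have hline : Tendsto (fun X : ℝ => w + X • η) (𝓝 0) (𝓝 w) := by
    have : Tendsto (fun X : ℝ => w + X • η) (𝓝 0) (𝓝 (w + (0 : ℝ) • η)) :=
      (continuous_const.add (continuous_id.smul continuous_const)).tendsto 0
    simpa using this
  have hq0 : Γ.Q p a w k k = 0 := le_antisymm hQ (Γ.Q_nonneg ha hwI k)
  have hqd : DifferentiableAt ℝ (fun X : ℝ => Γ.Q p a (w + X • η) k k) 0 := by
    have h1' : DifferentiableAt ℝ (Γ.Q p a) (w + (0 : ℝ) • η) := by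
      simpa using (Γ.Q_smooth ha hwI).differentiableAt (by simp)
    have h2' : DifferentiableAt ℝ (fun X : ℝ => Γ.Q p a (w + X • η)) 0 :=
      DifferentiableAt.comp (𝕜 := ℝ) (0 : ℝ) (g := Γ.Q p a) (f := fun X : ℝ => w + X • η) h1'
        (by fun_prop)
    exact (h2'.clm_apply (differentiableAt_const _)).clm_apply (differentiableAt_const _)
  have hqmin : IsLocalMin (fun X : ℝ => Γ.Q p a (w + X • η) k k) 0 := by
    filter_upwards [Ioo_mem_nhds (show -θ < 0 by linarith) (show (0 : ℝ) < 1 - θ by linarith)]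
      with X hX
    simp only [zero_smul, add_zero, hq0]
    refine Γ.Q_nonneg ha ?_ k
    rw [← hu]; exact hIb _ ⟨by linarith [hX.1], by linarith [hX.2]⟩
  have hq : Tendsto (fun X : ℝ => Γ.Q p a (w + X • η) k k / X) (𝓝[>] 0) (𝓝 0) := by
    have h1' := hqd.hasDerivAt
    rw [hqmin.deriv_eq_zero] at h1'
    have h2' := h1'.tendsto_slope_zero_right
    refine h2'.congr fun X => ?_
    simp only [zero_add, zero_smul, add_zero, hq0, sub_zero, smul_eq_mul]
    ring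
  have hA : Tendsto (fun X : ℝ => 2 * X * Γ.A p a ((1 / 2 : ℝ) • (w + X • η)) η η) (𝓝[>] 0)
      (𝓝 0) := by
    have h1' : Tendsto (fun X : ℝ => Γ.A p a ((1 / 2 : ℝ) • (w + X • η)) η η) (𝓝 0)
        (𝓝 (Γ.A p a ((1 / 2 : ℝ) • w) η η)) :=
      (Γ.contA ha (Γ.smul_mem_Io ha hwI (by norm_num) (by norm_num)) η η).tendsto.comp
        (hline.const_smul (1 / 2 : ℝ))
    have h2' : Tendsto (fun X : ℝ => 2 * X) (𝓝 0) (𝓝 (2 * 0)) := tendsto_id.const_mul 2
    have h3' := h2'.mul h1'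
    simp only [mul_zero, zero_mul] at h3'
    exact h3'.mono_left nhdsWithin_le_nhds
  have hfin : ∀ s : ℝ, -L' ≤ s * (-4 * Γ.G p a k η) := by
    intro s
    have h1' := (hA.sub_const (4 * s * Γ.G p a k η)).add (hq.const_mul (s ^ 2))
    have h2' := ge_of_tendsto h1' (by
      filter_upwards [Ioo_mem_nhdsGT (show (0 : ℝ) < 1 - θ by linarith)] with X hX
      exact hmain X hX s)
    linarith
  have h9 := focal_lin hfin
  rw [hkη] at h9
  simp only [map_smul, ContinuousLinearMap.smul_apply, smul_eq_mul] at h9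
  exact (mul_ne_zero hβ0 hηη.ne') (by linarith)

end Geo

end Vale.Agent.P234
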