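import Vale.Agent.P234.Int

/-! P234 GapA: second derivatives of the cost. -/

open Set Manifold Filter Metric
open scoped ContDiff Topology

namespace Vale.Agent.P234

variable {E : Type*} [NormedAddCommGroup E] [NormedSpace ℝ E] [FiniteDimensional ℝ E]
  {M : Type*} [MetricSpace M] [ChartedSpace E M] [IsManifold 𝓘(ℝ, E) ∞ M] [CompactSpace M]

theorem gapA_two_le : (2 : WithTop ℕ∞) ≤ ∞ := by
  have : ((2 : ℕ∞) : WithTop ℕ∞) ≤ ((⊤ : ℕ∞) : WithTop ℕ∞) := WithTop.coe_le_coe.2 le_top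
  exact this

theorem gapA_D2_half_quad {X : Type*} [NormedAddCommGroup X] [NormedSpace ℝ X]
    (g : X →L[ℝ] X →L[ℝ] ℝ) (hs : ∀ v w, g v w = g w v) (u k : X) :
    D2 (fun μ => g (u + μ) (u + μ) / 2) 0 k k = g k k := by
  have hq : ContDiff ℝ 2 (fun z : X => g z z) :=
    (g.contDiff.comp contDiff_id).clm_apply contDiff_id
  have h1 : (fun μ => g (u + μ) (u + μ) / 2) =
      fun μ => (1 / 2 : ℝ) * (fun z : X => g z z) (u + ContinuousLinearMap.id ℝ X μ) := by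
    funext μ; simp only [ContinuousLinearMap.id_apply]; ring
  rw [h1, D2_const_mul (f := fun μ => (fun z : X => g z z) (u + ContinuousLinearMap.id ℝ X μ))
    ((hq.comp (contDiff_const.add (ContinuousLinearMap.id ℝ X).contDiff)).contDiffAt),
    D2_comp_affine (f := fun z : X => g z z) _ _ hq.contDiffAt, D2_quad g hs]
  simp

namespace Geo

variable (Γ : Geo E M) {p : M} {a : E}

theorem A_symm (ha : a ∈ (chartAt E p).target) {u : E}
    (hg : GoodPair E ((chartAt E p).symm a) (Γ.Ex p a u)) (ξ η : E) :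
    Γ.A p a u ξ η = Γ.A p a u η ξ :=
  D2_symm ((Γ.C_smooth_pt ha hg).self_of_nhds.of_le gapA_two_le) ξ η

theorem A_smooth (ha : a ∈ (chartAt E p).target) {u : E}
    (hg : GoodPair E ((chartAt E p).symm a) (Γ.Ex p a u)) :
    ∀ᶠ q in 𝓝 (a, u), ContDiffAt ℝ ∞ (fun q : E × E => Γ.A p q.1 q.2) q :=
  contDiffAt_D2_param (F := fun q : (E × E) × E => Γ.C p q.1.1 q.1.2 q.2) (Γ.C_smooth ha hg)

theorem A_smooth_fix (ha : a ∈ (chartAt E p).target) {u : E}
    (hg : GoodPair E ((chartAt E p).symm a) (Γ.Ex p a u)) :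
    ∀ᶠ u' in 𝓝 u, ContDiffAt ℝ ∞ (Γ.A p a) u' :=
  contDiffAt_D2_param (F := fun q : E × E => Γ.C p a q.1 q.2) (Γ.C_smooth_fix ha hg)

theorem gapA_smooth (ha : a ∈ (chartAt E p).target) {u : E}
    (hg : GoodPair E ((chartAt E p).symm a) (Γ.Ex p a u)) :
    ContDiffAt ℝ 2 (fun q : E × E => Γ.C p a (u + q.1) q.2) 0 := by
  have h : ContDiffAt ℝ 2 (fun q : E × E => Γ.C p a q.1 q.2) (u, (0 : E)) :=
    (Γ.C_smooth_fix ha hg).self_of_nhds.of_le gapA_two_le
  have h2 : ContDiffAt ℝ 2 (fun q : E × E => (u + q.1, q.2)) 0 := by fun_prop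
  have h3 : ContDiffAt ℝ 2 (fun q : E × E => Γ.C p a q.1 q.2)
      ((fun q : E × E => (u + q.1, q.2)) 0) := by simpa using h
  exact ContDiffAt.comp (g := fun q : E × E => Γ.C p a q.1 q.2)
    (f := fun q : E × E => (u + q.1, q.2)) 0 h3 h2

theorem D2_C (ha : a ∈ (chartAt E p).target) {u : E} (hu : u ∈ Γ.Ib p a)
    (hg : GoodPair E ((chartAt E p).symm a) (Γ.Ex p a u)) (k ξ : E) :
    D2 (fun q : E × E => Γ.C p a (u + q.1) q.2) 0 (k, ξ) (k, ξ) =
      Γ.G p a k k - 2 * Γ.G p a k ξ + Γ.A p a u ξ ξ := by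
  rw [D2_prod (Γ.gapA_smooth ha hg)]
  have hI := Γ.eventually_Ib_fix ha hu hg
  have hG : ∀ᶠ u' in 𝓝 u, GoodPair E ((chartAt E p).symm a) (Γ.Ex p a u') := by
    have : Tendsto (fun u' => ((chartAt E p).symm a, Γ.Ex p a u')) (𝓝 u)
        (𝓝 ((chartAt E p).symm a, Γ.Ex p a u)) :=
      (continuous_const.prodMk (Γ.continuous_ex ha)).tendsto u
    exact this.eventually hg.eventually
  have t1 : Tendsto (fun μ : E => u + μ) (𝓝 0) (𝓝 u) :=
    (continuous_const.add continuous_id).tendsto' 0 u (by simp)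
  have t2 : Tendsto (fun t : ℝ => u + t • k) (𝓝 0) (𝓝 u) :=
    (continuous_const.add (continuous_id.smul continuous_const)).tendsto' 0 u (by simp)
  have e1 : D2 (fun μ : E => Γ.C p a (u + μ) 0) 0 k k = Γ.G p a k k := by
    rw [← gapA_D2_half_quad (Γ.G p a) (Γ.symm p a) u k]
    congr 2
    apply D2_congr
    filter_upwards [t1.eventually hI] with μ hμ
    exact Γ.C_zero ha hμ
  have e2 : deriv (fun t : ℝ => fderiv ℝ (fun ζ => Γ.C p a (u + t • k) ζ) 0 ξ) 0 =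
      -Γ.G p a k ξ := by
    have : (fun t : ℝ => fderiv ℝ (fun ζ => Γ.C p a (u + t • k) ζ) 0 ξ) =ᶠ[𝓝 0]
        fun t => -Γ.G p a u ξ - t * Γ.G p a k ξ := by
      filter_upwards [t2.eventually hI, t2.eventually hG] with t h1 h2
      rw [(Γ.hasFDerivAt_C ha h1 h2).fderiv]
      simp only [map_add, map_smul, ContinuousLinearMap.neg_apply, ContinuousLinearMap.add_apply,
        ContinuousLinearMap.smul_apply, smul_eq_mul]
      ring
    rw [this.deriv_eq]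
    have h := ((hasDerivAt_id (0 : ℝ)).mul_const (Γ.G p a k ξ)).const_sub (-Γ.G p a u ξ)
    simpa using h.deriv
  have e3 : D2 (fun ζ : E => Γ.C p a (u + 0) ζ) 0 ξ ξ = Γ.A p a u ξ ξ := by
    rw [add_zero]; rfl
  simp only at e1 e2 e3 ⊢
  rw [e1, e2, e3]; ring

theorem gapA_rad (ha : a ∈ (chartAt E p).target) {u : E} (hu : u ∈ Γ.Ib p a) (hu0 : u ≠ 0)
    {t : ℝ} (ht0 : 0 < t) (ht1 : t < 1) (hd : DifferentiableAt ℝ (Γ.C p a u) (t • u)) (ξ : E) :
    fderiv ℝ (Γ.C p a u) (t • u) ξ = -(1 - t) * Γ.G p a u ξ := by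
  set g := Γ.G p a with hgdef
  have hpos : 0 < g u u := Γ.pos p a ha u hu0
  set L := √(g u u) with hL
  have hL0 : 0 < L := Real.sqrt_pos.2 hpos
  have hLL : L ^ 2 = g u u := Real.sq_sqrt hpos.le
  have hz : dist ((chartAt E p).symm a) (Γ.Ex p a u) = L := hu
  -- the lower barrier along the line
  let N : ℝ → ℝ := fun r => t ^ 2 * L ^ 2 + 2 * t * g u ξ * r + g ξ ξ * r ^ 2
  have hN : ∀ r, g (t • u + r • ξ) (t • u + r • ξ) = N r := fun r => by
    simp only [N, map_add, map_smul, ContinuousLinearMap.add_apply,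
      ContinuousLinearMap.smul_apply, smul_eq_mul, hLL, hgdef, Γ.symm p a ξ u]
    ring
  let H : ℝ → ℝ := fun r => Γ.C p a u (t • u + r • ξ) + (1 - t) / (2 * t) * N r
  have hlow : ∀ r, (1 - t) * L ^ 2 * (1 - t / 2) - (1 - t) ^ 2 * L ^ 2 / 2 ≤ H r := fun r => by
    have h1 := Γ.dist_le ha (t • u + r • ξ)
    have h2 := dist_triangle ((chartAt E p).symm a) (Γ.Ex p a (t • u + r • ξ)) (Γ.Ex p a u)
    have hN0 : 0 ≤ N r := hN r ▸ bil_nonneg g (Γ.pos p a ha) _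
    rw [← hgdef, hN] at h1
    set s := √(N r) with hs
    have hss : s ^ 2 = N r := Real.sq_sqrt hN0
    set d := dist (Γ.Ex p a (t • u + r • ξ)) (Γ.Ex p a u) with hdd
    have hH : H r = d ^ 2 / 2 + (1 - t) / (2 * t) * s ^ 2 := by
      simp only [H, C, hss, hdd]
    rw [hH]
    have h3 : L - s ≤ d := by linarith
    have h4 : (1 - t) * L * d - (1 - t) ^ 2 * L ^ 2 / 2 ≤ d ^ 2 / 2 := by
      nlinarith [sq_nonneg (d - (1 - t) * L)]
    have h5 : (1 - t) * L * (L - s) ≤ (1 - t) * L * d :=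
      mul_le_mul_of_nonneg_left h3 (by have : 0 < 1 - t := by linarith
                                       positivity)
    have h6 : (1 - t) * L * s - (1 - t) * t * L ^ 2 / 2 ≤ (1 - t) / (2 * t) * s ^ 2 := by
      have e : (1 - t) / (2 * t) * s ^ 2 - ((1 - t) * L * s - (1 - t) * t * L ^ 2 / 2) =
          (1 - t) / (2 * t) * (s - t * L) ^ 2 := by field_simp; ring
      have : 0 ≤ (1 - t) / (2 * t) * (s - t * L) ^ 2 := by
        have : 0 < 1 - t := by linarith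
        positivity
      linarith
    nlinarith
  have h0 : H 0 = (1 - t) * L ^ 2 * (1 - t / 2) - (1 - t) ^ 2 * L ^ 2 / 2 := by
    have := Γ.seg ha hu ht0.le ht1.le le_rfl
    rw [one_smul] at this
    simp only [H, N, C, zero_smul, add_zero, this, ← hgdef, ← hL]
    field_simp
    ring
  have hmin : IsLocalMin H 0 := Eventually.of_forall fun r => h0 ▸ hlow r
  have d1 : HasDerivAt (fun r : ℝ => Γ.C p a u (t • u + r • ξ))
      (fderiv ℝ (Γ.C p a u) (t • u) ξ) 0 := hd.hasFDerivAt.hasLineDerivAt ξ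
  have d2 : HasDerivAt N (2 * t * g u ξ) 0 := by
    have := (((hasDerivAt_id (0 : ℝ)).const_mul (2 * t * g u ξ)).const_add (t ^ 2 * L ^ 2)).add
      ((hasDerivAt_pow 2 (0 : ℝ)).const_mul (g ξ ξ))
    exact HasDerivAt.congr_deriv this (by simp)
  have d3 := hmin.hasDerivAt_eq_zero (d1.add (d2.const_mul ((1 - t) / (2 * t))))
  have e : (1 - t) / (2 * t) * (2 * t * g u ξ) = (1 - t) * g u ξ := by field_simp
  linarith

theorem A_rad (ha : a ∈ (chartAt E p).target) {u : E} (hu : u ∈ Γ.Ib p a)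
    (hg : GoodPair E ((chartAt E p).symm a) (Γ.Ex p a u)) (ξ : E) :
    Γ.A p a u u ξ = Γ.G p a u ξ := by
  rcases eq_or_ne u 0 with rfl | hu0
  · simp
  have hs := Γ.C_smooth_pt ha hg
  have h1 := hasDerivAt_fderiv_line (hs.self_of_nhds.of_le gapA_two_le) u ξ
  have t1 : Tendsto (fun t : ℝ => t • u) (𝓝 0) (𝓝 0) :=
    (continuous_id.smul continuous_const).tendsto' 0 0 (by simp)
  have h2 : (fun t : ℝ => fderiv ℝ (Γ.C p a u) (0 + t • u) ξ) =ᶠ[𝓝[Ici 0] 0]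
      fun t => -(1 - t) * Γ.G p a u ξ := by
    have h3 : ∀ᶠ t in 𝓝 (0 : ℝ), t < 1 := Iio_mem_nhds (by norm_num)
    filter_upwards [nhdsWithin_le_nhds (t1.eventually hs), nhdsWithin_le_nhds h3,
      self_mem_nhdsWithin] with t h4 h5 h6
    rw [zero_add]
    rcases (mem_Ici.1 h6).eq_or_lt with rfl | h7
    · rw [zero_smul, (Γ.hasFDerivAt_C ha hu hg).fderiv]; simp
    · exact Γ.gapA_rad ha hu hu0 h7 h5 (h4.differentiableAt (by simp)) ξ
  have h4 : HasDerivWithinAt (fun t : ℝ => -(1 - t) * Γ.G p a u ξ) (Γ.G p a u ξ) (Ici 0) 0 := by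
    have := (((hasDerivAt_id (0 : ℝ)).const_sub 1).neg.mul_const (Γ.G p a u ξ))
    simpa using this.hasDerivWithinAt
  have h5 := h4.congr_of_eventuallyEq h2 (h2.self_of_nhdsWithin self_mem_Ici)
  exact (uniqueDiffWithinAt_Ici 0).eq_deriv _ h1.hasDerivWithinAt h5

theorem A_zero (ha : a ∈ (chartAt E p).target) (ξ : E) : Γ.A p a 0 ξ ξ = Γ.G p a ξ ξ := by
  have e0 := Γ.ex0 p a ha
  have h0 : (0 : E) ∈ Γ.Ib p a := Γ.Io_subset_Ib ha (Γ.zero_mem_Io ha)
  have hI := Γ.eventually_Ib_fix ha h0 (by rw [e0]; exact Γ.good_self _)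
  rw [← gapA_D2_half_quad (Γ.G p a) (Γ.symm p a) 0 ξ, A]
  congr 2
  apply D2_congr
  filter_upwards [hI] with ζ hζ
  have : dist _ _ = _ := hζ
  rw [C, e0, dist_comm, this, zero_add, Real.sq_sqrt (bil_nonneg _ (Γ.pos p a ha) ζ)]

theorem gap_core (ha : a ∈ (chartAt E p).target) {u : E} (hu : u ∈ Γ.Ib p a)
    (hg : GoodPair E ((chartAt E p).symm a) (Γ.Ex p a u)) {f h : E → ℝ}
    (hf : ContDiffAt ℝ 2 f 0) (hh : ContDiffAt ℝ 2 h 0)
    (hmin : IsLocalMin (fun q : E × E => f q.2 + Γ.C p a (u + q.1) q.2 + h q.1) 0)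
    {ξ : E} (hξ : ξ ≠ 0) : 0 < D2 f 0 ξ ξ + Γ.A p a u ξ ξ := by
  have s1 : ContDiffAt ℝ 2 (fun q : E × E => f q.2) 0 :=
    ContDiffAt.comp (g := f) (f := Prod.snd) 0 hf contDiffAt_snd
  have s2 := Γ.gapA_smooth ha hg
  have s3 : ContDiffAt ℝ 2 (fun q : E × E => h q.1) 0 :=
    ContDiffAt.comp (g := h) (f := Prod.fst) 0 hh contDiffAt_fst
  have e1 : ∀ k : E, D2 (fun q : E × E => f q.2) 0 (k, ξ) (k, ξ) = D2 f 0 ξ ξ := fun k => by
    have := D2_comp_affine (f := f) (ContinuousLinearMap.snd ℝ E E) 0 (y := 0)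
      (by simpa using hf) (k, ξ) (k, ξ)
    simpa using this
  have e3 : ∀ k : E, D2 (fun q : E × E => h q.1) 0 (k, ξ) (k, ξ) = D2 h 0 k k := fun k => by
    have := D2_comp_affine (f := h) (ContinuousLinearMap.fst ℝ E E) 0 (y := 0)
      (by simpa using hh) (k, ξ) (k, ξ)
    simpa using this
  have key : ∀ ε : ℝ, 0 ≤ D2 f 0 ξ ξ + Γ.A p a u ξ ξ - 2 * ε * Γ.G p a ξ ξ +
      ε ^ 2 * (Γ.G p a ξ ξ + D2 h 0 ξ ξ) := fun ε => by
    have := D2_nonneg_of_isLocalMin ((s1.add s2).add s3) hmin (ε • ξ, ξ)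
    rw [D2_add (s1.add s2) s3, D2_add s1 s2, e1, e3, Γ.D2_C ha hu hg] at this
    simp only [map_smul, ContinuousLinearMap.smul_apply, smul_eq_mul] at this
    linarith
  have hp := Γ.pos p a ha ξ hξ
  set S := D2 f 0 ξ ξ + Γ.A p a u ξ ξ
  set N := Γ.G p a ξ ξ
  set K := N + D2 h 0 ξ ξ
  have hK : K ≤ |K| := le_abs_self K
  have hK0 : 0 ≤ |K| := abs_nonneg K
  have h1 := key (N / (|K| + 1))
  set ε := N / (|K| + 1) with hε
  have hε0 : 0 < ε := by positivity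
  have h2 : ε * (|K| + 1) = N := by rw [hε]; field_simp
  have h3 : ε ^ 2 * K ≤ ε * N := by rw [← h2]; nlinarith [sq_nonneg ε]
  nlinarith [mul_pos hε0 hp]

end Geo

end Vale.Agent.P234
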