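import Vale.Agent.P234.Defs

/-! P234 Gauss: conservation of energy and the Gauss lemma. -/

set_option maxSynthPendingDepth 3

open Set Manifold Filter Metric
open scoped ContDiff Topology

namespace Vale.Agent.P234

variable {E : Type*} [NormedAddCommGroup E] [NormedSpace ℝ E] [FiniteDimensional ℝ E]

omit [FiniteDimensional ℝ E] in
/-- derivatives along a curve `s ↦ (a, c s)` -/
theorem Spray.gauss_der {G : E → E →L[ℝ] E →L[ℝ] ℝ} {T : Set E} {a₀ : E} (S : Spray G T a₀)
    (hT : IsOpen T) (hG : ContDiffOn ℝ ∞ G T) {a : E} (ha : a ∈ ball a₀ S.r) {c b : ℝ → E}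
    {c' b' : E} {t : ℝ} (hc : HasDerivAt c c' t) (hb : HasDerivAt b b' t)
    (ht : c t ∈ ball (0 : E) S.r) :
    HasDerivAt (fun s => G (S.X (a, c s)))
      (fderiv ℝ G (S.X (a, c t)) (fderiv ℝ S.X (a, c t) (0, c'))) t ∧
    HasDerivAt (fun s => fderiv ℝ S.X (a, c s) (0, b s))
      (fderiv ℝ (fderiv ℝ S.X) (a, c t) (0, c') (0, b t) + fderiv ℝ S.X (a, c t) (0, b')) t := by
  have h1 := S.smX.contDiffAt ((isOpen_ball.prod isOpen_ball).mem_nhds (mk_mem_prod ha ht))
  have h2 := (hasDerivAt_const t a).prodMk hc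
  have h3 := HasFDerivAt.comp_hasDerivAt (l := S.X) (f := fun s => (a, c s)) t
    (h1.differentiableAt (by simp)).hasFDerivAt h2
  have h4 := HasFDerivAt.comp_hasDerivAt (l := fderiv ℝ S.X) (f := fun s => (a, c s)) t
    ((h1.fderiv_right (m := ∞) (by simp)).differentiableAt (by simp)).hasFDerivAt h2
  exact ⟨HasFDerivAt.comp_hasDerivAt (l := G) (f := fun s => S.X (a, c s)) t
    ((hG.contDiffAt (hT.mem_nhds (S.maps a ha _ ht))).differentiableAt (by simp)).hasFDerivAt h3,
    h4.clm_apply ((hasDerivAt_const t (0 : E)).prodMk hb)⟩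

theorem Spray.energy {G : E → E →L[ℝ] E →L[ℝ] ℝ} {T : Set E} {a₀ : E} (S : Spray G T a₀)
    (hT : IsOpen T) (hG : ContDiffOn ℝ ∞ G T) (hs : ∀ a v w, G a v w = G a w v)
    {a : E} (ha : a ∈ ball a₀ S.r) (v : E) (t : ℝ) (ht : t • v ∈ ball (0 : E) S.r) :
    G (S.X (a, t • v)) (fderiv ℝ S.X (a, t • v) (0, v)) (fderiv ℝ S.X (a, t • v) (0, v)) =
      G a v v := by
  have key : ∀ s : ℝ, s • v ∈ ball (0 : E) S.r → HasDerivAt (fun s : ℝ => G (S.X (a, s • v))
      (fderiv ℝ S.X (a, s • v) (0, v)) (fderiv ℝ S.X (a, s • v) (0, v))) 0 s := fun s h => by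
    obtain ⟨d1, d2⟩ := S.gauss_der hT hG ha ((hasDerivAt_id' s).smul_const v)
      (hasDerivAt_const s v) h
    have e := ((d1.clm_apply d2).clm_apply (hasDerivAt_const s (fderiv ℝ S.X (a, s • v) (0, v)))).unique
      (S.el a ha v s h _)
    refine ((d1.clm_apply d2).clm_apply d2).congr_deriv ?_
    simp only [one_smul, ContinuousLinearMap.add_apply, map_zero, add_zero, Prod.mk_zero_zero] at e ⊢
    rw [hs _ (fderiv ℝ S.X (a, s • v) (0, v))]
    linarith
  have hc : Convex ℝ {s : ℝ | s • v ∈ ball (0 : E) S.r} :=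
    (convex_ball (0 : E) S.r).linear_preimage (LinearMap.toSpanSingleton ℝ E v)
  have ho : IsOpen {s : ℝ | s • v ∈ ball (0 : E) S.r} := isOpen_ball.preimage (by fun_prop)
  have := ho.is_const_of_deriv_eq_zero hc.isPreconnected
    (fun s h => (key s h).differentiableAt.differentiableWithinAt) (fun s h => (key s h).deriv) ht
    (show (0 : ℝ) • v ∈ ball (0 : E) S.r by rw [zero_smul]; exact mem_ball_self S.r_pos)
  rw [this, zero_smul, S.X0 a ha, S.dX0 a ha]

theorem Spray.gauss {G : E → E →L[ℝ] E →L[ℝ] ℝ} {T : Set E} {a₀ : E} (S : Spray G T a₀)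
    (hT : IsOpen T) (hG : ContDiffOn ℝ ∞ G T) (hs : ∀ a v w, G a v w = G a w v)
    {a : E} (ha : a ∈ ball a₀ S.r) {v : E} (hv : v ∈ ball (0 : E) S.r) (w : E) :
    G (S.X (a, v)) (fderiv ℝ S.X (a, v) (0, v)) (fderiv ℝ S.X (a, v) (0, w)) = G a v w := by
  have key : ∀ s : ℝ, s • v ∈ ball (0 : E) S.r → HasDerivAt (fun s : ℝ => G (S.X (a, s • v))
      (fderiv ℝ S.X (a, s • v) (0, v)) (fderiv ℝ S.X (a, s • v) (0, s • w)) - s * G a v w) 0 s :=
    fun s h => by
    obtain ⟨d1, d2⟩ := S.gauss_der hT hG ha ((hasDerivAt_id' s).smul_const v)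
      (hasDerivAt_const s v) h
    obtain ⟨-, d3⟩ := S.gauss_der hT hG ha ((hasDerivAt_id' s).smul_const v)
      ((hasDerivAt_id' s).smul_const w) h
    have e := ((d1.clm_apply d2).clm_apply
      (hasDerivAt_const s (fderiv ℝ S.X (a, s • v) (0, s • w)))).unique (S.el a ha v s h _)
    have l : HasDerivAt (fun l : ℝ => v + l • w) w 0 := by
      simpa using ((hasDerivAt_id' (0 : ℝ)).smul_const w).const_add v
    obtain ⟨f1, f2⟩ := S.gauss_der hT hG ha (l.const_smul s) l (by simpa using h)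
    have f3 := ((f1.clm_apply f2).clm_apply f2).unique
      ((((hasDerivAt_const (0 : ℝ) (G a)).clm_apply l).clm_apply l).congr_of_eventuallyEq (by
        filter_upwards [(l.const_smul s).continuousAt.eventually
          (isOpen_ball.mem_nhds (show s • (v + (0 : ℝ) • w) ∈ ball (0 : E) S.r by simpa using h))]
          with l hl
        exact S.energy hT hG hs ha _ s hl))
    have sy := ((S.smX.contDiffAt ((isOpen_ball.prod isOpen_ball).mem_nhds
      (mk_mem_prod ha h))).isSymmSndFDerivAt (by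
        rw [minSmoothness_of_isRCLikeNormedField]
        exact WithTop.coe_le_coe.2 (le_top : (2 : ℕ∞) ≤ ⊤))).eq (0, v) (0, s • w)
    refine (((d1.clm_apply d2).clm_apply d3).sub
      ((hasDerivAt_id' s).mul_const (G a v w))).congr_deriv ?_
    simp only [one_smul, ContinuousLinearMap.add_apply, map_zero, add_zero, Prod.mk_zero_zero,
      zero_smul, Pi.smul_apply, ContinuousLinearMap.zero_apply, zero_add] at e f3 ⊢
    rw [hs _ (_ + _), hs a w, ← sy] at f3
    linarith
  have hc : Convex ℝ {s : ℝ | s • v ∈ ball (0 : E) S.r} :=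
    (convex_ball (0 : E) S.r).linear_preimage (LinearMap.toSpanSingleton ℝ E v)
  have ho : IsOpen {s : ℝ | s • v ∈ ball (0 : E) S.r} := isOpen_ball.preimage (by fun_prop)
  have := ho.is_const_of_deriv_eq_zero hc.isPreconnected
    (fun s h => (key s h).differentiableAt.differentiableWithinAt) (fun s h => (key s h).deriv)
    (show (1 : ℝ) • v ∈ ball (0 : E) S.r by rw [one_smul]; exact hv)
    (show (0 : ℝ) • v ∈ ball (0 : E) S.r by rw [zero_smul]; exact mem_ball_self S.r_pos)
  simp only [one_smul, zero_smul, Prod.mk_zero_zero, map_zero] at this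
  linarith

end Vale.Agent.P234
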