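import Vale.Agent.P234.Tch

/-! P234 Loc2: no corners, local structure of metric geodesics. -/

open Set Manifold Filter Metric
open scoped ContDiff Topology

namespace Vale.Agent.P234

variable {E : Type*} [NormedAddCommGroup E] [NormedSpace ℝ E] [FiniteDimensional ℝ E]
  {M : Type*} [MetricSpace M] [ChartedSpace E M] [IsManifold 𝓘(ℝ, E) ∞ M] [CompactSpace M]

variable {R : RM E M} {p : M}

set_option linter.unusedSectionVars false

theorem Loc.r_pos (L : Loc R p) : 0 < L.r := L.r'_pos.trans_le L.r'_le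

theorem Loc.sub (L : Loc R p) {a : E} (ha : a ∈ ball (chartAt E p p) L.r') :
    a ∈ ball (chartAt E p p) L.r := ball_subset_ball L.r'_le ha

theorem Loc.gpos (L : Loc R p) {a : E} (ha : a ∈ ball (chartAt E p p) L.r') :
    ∀ v, v ≠ 0 → 0 < R.G p a v v := R.pos p a (L.ball_sub (L.sub ha))

theorem Loc.dist_Lg (L : Loc R p) {a b : E} (ha : a ∈ ball (chartAt E p p) L.r')
    (hb : b ∈ ball (chartAt E p p) L.r') :
    dist ((chartAt E p).symm a) ((chartAt E p).symm b) =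
      √(R.G p a (L.Lg (a, b)) (L.Lg (a, b))) := by
  rw [← L.rad a (L.sub ha) _ (L.Lg_mem a ha b hb), L.XLg a ha b hb]

theorem Loc.dist_sq (L : Loc R p) {a b : E} (ha : a ∈ ball (chartAt E p p) L.r')
    (hb : b ∈ ball (chartAt E p p) L.r') :
    dist ((chartAt E p).symm a) ((chartAt E p).symm b) ^ 2 =
      R.G p a (L.Lg (a, b)) (L.Lg (a, b)) := by
  rw [L.dist_Lg ha hb, Real.sq_sqrt (bil_nonneg _ (L.gpos ha) _)]

theorem Loc.smX_at (L : Loc R p) {a v : E} (ha : a ∈ ball (chartAt E p p) L.r)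
    (hv : v ∈ ball (0 : E) L.r) : ContDiffAt ℝ ∞ L.X (a, v) :=
  L.smX.contDiffAt ((isOpen_ball.prod isOpen_ball).mem_nhds ⟨ha, hv⟩)

theorem Loc.smLg_at (L : Loc R p) {a b : E} (ha : a ∈ ball (chartAt E p p) L.r')
    (hb : b ∈ ball (chartAt E p p) L.r') : ContDiffAt ℝ ∞ L.Lg (a, b) :=
  L.smLg.contDiffAt ((isOpen_ball.prod isOpen_ball).mem_nhds ⟨ha, hb⟩)

theorem Loc.Lg_self (L : Loc R p) {a : E} (ha : a ∈ ball (chartAt E p p) L.r') :
    L.Lg (a, a) = 0 :=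
  L.inj a (L.sub ha) (L.Lg_mem a ha a ha) (mem_ball_self L.r_pos)
    ((L.XLg a ha a ha).trans (L.X0 a (L.sub ha)).symm)

theorem Loc.touch' (L : Loc R p) {a α : E} (ha : a ∈ ball (chartAt E p p) L.r')
    (hα : α ∈ ball (0 : E) L.r) (hα' : L.X (a, α) ∈ ball (chartAt E p p) L.r') :
    HasFDerivAt (fun ζ => dist ((chartAt E p).symm (L.X (a, ζ)))
      ((chartAt E p).symm (L.X (a, α))) ^ 2) ((-2 : ℝ) • R.G p a α) 0 := by
  have h0 := L.X0 a (L.sub ha)
  refine touch (e := fun ζ => (chartAt E p).symm (L.X (a, ζ))) _ (R.symm p a) (L.gpos ha) ?_ ?_ ?_ ?_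
  · filter_upwards [ball_mem_nhds (0 : E) L.r_pos] with ζ hζ
    rw [h0, L.rad a (L.sub ha) ζ hζ]
  · rw [h0, L.rad a (L.sub ha) α hα]
  · filter_upwards [Ioo_mem_nhdsGT (zero_lt_one' ℝ)] with t ht
    have := L.lip a (L.sub ha) α hα t ⟨by linarith [ht.1], ht.2.le⟩ 1 ⟨by norm_num, le_rfl⟩
    rwa [one_smul, abs_sub_comm, abs_of_pos (sub_pos.2 ht.2)] at this
  · have h1 : DifferentiableAt ℝ (fun ζ : E => L.X (a, ζ)) 0 :=
      ((L.smX_at (L.sub ha) (mem_ball_self L.r_pos)).differentiableAt (by simp)).comp 0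
        ((differentiableAt_const a).prodMk differentiableAt_id)
    have h2 : DifferentiableAt ℝ (fun ζ : E => L.Lg (L.X (a, α), L.X (a, ζ))) 0 :=
      DifferentiableAt.comp (g := L.Lg) 0
        ((L.smLg_at hα' (h0.symm ▸ ha)).differentiableAt (by simp))
        ((differentiableAt_const _).prodMk h1)
    refine (((differentiableAt_const (R.G p (L.X (a, α)))).clm_apply h2).clm_apply h2).congr_of_eventuallyEq ?_
    filter_upwards [h1.continuousAt.eventually (isOpen_ball.mem_nhds (h0.symm ▸ ha))] with ζ hζ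
    rw [dist_comm, L.dist_sq hα' hζ]

theorem Loc.nc (L : Loc R p) {a α β : E} (ha : a ∈ ball (chartAt E p p) L.r')
    (hα : α ∈ ball (0 : E) L.r) (hβ : β ∈ ball (0 : E) L.r)
    (hα' : L.X (a, α) ∈ ball (chartAt E p p) L.r') (hβ' : L.X (a, β) ∈ ball (chartAt E p p) L.r')
    (h : dist ((chartAt E p).symm (L.X (a, α))) ((chartAt E p).symm (L.X (a, β))) =
      √(R.G p a α α) + √(R.G p a β β)) :
    √(R.G p a β β) • α + √(R.G p a α α) • β = 0 := by
  have h0 := L.X0 a (L.sub ha)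
  refine nocorner (e := fun ζ => (chartAt E p).symm (L.X (a, ζ))) _ (L.gpos ha) ?_ ?_
    (L.touch' ha hα hα') (L.touch' ha hβ hβ') h
  · rw [h0, L.rad a (L.sub ha) α hα]
  · rw [h0, L.rad a (L.sub ha) β hβ]

theorem Loc.two (L : Loc R p) {a v : E} (ha : a ∈ ball (chartAt E p p) L.r')
    (hv : v ∈ ball (0 : E) L.r) (h1 : L.X (a, -v) ∈ ball (chartAt E p p) L.r')
    (h2 : (2 : ℝ) • L.Lg (L.X (a, -v), a) ∈ ball (0 : E) L.r)
    (h3 : L.X (L.X (a, -v), (2 : ℝ) • L.Lg (L.X (a, -v), a)) ∈ ball (chartAt E p p) L.r') :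
    dist ((chartAt E p).symm (L.X (a, -v))) ((chartAt E p).symm (L.X (a, v))) =
      2 * √(R.G p a v v) := by
  by_cases hv0 : v = 0
  · subst hv0; simp
  have hv' : -v ∈ ball (0 : E) L.r := by simpa using hv
  have n1 : √(R.G p a (-v) (-v)) = √(R.G p a v v) := by simp
  have d1 := L.rad a (L.sub ha) _ hv'
  have d2 := L.dist_Lg h1 ha
  have d3 := L.rad _ (L.sub h1) _ h2
  have d4 := L.lip _ (L.sub h1) _ h2 (1 / 2) ⟨by norm_num, by norm_num⟩ 1 ⟨by norm_num, le_rfl⟩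
  rw [one_smul, smul_smul, show (1 / 2 : ℝ) * 2 = 1 by norm_num, one_smul, L.XLg _ h1 _ ha,
    show |(1 / 2 : ℝ) - 1| = 1 / 2 by norm_num [abs_of_neg]] at d4
  rw [bil_sqrt_smul, abs_two, ← d2, dist_comm ((chartAt E p).symm (L.X (a, -v))) ((chartAt E p).symm a),
    d1, n1] at d3 d4
  set y := L.X (L.X (a, -v), (2 : ℝ) • L.Lg (L.X (a, -v), a)) with hy
  have d5 := dist_triangle ((chartAt E p).symm (L.X (a, -v))) ((chartAt E p).symm a)
    ((chartAt E p).symm y)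
  rw [dist_comm _ ((chartAt E p).symm a), d1, n1] at d5
  have d6 := L.dist_Lg ha h3
  have d7 : √(R.G p a (L.Lg (a, y)) (L.Lg (a, y))) = √(R.G p a v v) := by linarith
  have e1 := L.XLg a ha y h3
  have d8 := L.nc ha hv' (L.Lg_mem a ha y h3) h1 (e1.symm ▸ h3) (by rw [e1, d3, n1, d7]; ring)
  rw [d7, n1, ← smul_add] at d8
  have d9 := (smul_eq_zero.1 d8).resolve_left (Real.sqrt_pos.2 (L.gpos ha v hv0)).ne'
  rw [neg_add_eq_zero.1 d9, e1, ← neg_add_eq_zero.1 d9, d3]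

theorem Loc.geo (L : Loc R p) : ∃ ρ > 0, ρ ≤ L.r' ∧ ∀ a ∈ ball (chartAt E p p) ρ,
    ∀ v ∈ ball (0 : E) ρ, ∀ s ∈ Icc (-1 : ℝ) 1, ∀ t ∈ Icc (-1 : ℝ) 1,
      dist ((chartAt E p).symm (L.X (a, s • v))) ((chartAt E p).symm (L.X (a, t • v))) =
        √(R.G p a v v) * |s - t| := by
  have a0 : chartAt E p p ∈ ball (chartAt E p p) L.r' := mem_ball_self L.r'_pos
  have z0 : (0 : E) ∈ ball (0 : E) L.r := mem_ball_self L.r_pos
  have h0 := L.X0 _ (L.sub a0)
  have c0 : Tendsto L.X (𝓝 (chartAt E p p, 0)) (𝓝 (chartAt E p p)) := by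
    have := (L.smX_at (L.sub a0) z0).continuousAt.tendsto
    rwa [h0] at this
  have c0' : Tendsto L.Lg (𝓝 (chartAt E p p, chartAt E p p)) (𝓝 0) := by
    have := (L.smLg_at a0 a0).continuousAt.tendsto
    rwa [L.Lg_self a0] at this
  have f1 : Tendsto (fun q : E × E => q.1) (𝓝 (chartAt E p p, 0)) (𝓝 (chartAt E p p)) :=
    continuous_fst.tendsto _
  have c1 : Tendsto (fun q : E × E => L.X (q.1, -q.2)) (𝓝 (chartAt E p p, 0))
      (𝓝 (chartAt E p p)) :=
    c0.comp (f1.prodMk_nhds (continuous_snd.neg.tendsto' _ _ (by simp)))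
  have c2 : Tendsto (fun q : E × E => (2 : ℝ) • L.Lg (L.X (q.1, -q.2), q.1))
      (𝓝 (chartAt E p p, 0)) (𝓝 0) := by
    simpa using (c0'.comp (c1.prodMk_nhds f1)).const_smul (2 : ℝ)
  have c3 := c0.comp (c1.prodMk_nhds c2)
  obtain ⟨ρ, hρ, h⟩ := Metric.eventually_nhds_iff_ball.1
    ((c1.eventually (isOpen_ball.mem_nhds a0)).and ((c2.eventually (isOpen_ball.mem_nhds z0)).and
      (c3.eventually (isOpen_ball.mem_nhds a0))))
  refine ⟨min ρ L.r', lt_min hρ L.r'_pos, min_le_right _ _, fun a ha v hv => ?_⟩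
  have ha' := ball_subset_ball (min_le_right _ _) ha
  have hv' := ball_subset_ball ((min_le_right _ _).trans L.r'_le) hv
  obtain ⟨h1, h2, h3⟩ := h (a, v) (by
    rw [← ball_prod_same]
    exact ⟨ball_subset_ball (min_le_left _ _) ha, ball_subset_ball (min_le_left _ _) hv⟩)
  have k := L.two ha' hv' h1 h2 h3
  have key : ∀ s ∈ Icc (-1 : ℝ) 1, ∀ t ∈ Icc (-1 : ℝ) 1, s ≤ t →
      dist ((chartAt E p).symm (L.X (a, s • v))) ((chartAt E p).symm (L.X (a, t • v))) =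
        √(R.G p a v v) * |s - t| := by
    intro s hs t ht hst
    have l1 := L.lip a (L.sub ha') v hv' (-1) ⟨le_rfl, by norm_num⟩ s hs
    have l2 := L.lip a (L.sub ha') v hv' s hs t ht
    have l3 := L.lip a (L.sub ha') v hv' t ht 1 ⟨by norm_num, le_rfl⟩
    rw [neg_one_smul, abs_of_nonpos (by linarith [hs.1])] at l1
    rw [one_smul, abs_of_nonpos (by linarith [ht.2])] at l3
    rw [abs_of_nonpos (by linarith)] at l2 ⊢
    have l4 := dist_triangle4 ((chartAt E p).symm (L.X (a, -v))) ((chartAt E p).symm (L.X (a, s • v)))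
      ((chartAt E p).symm (L.X (a, t • v))) ((chartAt E p).symm (L.X (a, v)))
    linarith
  intro s hs t ht
  rcases le_total s t with hst | hst
  · exact key s hs t ht hst
  · rw [dist_comm, abs_sub_comm]; exact key t ht s hs hst

theorem Loc.rep (L : Loc R p) {a : E} (ha : a ∈ ball (chartAt E p p) L.r') {γ : ℝ → M}
    {c t₀ : ℝ} (hc : 0 ≤ c) (hγ : LocGeod γ c {t₀}) (h0 : γ t₀ = (chartAt E p).symm a) :
    ∃ v, √(R.G p a v v) = c ∧
      ∀ᶠ s in 𝓝 (0 : ℝ), γ (t₀ + s) = (chartAt E p).symm (L.X (a, s • v)) := by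
  have hc0 := hγ.continuousAt (mem_singleton t₀)
  obtain ⟨ε, hε, hd⟩ := hγ t₀ (mem_singleton t₀)
  have ht := L.ball_sub (L.sub ha)
  have hs : γ t₀ ∈ (chartAt E p).source := h0 ▸ (chartAt E p).map_target ht
  have x0 := L.X0 a (L.sub ha)
  have t1 : Tendsto (fun s : ℝ => t₀ + s) (𝓝 0) (𝓝 t₀) :=
    (continuous_const.add continuous_id).tendsto' _ _ (by simp)
  have t2 : Tendsto (fun s => γ (t₀ + s)) (𝓝 0) (𝓝 (γ t₀)) := hc0.tendsto.comp t1
  have t3 : Tendsto (fun s => chartAt E p (γ (t₀ + s))) (𝓝 0) (𝓝 a) := by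
    have := ((chartAt E p).continuousAt hs).tendsto.comp t2
    rwa [h0, (chartAt E p).right_inv ht] at this
  obtain ⟨δ, hδ, h⟩ := Metric.eventually_nhds_iff_ball.1
    ((t1.eventually (Ioo_mem_nhds (sub_lt_self t₀ hε) (lt_add_of_pos_right t₀ hε))).and
      ((t2.eventually ((chartAt E p).open_source.mem_nhds hs)).and
        (t3.eventually (isOpen_ball.mem_nhds ha))))
  have z0 : t₀ ∈ Ioo (t₀ - ε) (t₀ + ε) := ⟨sub_lt_self t₀ hε, lt_add_of_pos_right t₀ hε⟩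
  rcases hc.eq_or_lt with rfl | hc
  · refine ⟨0, by simp, ?_⟩
    filter_upwards [ball_mem_nhds (0 : ℝ) hδ] with s hs
    rw [smul_zero, x0, ← h0, ← dist_eq_zero, hd _ (h s hs).1 _ z0, zero_mul]
  set b : ℝ → E := fun s => L.Lg (a, chartAt E p (γ (t₀ + s))) with hb
  have b1 : ∀ s ∈ ball (0 : ℝ) δ, (chartAt E p).symm (L.X (a, b s)) = γ (t₀ + s) := fun s hs => by
    rw [hb, L.XLg a ha _ (h s hs).2.2, (chartAt E p).left_inv (h s hs).2.1]
  have b2 : ∀ s ∈ ball (0 : ℝ) δ, √(R.G p a (b s) (b s)) = c * |s| := fun s hs => by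
    rw [hb, ← L.dist_Lg ha (h s hs).2.2, (chartAt E p).left_inv (h s hs).2.1, ← h0,
      hd _ z0 _ (h s hs).1, sub_add_cancel_left, abs_neg]
  have b3 : ∀ s ∈ ball (0 : ℝ) δ, ∀ s' ∈ ball (0 : ℝ) δ, s' < 0 → 0 < s →
      s⁻¹ • b s = s'⁻¹ • b s' := fun s hs s' hs' n1 n2 => by
    have := L.nc ha (L.Lg_mem a ha _ (h s hs).2.2) (L.Lg_mem a ha _ (h s' hs').2.2)
      (by rw [L.XLg a ha _ (h s hs).2.2]; exact (h s hs).2.2)
      (by rw [L.XLg a ha _ (h s' hs').2.2]; exact (h s' hs').2.2)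
      (by
        refine Eq.trans ?_ (congrArg₂ _ (b2 s hs) (b2 s' hs')).symm
        refine (congrArg₂ _ (b1 s hs) (b1 s' hs')).trans ?_
        rw [hd _ (h s hs).1 _ (h s' hs').1, add_sub_add_left_eq_sub, abs_of_pos (by linarith),
          abs_of_pos n2, abs_of_neg n1]
        ring)
    change √(R.G p a (b s') (b s')) • b s + √(R.G p a (b s) (b s)) • b s' = 0 at this
    rw [b2 s hs, b2 s' hs', abs_of_pos n2, abs_of_neg n1] at this
    have e : s⁻¹ • b s - s'⁻¹ • b s' =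
        (-(c * s * s')⁻¹) • ((c * -s') • b s + (c * s) • b s') := by
      have := n1.ne
      rw [smul_add, smul_smul, smul_smul, sub_eq_add_neg, ← neg_smul]
      congr 2 <;> field_simp
    rw [← sub_eq_zero, e, this, smul_zero]
  have m1 : δ / 2 ∈ ball (0 : ℝ) δ := by
    rw [mem_ball_zero_iff, Real.norm_eq_abs, abs_of_pos (by positivity)]; linarith
  have m2 : -(δ / 2) ∈ ball (0 : ℝ) δ := by simpa using m1
  have m3 : 0 < δ / 2 := by positivity
  refine ⟨(δ / 2)⁻¹ • b (δ / 2), ?_, ?_⟩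
  · rw [bil_sqrt_smul, b2 _ m1, abs_of_pos m3, abs_of_pos (inv_pos.2 m3)]
    field_simp
  · filter_upwards [ball_mem_nhds (0 : ℝ) hδ] with s hs
    rcases lt_trichotomy s 0 with n | rfl | n
    · rw [b3 _ m1 s hs n m3, smul_inv_smul₀ n.ne, b1 s hs]
    · rw [zero_smul, x0, add_zero, h0]
    · rw [b3 _ m1 _ m2 (by linarith) m3, ← b3 s hs _ m2 (by linarith) n, smul_inv_smul₀ n.ne',
        b1 s hs]

end Vale.Agent.P234
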