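import Vale.Agent.P234.Loc1
import Vale.Agent.P234.Loc2

/-! P234 Glob1: uniqueness of metric geodesics, uniform radius. -/

open Set Manifold Filter Metric
open scoped ContDiff Topology

namespace Vale.Agent.P234

variable {E : Type*} [NormedAddCommGroup E] [NormedSpace ℝ E] [FiniteDimensional ℝ E]
  {M : Type*} [MetricSpace M] [ChartedSpace E M] [IsManifold 𝓘(ℝ, E) ∞ M] [CompactSpace M]

set_option linter.unusedSectionVars false

theorem contDiffAt_chart_trans {p q : M} {a : E} (ha : a ∈ (chartAt E p).target)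
    (hq : (chartAt E p).symm a ∈ (chartAt E q).source) :
    ∀ᶠ b in 𝓝 a, ContDiffAt ℝ ∞ (fun b => chartAt E q ((chartAt E p).symm b)) b := by
  filter_upwards [(chartAt E p).open_target.mem_nhds ha, ((chartAt E p).continuousAt_symm
    ha).eventually ((chartAt E q).open_source.mem_nhds hq)] with b h1 h2
  have k1 : ContMDiffAt 𝓘(ℝ, E) 𝓘(ℝ, E) ∞ (chartAt E p).symm b :=
    (contMDiffOn_chart_symm (I := 𝓘(ℝ, E))).contMDiffAt ((chartAt E p).open_target.mem_nhds h1)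
  have k2 : ContMDiffAt 𝓘(ℝ, E) 𝓘(ℝ, E) ∞ (chartAt E q) ((chartAt E p).symm b) :=
    (contMDiffOn_chart (I := 𝓘(ℝ, E))).contMDiffAt ((chartAt E q).open_source.mem_nhds h2)
  exact contMDiffAt_iff_contDiffAt.1 (k2.comp b k1)

theorem LocGeod.at {γ : ℝ → M} {c : ℝ} {J : Set ℝ} (h : LocGeod γ c J) {t : ℝ} (ht : t ∈ J) :
    LocGeod γ c {t} := fun s hs => h s (mem_singleton_iff.1 hs ▸ ht)

theorem Loc.deriv_trans {R : RM E M} {p : M} (L : Loc R p) {a v : E}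
    (ha : a ∈ ball (chartAt E p p) L.r) {γ : ℝ → M} {t₀ : ℝ}
    (h : ∀ᶠ t in 𝓝 t₀, γ t = (chartAt E p).symm (L.X (a, (t - t₀) • v))) {q : M}
    (hq : (chartAt E p).symm a ∈ (chartAt E q).source) :
    HasDerivAt (fun t => chartAt E q (γ t))
      (fderiv ℝ (fun b => chartAt E q ((chartAt E p).symm b)) a v) t₀ := by
  have d1 : HasDerivAt (fun t : ℝ => L.X (a, (t - t₀) • v)) v t₀ := by
    have := HasDerivAt.comp_sub_const t₀ t₀ (f := fun t : ℝ => L.X (a, t • v)) (f' := v)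
      (by rw [sub_self]; exact L.dX0 a ha v)
    exact this
  have d2 := ((contDiffAt_chart_trans (L.ball_sub ha) hq).self_of_nhds.differentiableAt
    (by simp)).hasFDerivAt
  refine (d2.comp_hasDerivAt_of_eq t₀ d1 (by rw [sub_self, zero_smul, L.X0 a ha])).congr_of_eventuallyEq ?_
  filter_upwards [h] with t ht
  rw [ht]; rfl

theorem Loc.rep' {R : RM E M} {γ : ℝ → M} {c t₀ : ℝ} {p : M} (L : Loc R p) (hc : 0 ≤ c)
    (h : LocGeod γ c {t₀}) (hp : γ t₀ = p) : ∃ v, √(R.G p (chartAt E p p) v v) = c ∧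
      ∀ᶠ t in 𝓝 t₀, γ t = (chartAt E p).symm (L.X (chartAt E p p, (t - t₀) • v)) := by
  obtain ⟨v, h1, h2⟩ := L.rep (mem_ball_self L.r'_pos) hc h
    (hp.trans ((chartAt E p).left_inv (mem_chart_source E p)).symm)
  have t1 : Tendsto (fun t : ℝ => t - t₀) (𝓝 t₀) (𝓝 0) :=
    (continuous_id.sub continuous_const).tendsto' _ _ (by simp)
  refine ⟨v, h1, ?_⟩
  filter_upwards [t1.eventually h2] with t ht
  rwa [add_sub_cancel] at ht

theorem RM.geod_eqOn (R : RM E M) {γ₁ γ₂ : ℝ → M} {c : ℝ} {J : Set ℝ} (hJ : IsPreconnected J)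
    (hc : 0 ≤ c) (h1 : LocGeod γ₁ c J) (h2 : LocGeod γ₂ c J) {t₀ : ℝ} (ht : t₀ ∈ J)
    (h : γ₁ =ᶠ[𝓝 t₀] γ₂) : EqOn γ₁ γ₂ J := by
  have key : J ⊆ {t | γ₁ =ᶠ[𝓝 t] γ₂} := by
    refine hJ.subset_of_closure_inter_subset isOpen_setOfPred_eventually_nhds ⟨t₀, ht, h⟩ ?_
    rintro t ⟨k1, k2⟩
    have k3 : ∃ᶠ s in 𝓝 t, γ₁ =ᶠ[𝓝 s] γ₂ := mem_closure_iff_frequently.1 k1
    have k4 : γ₁ t = γ₂ t := tendsto_nhds_unique_of_frequently_eq (h1.continuousAt k2)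
      (h2.continuousAt k2) (k3.mono fun s hs => hs.self_of_nhds)
    obtain ⟨L⟩ := R.exists_loc (γ₂ t)
    obtain ⟨v₁, -, e1⟩ := L.rep' hc (h1.at k2) k4
    obtain ⟨v₂, -, e2⟩ := L.rep' hc (h2.at k2) rfl
    have sm : ∀ v : E, ∀ᶠ s in 𝓝 t, (s - t) • v ∈ ball (0 : E) L.r := fun v =>
      (Continuous.tendsto' (f := fun s : ℝ => (s - t) • v) (by fun_prop) _ _
        (by simp)).eventually (ball_mem_nhds 0 L.r_pos)
    obtain ⟨s, s1, s2, s3, s4, s5⟩ := (k3.and_eventually (e1.and (e2.and ((sm v₁).and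
      (sm v₂))))).exists
    by_cases hs : s = t
    · exact hs ▸ s1
    have a0 := mem_ball_self (x := chartAt E (γ₂ t) (γ₂ t)) L.r_pos
    have s6 := (chartAt E (γ₂ t)).symm.injOn (L.maps _ a0 _ s4) (L.maps _ a0 _ s5)
      (s2.symm.trans (s1.self_of_nhds.trans s3))
    have s7 := smul_right_injective E (sub_ne_zero.2 hs) (L.inj _ a0 s4 s5 s6)
    filter_upwards [e1, e2] with u u1 u2
    rw [u1, u2, s7]
  exact fun t ht => (key ht).self_of_nhds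

theorem RM.geod_vel (R : RM E M) {γ : ℝ → M} {c t₀ : ℝ} (hc : 0 ≤ c) (h : LocGeod γ c {t₀})
    {q : M} (hq : γ t₀ ∈ (chartAt E q).source) :
    ∃ w, HasDerivAt (fun t => chartAt E q (γ t)) w t₀ ∧
      √(R.G q (chartAt E q (γ t₀)) w w) = c := by
  obtain ⟨L⟩ := R.exists_loc (γ t₀)
  obtain ⟨v, h1, h2⟩ := L.rep' hc h rfl
  have e := (chartAt E (γ t₀)).left_inv (mem_chart_source E (γ t₀))
  have k := R.compat (γ t₀) q _ (mem_chart_target E (γ t₀)) (e.symm ▸ hq) v v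
  rw [e] at k
  exact ⟨_, L.deriv_trans (mem_ball_self L.r_pos) h2 (e.symm ▸ hq), by rw [k, h1]⟩

theorem RM.geod_eventuallyEq (R : RM E M) {γ₁ γ₂ : ℝ → M} {c₁ c₂ t₀ : ℝ} (hc₁ : 0 ≤ c₁)
    (hc₂ : 0 ≤ c₂) (h1 : LocGeod γ₁ c₁ {t₀}) (h2 : LocGeod γ₂ c₂ {t₀}) {q : M} {w : E}
    (h0 : γ₁ t₀ = γ₂ t₀) (hq : γ₁ t₀ ∈ (chartAt E q).source)
    (hd1 : HasDerivAt (fun t => chartAt E q (γ₁ t)) w t₀)
    (hd2 : HasDerivAt (fun t => chartAt E q (γ₂ t)) w t₀) : γ₁ =ᶠ[𝓝 t₀] γ₂ := by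
  obtain ⟨L⟩ := R.exists_loc (γ₁ t₀)
  obtain ⟨v₁, -, e1⟩ := L.rep' hc₁ h1 rfl
  obtain ⟨v₂, -, e2⟩ := L.rep' hc₂ h2 h0.symm
  have e := (chartAt E (γ₁ t₀)).left_inv (mem_chart_source E (γ₁ t₀))
  have k1 := hd1.unique (L.deriv_trans (mem_ball_self L.r_pos) e1 (e.symm ▸ hq))
  have k2 := hd2.unique (L.deriv_trans (mem_ball_self L.r_pos) e2 (e.symm ▸ hq))
  have k := R.compat (γ₁ t₀) q _ (mem_chart_target E (γ₁ t₀)) (e.symm ▸ hq) (v₁ - v₂) (v₁ - v₂)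
  rw [map_sub, ← k1, ← k2, sub_self, map_zero] at k
  have k3 : v₁ = v₂ := by
    by_contra n
    exact (R.pos _ _ (mem_chart_target E (γ₁ t₀)) _ (sub_ne_zero.2 n)).ne k
  filter_upwards [e1, e2] with u u1 u2
  rw [u1, u2, k3]

theorem RM.isGeo_unique (R : RM E M) {p : M} {a v : E} (ha : a ∈ (chartAt E p).target)
    {γ₁ γ₂ : ℝ → M} (h1 : R.IsGeo p a v γ₁) (h2 : R.IsGeo p a v γ₂) : γ₁ = γ₂ :=
  funext fun t => R.geod_eqOn isPreconnected_univ (Real.sqrt_nonneg _) h1.2.2 h2.2.2 (mem_univ 0)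
    (R.geod_eventuallyEq (Real.sqrt_nonneg _) (Real.sqrt_nonneg _) (h1.2.2.at (mem_univ 0))
      (h2.2.2.at (mem_univ 0)) (h1.1.trans h2.1.symm) (h1.1 ▸ (chartAt E p).map_target ha)
      h1.2.1 h2.2.1) (mem_univ t)

theorem RM.unif (R : RM E M) : ∃ ρ > 0, ∀ x : M, ∃ (p : M) (L : Loc R p) (r : ℝ),
    r ≤ L.r' ∧ x ∈ (chartAt E p).source ∧ chartAt E p x ∈ ball (chartAt E p p) r ∧
    (∀ v, √(R.G p (chartAt E p x) v v) < ρ → v ∈ ball (0 : E) r) ∧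
    ∀ a ∈ ball (chartAt E p p) r, ∀ v ∈ ball (0 : E) r, ∀ s ∈ Icc (-1 : ℝ) 1,
      ∀ t ∈ Icc (-1 : ℝ) 1,
      dist ((chartAt E p).symm (L.X (a, s • v))) ((chartAt E p).symm (L.X (a, t • v))) =
        √(R.G p a v v) * |s - t| := by
  have L : ∀ p, Loc R p := fun p => (R.exists_loc p).some
  choose r r0 r1 r2 using fun p => (L p).geo
  choose C C0 C1 using fun p : M => bil_lower ((R.smG p).continuousOn.continuousAt
    ((chartAt E p).open_target.mem_nhds (mem_chart_target E p))) (R.pos p _ (mem_chart_target E p))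
  obtain ⟨t, ht⟩ := CompactSpace.elim_nhds_subcover (fun p : M => {x | x ∈ (chartAt E p).source ∧
    chartAt E p x ∈ ball (chartAt E p p) (r p) ∧ ∀ v, ‖v‖ ≤ C p * √(R.G p (chartAt E p x) v v)})
    fun p => Filter.Eventually.and (p := fun x => x ∈ (chartAt E p).source) (chart_source_mem_nhds E p)
      (((chartAt E p).continuousAt (mem_chart_source E p)).eventually
        ((show ∀ᶠ b in 𝓝 (chartAt E p p), b ∈ ball (chartAt E p p) (r p) from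
          ball_mem_nhds _ (r0 p)).and (C1 p)))
  have ev : ∀ᶠ ρ in 𝓝[>] (0 : ℝ), ∀ p ∈ t, C p * ρ < r p :=
    (eventually_all_finset t).2 fun p _ => nhdsWithin_le_nhds
      ((Continuous.tendsto' (f := fun ρ : ℝ => C p * ρ) (by fun_prop) _ _
        (mul_zero _)).eventually (gt_mem_nhds (r0 p)))
  obtain ⟨ρ, h1, h2⟩ := (ev.and self_mem_nhdsWithin).exists
  refine ⟨ρ, h2, fun x => ?_⟩
  obtain ⟨p, hp, k1, k2, k3⟩ := mem_iUnion₂.1 (ht.ge (mem_univ x))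
  exact ⟨p, L p, r p, r1 p, k1, k2, fun v hv => mem_ball_zero_iff.2 ((k3 v).trans_lt
    ((mul_lt_mul_of_pos_left hv (C0 p)).trans (h1 p hp))), r2 p⟩

end Vale.Agent.P234
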