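import Vale.Agent.P234.Glob1

/-! P234 Glob2: global existence of geodesics. -/

open Set Manifold Filter Metric
open scoped ContDiff Topology

namespace Vale.Agent.P234

variable {E : Type*} [NormedAddCommGroup E] [NormedSpace ℝ E] [FiniteDimensional ℝ E]
  {M : Type*} [MetricSpace M] [ChartedSpace E M] [IsManifold 𝓘(ℝ, E) ∞ M] [CompactSpace M]

set_option linter.unusedSectionVars false

theorem fderiv_trans_trans {p q : M} {a : E} (ha : a ∈ (chartAt E p).target)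
    (hq : (chartAt E p).symm a ∈ (chartAt E q).source) (v : E) :
    fderiv ℝ (fun b => chartAt E p ((chartAt E q).symm b)) (chartAt E q ((chartAt E p).symm a))
      (fderiv ℝ (fun b => chartAt E q ((chartAt E p).symm b)) a v) = v := by
  have d1 := ((contDiffAt_chart_trans ha hq).self_of_nhds.differentiableAt (by simp)).hasFDerivAt
  have d2 := ((contDiffAt_chart_trans (p := q) (q := p) ((chartAt E q).map_source hq) (by
    rw [(chartAt E q).left_inv hq]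
    exact (chartAt E p).map_target ha)).self_of_nhds.differentiableAt (by simp)).hasFDerivAt
  have d3 := (d2.comp a d1).unique ((hasFDerivAt_id a).congr_of_eventuallyEq (by
    filter_upwards [(chartAt E p).open_target.mem_nhds ha, ((chartAt E p).continuousAt_symm
      ha).eventually ((chartAt E q).open_source.mem_nhds hq)] with b h1 h2
    simp only [Function.comp, id]
    rw [(chartAt E q).left_inv h2, (chartAt E p).right_inv h1]))
  exact DFunLike.congr_fun d3 v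

theorem exists_Ioo_sub {t₀ : ℝ} {S : Set ℝ} (h : S ∈ 𝓝 t₀) :
    ∃ ε > 0, Ioo (t₀ - ε) (t₀ + ε) ⊆ S := by
  obtain ⟨ε, h1, h2⟩ := Metric.mem_nhds_iff.1 h
  exact ⟨ε, h1, Real.ball_eq_Ioo t₀ ε ▸ h2⟩

theorem LocGeod.congr {γ γ' : ℝ → M} {c t₀ : ℝ} {J : Set ℝ} (h : LocGeod γ c J) (ht : t₀ ∈ J)
    (e : γ' =ᶠ[𝓝 t₀] γ) : ∃ ε > 0, ∀ s ∈ Ioo (t₀ - ε) (t₀ + ε), ∀ t ∈ Ioo (t₀ - ε) (t₀ + ε),
      dist (γ' s) (γ' t) = c * |s - t| := by
  obtain ⟨ε, h1, h2⟩ := h t₀ ht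
  obtain ⟨δ, h3, h4⟩ := exists_Ioo_sub (inter_mem e
    (Ioo_mem_nhds (sub_lt_self t₀ h1) (lt_add_of_pos_right t₀ h1)))
  refine ⟨δ, h3, fun s hs t ht => ?_⟩
  rw [← h2 s (h4 hs).2 t (h4 ht).2]
  exact congrArg₂ _ (h4 hs).1 (h4 ht).1

theorem LocGeod.neg {γ : ℝ → M} {c A B : ℝ} (h : LocGeod γ c (Ioo A B)) :
    LocGeod (fun t => γ (-t)) c (Ioo (-B) (-A)) := fun t₀ ht => by
  obtain ⟨ε, h1, h2⟩ := h (-t₀) ⟨by linarith [ht.2], by linarith [ht.1]⟩
  refine ⟨ε, h1, fun s hs t ht => ?_⟩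
  rw [h2 _ ⟨by linarith [hs.2], by linarith [hs.1]⟩ _ ⟨by linarith [ht.2], by linarith [ht.1]⟩,
    neg_sub_neg, abs_sub_comm]

theorem LocGeod.shift {γ : ℝ → M} {c A B : ℝ} (h : LocGeod γ c (Ioo A B)) (u : ℝ) :
    LocGeod (fun t => γ (t - u)) c (Ioo (A + u) (B + u)) := fun t₀ ht => by
  obtain ⟨ε, h1, h2⟩ := h (t₀ - u) ⟨by linarith [ht.1], by linarith [ht.2]⟩
  refine ⟨ε, h1, fun s hs t ht => ?_⟩
  rw [h2 _ ⟨by linarith [hs.1], by linarith [hs.2]⟩ _ ⟨by linarith [ht.1], by linarith [ht.2]⟩,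
    sub_sub_sub_cancel_right]

/-- Geodesics exist for a uniform time. -/
theorem RM.short (R : RM E M) : ∃ ρ > 0, ∀ (p : M), ∀ a ∈ (chartAt E p).target, ∀ (v : E) (η : ℝ),
    0 < η → η * √(R.G p a v v) < ρ → ∃ γ : ℝ → M, γ 0 = (chartAt E p).symm a ∧
      HasDerivAt (fun t => chartAt E p (γ t)) v 0 ∧ LocGeod γ (√(R.G p a v v)) (Ioo (-η) η) := by
  obtain ⟨ρ, hρ, h⟩ := R.unif
  refine ⟨ρ, hρ, fun p a ha v η hη hv => ?_⟩
  obtain ⟨q, L, r, h1, h2, h3, h4, h5⟩ := h ((chartAt E p).symm a)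
  have k1 := R.compat p q a ha h2 v v
  have k2 := fderiv_trans_trans ha h2 v
  set w := fderiv ℝ (fun b => chartAt E q ((chartAt E p).symm b)) a v
  have k3 := ball_subset_ball (h1.trans L.r'_le) h3
  have k4 := (chartAt E q).left_inv h2
  refine ⟨fun t => (chartAt E q).symm (L.X (chartAt E q ((chartAt E p).symm a), t • w)), ?_, ?_,
    fun t₀ ht => ?_⟩
  · simp only [zero_smul, L.X0 _ k3, k4]
  · rw [← k2]
    exact L.deriv_trans k3 (Eventually.of_forall fun t => by rw [sub_zero])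
      (k4.symm ▸ (chartAt E p).map_target ha)
  · obtain ⟨ε, e1, e2⟩ := exists_Ioo_sub (Ioo_mem_nhds ht.1 ht.2)
    refine ⟨ε, e1, fun s hs t ht => ?_⟩
    have m : ∀ s ∈ Ioo (-η) η, s / η ∈ Icc (-1 : ℝ) 1 := fun s hs =>
      ⟨(le_div_iff₀ hη).2 (by linarith [hs.1]), (div_le_one hη).2 hs.2.le⟩
    have := h5 _ h3 (η • w) (h4 _ (by rwa [bil_sqrt_smul, abs_of_pos hη, k1])) _ (m s (e2 hs)) _
      (m t (e2 ht))
    rw [smul_smul, smul_smul, div_mul_cancel₀ _ hη.ne', div_mul_cancel₀ _ hη.ne', bil_sqrt_smul,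
      k1, ← sub_div, abs_div, abs_of_pos hη] at this
    rw [this]
    field_simp

theorem RM.ext_right (R : RM E M) {c : ℝ} (hc : 0 ≤ c) : ∃ η > 0, ∀ (γ : ℝ → M) (A B u : ℝ),
    LocGeod γ c (Ioo A B) → u ∈ Ioo A B →
      ∃ γ' : ℝ → M, (∀ t ≤ u, γ' t = γ t) ∧ LocGeod γ' c (Ioo A (η + u)) := by
  obtain ⟨ρ, hρ, h⟩ := R.short
  have η0 : 0 < ρ / (c + 1) := by positivity
  refine ⟨ρ / (c + 1), η0, fun γ A B u hγ hu => ?_⟩
  obtain ⟨w, w1, w2⟩ := R.geod_vel hc (hγ.at hu) (mem_chart_source E (γ u))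
  obtain ⟨δ, d1, d2, d3⟩ := h (γ u) _ (mem_chart_target E (γ u)) w _ η0 (by
    rw [w2, div_mul_eq_mul_div, div_lt_iff₀ (by positivity)]; linarith)
  rw [w2] at d3
  rw [(chartAt E (γ u)).left_inv (mem_chart_source E (γ u))] at d1
  have d4 := d3.shift u
  have e := R.geod_eventuallyEq hc hc (hγ.at hu)
    (d4.at (t := u) ⟨by linarith, by linarith⟩) (by simp only [sub_self, d1])
    (mem_chart_source E (γ u)) w1 (HasDerivAt.comp_sub_const u u
      (f := fun t => chartAt E (γ u) (δ t)) (by rwa [sub_self]))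
  refine ⟨fun t => if t ≤ u then γ t else δ (t - u), fun t ht => if_pos ht, fun t ht => ?_⟩
  rcases lt_trichotomy t u with n | rfl | n
  · refine hγ.congr ⟨ht.1, n.trans hu.2⟩ ?_
    filter_upwards [gt_mem_nhds n] with s hs using if_pos hs.le
  · refine hγ.congr hu ?_
    filter_upwards [e] with s hs
    split_ifs
    exacts [rfl, hs.symm]
  · refine d4.congr ⟨by linarith, ht.2⟩ ?_
    filter_upwards [lt_mem_nhds n] with s hs using if_neg (not_le.2 hs)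

theorem RM.isGeo_exists (R : RM E M) {p : M} {a : E} (ha : a ∈ (chartAt E p).target) (v : E) :
    ∃ γ, R.IsGeo p a v γ := by
  have hc := Real.sqrt_nonneg (R.G p a v v)
  obtain ⟨ρ, hρ, h⟩ := R.short
  obtain ⟨η, hη, k⟩ := R.ext_right hc
  have η0 : 0 < ρ / (√(R.G p a v v) + 1) := by positivity
  obtain ⟨γ₀, g1, g2, g3⟩ := h p a ha v _ η0 (by
    rw [div_mul_eq_mul_div, div_lt_iff₀ (by positivity)]; linarith)
  generalize ρ / (√(R.G p a v v) + 1) = T at η0 g3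
  unfold RM.IsGeo
  generalize √(R.G p a v v) = c at *
  obtain ⟨θ, θ0, θ1, θ2⟩ : ∃ θ > 0, θ < T ∧ 2 * θ ≤ η :=
    ⟨min (T / 2) (η / 2), by positivity, (min_le_left _ _).trans_lt (by linarith),
      by linarith [min_le_right (T / 2) (η / 2)]⟩
  have key : ∀ n : ℕ, ∃ γ : ℝ → M, γ =ᶠ[𝓝 0] γ₀ ∧ LocGeod γ c (Ioo (-(T + n * θ)) (T + n * θ)) := by
    intro n
    induction n with
    | zero => exact ⟨γ₀, EventuallyEq.rfl, by simpa using g3⟩
    | succ n ih =>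
      obtain ⟨γ, e, l⟩ := ih
      have n0 : 0 ≤ n * θ := by positivity
      obtain ⟨γ₁, a1, a2⟩ := k γ _ _ (T + n * θ - θ) l ⟨by linarith, by linarith⟩
      obtain ⟨γ₂, b1, b2⟩ := k _ _ _ (T + n * θ - θ) a2.neg ⟨by linarith, by linarith⟩
      refine ⟨fun t => γ₂ (-t), EventuallyEq.trans ?_ e, fun t ht => b2.neg t ?_⟩
      · filter_upwards [Ioo_mem_nhds (show -(T + n * θ - θ) < 0 by linarith)
          (show 0 < T + n * θ - θ by linarith)] with t ht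
        rw [b1 _ (by linarith [ht.1]), neg_neg, a1 _ ht.2.le]
      · push_cast at ht
        exact ⟨by linarith [ht.1], by linarith [ht.2]⟩
  choose γ e l using key
  have N : ∀ t : ℝ, ∃ n : ℕ, t ∈ Ioo (-(T + n * θ)) (T + n * θ) := fun t => by
    obtain ⟨n, hn⟩ := exists_nat_ge (|t| / θ)
    rw [div_le_iff₀ θ0] at hn
    exact ⟨n, abs_lt.1 (by linarith)⟩
  choose N hN using N
  have ag : ∀ (n : ℕ) (t : ℝ), t ∈ Ioo (-(T + n * θ)) (T + n * θ) → γ (N t) t = γ n t :=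
    fun n t ht => by
      have z : ∀ n : ℕ, (0 : ℝ) ∈ Ioo (-(T + n * θ)) (T + n * θ) := fun n => by
        have n0 : 0 ≤ n * θ := by positivity
        exact ⟨by linarith, by linarith⟩
      exact R.geod_eqOn (J := Ioo (-(T + N t * θ)) (T + N t * θ) ∩ Ioo (-(T + n * θ)) (T + n * θ))
        (by rw [Ioo_inter_Ioo]; exact isPreconnected_Ioo) hc (fun s hs => l _ s hs.1) (fun s hs => l _ s hs.2)
        ⟨z _, z _⟩ ((e _).trans (e _).symm) ⟨hN t, ht⟩
  have ev : ∀ t₀ : ℝ, (fun t => γ (N t) t) =ᶠ[𝓝 t₀] γ (N t₀) := fun t₀ =>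
    mem_of_superset (Ioo_mem_nhds (hN t₀).1 (hN t₀).2) fun t ht => ag _ t ht
  have e0 := (ev 0).trans (e _)
  refine ⟨fun t => γ (N t) t, e0.self_of_nhds.trans g1, g2.congr_of_eventuallyEq
    (e0.mono fun t ht => congrArg _ ht), fun t₀ _ => (l _).congr (hN t₀) (ev t₀)⟩

end Vale.Agent.P234
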