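import Vale.Agent.P234.GapA
import Vale.Agent.P234.F6
import Vale.Agent.P234.Ult

/-! P234 Good: the cost is smooth on the injectivity domain; gap lemma. -/

open Set Manifold Filter Metric
open scoped ContDiff Topology

namespace Vale.Agent.P234

variable {E : Type*} [NormedAddCommGroup E] [NormedSpace ℝ E] [FiniteDimensional ℝ E]
  {M : Type*} [MetricSpace M] [ChartedSpace E M] [IsManifold 𝓘(ℝ, E) ∞ M] [CompactSpace M]

namespace Geo

variable (Γ : Geo E M) {p : M} {a : E}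

theorem seg' (ha : a ∈ (chartAt E p).target) {v : E} {c : ℝ} (hc : 0 < c)
    (hv : c • v ∈ Γ.Ib p a) {s t : ℝ} (hs : 0 ≤ s) (hst : s ≤ t) (ht : t ≤ c) :
    dist (Γ.Ex p a (s • v)) (Γ.Ex p a (t • v)) = (t - s) * √(Γ.G p a v v) := by
  have h := Γ.seg ha hv (s := s / c) (t := t / c) (by positivity)
    (div_le_div_of_nonneg_right hst hc.le) ((div_le_one hc).2 ht)
  rw [smul_smul, smul_smul, div_mul_cancel₀ _ hc.ne', div_mul_cancel₀ _ hc.ne', bil_sqrt_smul,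
    abs_of_pos hc] at h
  rw [h]; field_simp

theorem good_step {ℓ : ℝ} (ih : ∀ p, ∀ a ∈ (chartAt E p).target, ∀ v ∈ Γ.Io p a,
      √(Γ.G p a v v) < ℓ → GoodPair E ((chartAt E p).symm a) (Γ.Ex p a v))
    (ha : a ∈ (chartAt E p).target) {v : E} (hv : v ∈ Γ.Io p a) (hl : √(Γ.G p a v v) < 2 * ℓ) :
    GoodPair E ((chartAt E p).symm a) (Γ.Ex p a v) := by
  obtain ⟨c, hc, hcv⟩ := id hv
  have hseg := fun s t => Γ.seg' ha (by linarith : 0 < c) hcv (s := s) (t := t)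
  have hg1 := ih p a ha _ (Γ.smul_mem_Io' ha hv (s := 1 / 2) (by norm_num) (by norm_num))
    (by rw [bil_sqrt_smul, abs_of_pos (by norm_num : (0 : ℝ) < 1 / 2)]; linarith)
  obtain ⟨w, hw1, hw2⟩ := Γ.flow p _ a ha v (1 / 2) (mem_chart_source E _)
  have huniq : ∀ m, dist ((chartAt E p).symm a) m = dist ((chartAt E p).symm a) (Γ.Ex p a v) / 2 →
      dist m (Γ.Ex p a v) = dist ((chartAt E p).symm a) (Γ.Ex p a v) / 2 →
      m = Γ.Ex p a ((1 / 2 : ℝ) • v) := by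
    intro m h1 h2
    obtain ⟨v', hv', h3, h4⟩ := Γ.midpt ha h1 h2
    rw [← h4, Γ.f7 ha hv hv' h3.symm]
  have hz : Γ.Ex p a ((0 : ℝ) • v) = (chartAt E p).symm a := by rw [zero_smul, Γ.ex0 p a ha]
  have hy : Γ.Ex p a ((1 : ℝ) • v) = Γ.Ex p a v := by rw [one_smul]
  have hN : 0 ≤ √(Γ.G p a v v) := Real.sqrt_nonneg _
  obtain ⟨δ, hδ, hδg⟩ := Γ.locGood
  set ε := min (2 * c - 2) (δ / (√(Γ.G p a v v) + 1)) with hε
  have hε0 : 0 < ε := lt_min (by linarith) (by positivity)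
  have hε1 : ε ≤ 2 * c - 2 := min_le_left _ _
  have hε2 : ε * (√(Γ.G p a v v) + 1) ≤ δ := (le_div_iff₀ (by positivity)).1 (min_le_right _ _)
  have d1 := hseg 0 (1 / 2) le_rfl (by norm_num) (by linarith)
  have d2 := hseg (1 / 2) 1 (by norm_num) (by norm_num) hc.le
  have d3 := hseg 1 (1 + ε / 2) (by norm_num) (by linarith) (by linarith)
  have d4 := hseg 0 (1 + ε / 2) le_rfl (by linarith) (by linarith)
  have d5 := hseg (1 / 2) c (by norm_num) (by linarith) le_rfl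
  have e1 := hw2 (1 / 2)
  have e2 := hw2 (c - 1 / 2)
  norm_num only [add_halves, add_sub_cancel] at e1 e2
  rw [hz] at d1 d4
  rw [hy] at d2 d3 e1
  have hb := mem_chart_target E (Γ.Ex p a ((1 / 2 : ℝ) • v))
  have hm := (chartAt E _).left_inv (mem_chart_source E (Γ.Ex p a ((1 / 2 : ℝ) • v)))
  generalize Γ.Ex p a ((1 / 2 : ℝ) • v) = m₀ at *
  generalize chartAt E m₀ m₀ = b at *
  generalize Γ.Ex p a ((1 + ε / 2) • v) = y' at *
  generalize Γ.Ex p a v = y at *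
  generalize (chartAt E p).symm a = z at *
  have he0 : Γ.Ex m₀ b 0 = m₀ := by rw [Γ.ex0 m₀ b hb, hm]
  have huI : (1 / 2 : ℝ) • w ∈ Γ.Io m₀ b := by
    refine ⟨2 * c - 1, by linarith, ?_⟩
    rw [smul_smul, show (2 * c - 1) * (1 / 2) = c - 1 / 2 by ring]
    change dist _ _ = _
    rw [hm, e2, d5, bil_sqrt_smul, hw1, abs_of_pos (by linarith)]
  have hg2 := ih m₀ b hb _ huI
    (by rw [bil_sqrt_smul, hw1, abs_of_pos (by norm_num : (0 : ℝ) < 1 / 2)]; linarith)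
  have hg3 : GoodPair E y y' := hδg _ _ (by rw [d3]; nlinarith)
  have hsm : ∀ᶠ μ in 𝓝 (0 : E), ContMDiffAt 𝓘(ℝ, E) 𝓘(ℝ, E) ∞ (Γ.Ex m₀ b) μ :=
    Eventually.of_forall (Γ.smEx_fix hb)
  have hf : ContDiffAt ℝ 2 (fun ζ => dist (Γ.Ex m₀ b ζ) z ^ 2 / 2) 0 :=
    ((GoodPair.comp (f := Γ.Ex m₀ b) (g := fun _ => z) (by rw [he0]; exact hg1.symm) hsm
      (Eventually.of_forall fun _ => contMDiffAt_const)).self_of_nhds.of_le two_le_inf).div_const 2
  have hh : ContDiffAt ℝ 2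
      (fun μ => dist (Γ.Ex m₀ b ((1 / 2 : ℝ) • w + μ)) y' ^ 2 / (2 * ε)) 0 :=
    ((GoodPair.comp (f := fun μ => Γ.Ex m₀ b ((1 / 2 : ℝ) • w + μ)) (g := fun _ => y')
      (by rw [add_zero, e1]; exact hg3)
      (Γ.smEx_comp (f := fun _ => b) hb contDiff_const (contDiff_const.add contDiff_id))
      (Eventually.of_forall fun _ => contMDiffAt_const)).self_of_nhds.of_le two_le_inf).div_const _
  have hC := (Γ.C_smooth_pt hb hg2).self_of_nhds.of_le two_le_inf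
  have hg0 : GoodPair E ((chartAt E m₀).symm b) (Γ.Ex m₀ b 0) := by
    rw [hm, he0]; exact Γ.good_self m₀
  refine good_of_midpoint Γ.mid hsm (Γ.surj hb (Γ.Io_subset_Ib hb (Γ.zero_mem_Io hb)) hg0)
    (by rw [he0]; exact hg1) (by rw [he0]; rwa [hm, e1] at hg2)
    (by rw [he0]; exact huniq) fun k hk => ?_
  have hgap := Γ.gap_core hb (Γ.Io_subset_Ib hb huI) hg2 hf hh (Eventually.of_forall fun q => by
    simp only [Geo.C, Prod.fst_zero, Prod.snd_zero, add_zero, he0, e1]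
    have h1 := dist_sq_div_le z (Γ.Ex m₀ b q.2) y' one_pos (by linarith : 0 < 1 + ε)
    have h2 := dist_sq_div_le (Γ.Ex m₀ b q.2) (Γ.Ex m₀ b ((1 / 2 : ℝ) • w + q.1)) y' one_pos hε0
    rw [dist_comm m₀ z, d1, d2, d3, dist_comm (Γ.Ex m₀ b q.2) z]
    rw [d4] at h1
    have h3 : ((1 / 2 - 0) * √(Γ.G p a v v)) ^ 2 / 2 + ((1 - 1 / 2) * √(Γ.G p a v v)) ^ 2 / 2 +
        ((1 + ε / 2 - 1) * √(Γ.G p a v v)) ^ 2 / (2 * ε) =
        ((1 + ε / 2 - 0) * √(Γ.G p a v v)) ^ 2 / (1 + (1 + ε)) / 2 := by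
      field_simp; ring
    have h4 : dist (Γ.Ex m₀ b ((1 / 2 : ℝ) • w + q.1)) y' ^ 2 / (2 * ε) =
        dist (Γ.Ex m₀ b ((1 / 2 : ℝ) • w + q.1)) y' ^ 2 / ε / 2 := by
      field_simp
    rw [h3, h4]
    linarith) hk
  have hfun : (fun μ => dist z (Γ.Ex m₀ b μ) ^ 2 + dist (Γ.Ex m₀ b μ) y ^ 2) =
      fun μ => 2 * (dist (Γ.Ex m₀ b μ) z ^ 2 / 2 + Γ.C m₀ b ((1 / 2 : ℝ) • w) μ) := by
    funext μ
    rw [Geo.C, e1, dist_comm z]; ring
  rw [hfun, D2_const_mul (hf.add hC), D2_add hf hC]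
  exact mul_pos two_pos hgap

theorem good_of_Io (ha : a ∈ (chartAt E p).target) {v : E} (hv : v ∈ Γ.Io p a) :
    GoodPair E ((chartAt E p).symm a) (Γ.Ex p a v) := by
  obtain ⟨δ, hδ, hδg⟩ := Γ.locGood
  have key : ∀ n : ℕ, ∀ p, ∀ a ∈ (chartAt E p).target, ∀ v ∈ Γ.Io p a,
      √(Γ.G p a v v) < 2 ^ n * δ → GoodPair E ((chartAt E p).symm a) (Γ.Ex p a v) := by
    intro n
    induction n with
    | zero =>
      intro p a ha v _ h
      exact hδg _ _ ((Γ.dist_le ha v).trans_lt (by simpa using h))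
    | succ n ih =>
      intro p a ha v hv h
      exact Γ.good_step ih ha hv (by rw [pow_succ] at h; linarith)
  obtain ⟨n, hn⟩ := pow_unbounded_of_one_lt (√(Γ.G p a v v) / δ) (one_lt_two (α := ℝ))
  exact key n p a ha v hv ((div_lt_iff₀ hδ).1 hn)

theorem good_seg (ha : a ∈ (chartAt E p).target) {v : E} (hv : v ∈ Γ.Ib p a) {s t : ℝ}
    (hs : 0 ≤ s) (hst : s ≤ t) (ht : t ≤ 1) (h : 0 < s ∨ t < 1) :
    GoodPair E (Γ.Ex p a (s • v)) (Γ.Ex p a (t • v)) := by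
  rcases lt_or_ge t 1 with ht1 | ht1
  · obtain ⟨w, hw1, hw2⟩ := Γ.flow p _ a ha v s (mem_chart_source E _)
    have hb := mem_chart_target E (Γ.Ex p a (s • v))
    have hm := (chartAt E _).left_inv (mem_chart_source E (Γ.Ex p a (s • v)))
    have h1 : (1 - s) • w ∈ Γ.Ib (Γ.Ex p a (s • v))
        (chartAt E (Γ.Ex p a (s • v)) (Γ.Ex p a (s • v))) := by
      change dist _ _ = _
      rw [hm, hw2, bil_sqrt_smul, hw1, Γ.seg ha hv hs (by linarith) (by linarith),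
        abs_of_nonneg (by linarith)]
      ring
    have hs1 : 0 < 1 - s := by linarith
    have h2 := Γ.smul_mem_Io hb h1 (s := (t - s) / (1 - s)) (div_nonneg (by linarith) hs1.le)
      ((div_lt_one hs1).2 (by linarith))
    rw [smul_smul, div_mul_cancel₀ _ hs1.ne'] at h2
    have h3 := Γ.good_of_Io hb h2
    rwa [hm, hw2, add_sub_cancel] at h3
  · have hs0 : 0 < s := h.resolve_right (not_lt.2 ht1)
    obtain ⟨w, hw1, hw2⟩ := Γ.flow p _ a ha v t (mem_chart_source E _)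
    have hb := mem_chart_target E (Γ.Ex p a (t • v))
    have hm := (chartAt E _).left_inv (mem_chart_source E (Γ.Ex p a (t • v)))
    have ht0 : 0 < t := by linarith
    have h1 : (-t) • w ∈ Γ.Ib (Γ.Ex p a (t • v))
        (chartAt E (Γ.Ex p a (t • v)) (Γ.Ex p a (t • v))) := by
      change dist _ _ = _
      rw [hm, hw2, bil_sqrt_smul, hw1, dist_comm, Γ.seg ha hv (by linarith) (by linarith) ht,
        abs_of_nonpos (by linarith)]
      ring
    have h2 := Γ.smul_mem_Io hb h1 (s := (t - s) / t) (div_nonneg (by linarith) ht0.le)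
      ((div_lt_one ht0).2 (by linarith))
    rw [smul_smul, show (t - s) / t * -t = s - t by field_simp; ring] at h2
    have h3 := Γ.good_of_Io hb h2
    rw [hm, hw2, add_sub_cancel] at h3
    exact h3.symm

include Γ in
theorem good_mid {x m y : M} (h1 : dist x m = dist x y / 2) (h2 : dist m y = dist x y / 2) :
    GoodPair E x m ∧ GoodPair E m y := by
  have ha := mem_chart_target E x
  have hx := (chartAt E x).left_inv (mem_chart_source E x)
  obtain ⟨v, hv, h3, h4⟩ := Γ.midpt ha (m := m) (y := y) (by rw [hx, h1]) (by rw [hx, h2])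
  have h5 := Γ.good_seg ha hv (s := 0) (t := 1 / 2) le_rfl (by norm_num) (by norm_num)
    (Or.inr (by norm_num))
  have h6 := Γ.good_seg ha hv (s := 1 / 2) (t := 1) (by norm_num) (by norm_num) le_rfl
    (Or.inl (by norm_num))
  rw [zero_smul, Γ.ex0 x _ ha, hx, h4] at h5
  rw [one_smul, h3, h4] at h6
  exact ⟨h5, h6⟩

theorem eventually_Io (ha : a ∈ (chartAt E p).target) {v : E} (hv : v ∈ Γ.Io p a) :
    ∀ᶠ q : E × E in 𝓝 (a, v), q.2 ∈ Γ.Io p q.1 := by
  have hg := Γ.good_of_Io ha hv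
  have h1 : Tendsto (fun q : E × E => ((chartAt E p).symm q.1, Γ.Ex p q.1 q.2)) (𝓝 (a, v))
      (𝓝 ((chartAt E p).symm a, Γ.Ex p a v)) :=
    (((chartAt E p).continuousAt_symm ha).tendsto.comp
      (continuous_fst.tendsto (a, v))).prodMk_nhds (Γ.contEx ha v).tendsto
  filter_upwards [Γ.eventually_Ib ha (Γ.Io_subset_Ib ha hv) hg, h1.eventually hg.eventually,
    (continuous_fst.tendsto (a, v)).eventually ((chartAt E p).open_target.mem_nhds ha)]
    with q h2 h3 h4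
  exact Γ.mem_Io_of_good h4 h2 h3

theorem contA (ha : a ∈ (chartAt E p).target) {v : E} (hv : v ∈ Γ.Io p a) (ξ η : E) :
    ContinuousAt (fun u => Γ.A p a u ξ η) v := by
  exact ((Γ.A_smooth_fix ha (Γ.good_of_Io ha hv)).self_of_nhds.continuousAt.clm_apply
    continuousAt_const).clm_apply continuousAt_const

theorem gap (ha : a ∈ (chartAt E p).target) {v : E} {τ σ : ℝ} (hτ : 0 < τ) (hτσ : τ < σ)
    (hv : σ • v ∈ Γ.Io p a) {ξ : E} (hξ : ξ ≠ 0) :
    τ * Γ.A p a (σ • v) ξ ξ / σ < Γ.A p a (τ • v) ξ ξ := by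
  have hσ : 0 < σ := hτ.trans hτσ
  have hvb := Γ.Io_subset_Ib ha hv
  have hsm : (τ / σ) • σ • v = τ • v := by rw [smul_smul, div_mul_cancel₀ _ hσ.ne']
  have hu : τ • v ∈ Γ.Io p a :=
    hsm ▸ Γ.smul_mem_Io ha hvb (by positivity) ((div_lt_one hσ).2 hτσ)
  have hg := Γ.good_seg ha hvb (s := τ / σ) (t := 1) (by positivity) ((div_le_one hσ).2 hτσ.le)
    le_rfl (Or.inl (by positivity))
  rw [hsm, one_smul] at hg
  have hC := (Γ.C_smooth_pt ha (Γ.good_of_Io ha hv)).self_of_nhds.of_le two_le_inf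
  have hh : ContDiffAt ℝ 2
      (fun μ => τ / (σ - τ) * (dist (Γ.Ex p a (τ • v + μ)) (Γ.Ex p a (σ • v)) ^ 2 / 2)) 0 :=
    contDiffAt_const.mul (((GoodPair.comp (f := fun μ => Γ.Ex p a (τ • v + μ))
      (g := fun _ => Γ.Ex p a (σ • v)) (by rw [add_zero]; exact hg)
      (Γ.smEx_comp (f := fun _ => a) ha contDiff_const (contDiff_const.add contDiff_id))
      (Eventually.of_forall fun _ => contMDiffAt_const)).self_of_nhds.of_le
        two_le_inf).div_const _)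
  have hd := fun s t => Γ.seg' ha hσ hvb (s := s) (t := t)
  have d1 := hd 0 σ le_rfl hσ.le le_rfl
  have d2 := hd 0 τ le_rfl hτ.le hτσ.le
  have d3 := hd τ σ hτ.le hτσ.le le_rfl
  rw [zero_smul] at d1 d2
  have hστ : 0 < σ - τ := by linarith
  have hgap := Γ.gap_core ha (Γ.Io_subset_Ib ha hu) (Γ.good_of_Io ha hu)
    (f := fun ζ => -(τ / σ) * Γ.C p a (σ • v) ζ) (contDiffAt_const.mul hC) hh
    (Eventually.of_forall fun q => by
      simp only [Geo.C, Prod.fst_zero, Prod.snd_zero, add_zero, d1, d2, d3]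
      have h1 := dist_sq_div_le (Γ.Ex p a q.2) (Γ.Ex p a (τ • v + q.1)) (Γ.Ex p a (σ • v)) hτ hστ
      rw [add_sub_cancel] at h1
      have h2 := mul_le_mul_of_nonneg_left h1 hτ.le
      have h3 : -(τ / σ) * (((σ - 0) * √(Γ.G p a v v)) ^ 2 / 2) +
          ((τ - 0) * √(Γ.G p a v v)) ^ 2 / 2 +
          τ / (σ - τ) * (((σ - τ) * √(Γ.G p a v v)) ^ 2 / 2) = 0 := by
        field_simp; ring
      rw [h3, mul_add, mul_div_cancel₀ _ hτ.ne'] at *
      have h4 : ∀ x y : ℝ, τ * (x / y) = τ / y * x := fun x y => by ring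
      rw [h4, h4] at h2
      linarith) hξ
  rw [D2_const_mul hC] at hgap
  have h5 : D2 (Γ.C p a (σ • v)) 0 ξ ξ = Γ.A p a (σ • v) ξ ξ := rfl
  rw [h5] at hgap
  have h6 : τ * Γ.A p a (σ • v) ξ ξ / σ = τ / σ * Γ.A p a (σ • v) ξ ξ := by ring
  linarith

end Geo

end Vale.Agent.P234
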