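import Vale.Agent.P234.TouB
import Vale.Agent.P234.IFT

/-! P234 Int: smooth cost implies interior point. -/

open Set Manifold Filter Metric
open scoped ContDiff Topology

namespace Vale.Agent.P234

variable {E : Type*} [NormedAddCommGroup E] [NormedSpace ℝ E] [FiniteDimensional ℝ E]
  {M : Type*} [MetricSpace M] [ChartedSpace E M] [IsManifold 𝓘(ℝ, E) ∞ M] [CompactSpace M]

namespace Geo

variable (Γ : Geo E M) {p : M} {a : E}

theorem int_chart (ha : a ∈ (chartAt E p).target) (u : E) :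
    ∀ᶠ q : (E × E) × E in 𝓝 ((a, chartAt E (Γ.Ex p a u) (Γ.Ex p a u)), u), ContDiffAt ℝ ∞
      (fun q : (E × E) × E => chartAt E (Γ.Ex p a u) (Γ.Ex p q.1.1 q.2) - q.1.2) q := by
  have h1 := Γ.smEx_comp (F := (E × E) × E) (f := fun q => q.1.1) (g := fun q => q.2)
    (t₀ := ((a, chartAt E (Γ.Ex p a u) (Γ.Ex p a u)), u)) ha (by fun_prop) (by fun_prop)
  filter_upwards [h1, h1.self_of_nhds.continuousAt.preimage_mem_nhds
    (chart_source_mem_nhds E (Γ.Ex p a u))] with q h2 h3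
  exact (contDiffAt_chart_comp (f := fun q : (E × E) × E => Γ.Ex p q.1.1 q.2) h3 h2).sub
    (by fun_prop)

theorem int_equiv (ha : a ∈ (chartAt E p).target) {u : E} (hu : u ∈ Γ.Ib p a)
    (hg : GoodPair E ((chartAt E p).symm a) (Γ.Ex p a u)) : ∃ L : E ≃L[ℝ] E,
      HasFDerivAt (fun x => chartAt E (Γ.Ex p a u) (Γ.Ex p a x)) (L : E →L[ℝ] E) u := by
  set y := Γ.Ex p a u with hy
  have hb := mem_chart_target E y
  have e0 : (chartAt E y).symm (chartAt E y y) = y := (chartAt E y).left_inv (mem_chart_source E y)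
  have h1 : ∀ᶠ q : E × E in 𝓝 (chartAt E y y, 0),
      ContDiffAt ℝ ∞ (fun q : E × E => dist (Γ.Ex p a q.2) ((chartAt E y).symm q.1) ^ 2) q :=
    GoodPair.comp (by simpa only [e0, Γ.ex0 p a ha] using hg)
      (Γ.smEx_comp (f := fun _ : E × E => a) (g := fun q => q.2) ha (by fun_prop) (by fun_prop))
      ((continuousAt_fst.eventually (contMDiffAt_chart_symm hb)).mono fun q h =>
        h.comp q contDiffAt_fst.contMDiffAt)
  obtain ⟨Lg, hLg⟩ := bil_equiv (Γ.G p a) (Γ.pos p a ha)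
  let L : E → E := fun b => Lg.symm ((-1 / 2 : ℝ) •
    fderiv ℝ (fun ζ => dist (Γ.Ex p a ζ) ((chartAt E y).symm b) ^ 2) 0)
  have h2 : DifferentiableAt ℝ L (chartAt E y y) := by
    have := (contDiffAt_fderiv_param h1).self_of_nhds.comp (chartAt E y y)
      (f := fun b => (b, (0 : E))) (by fun_prop)
    exact Lg.symm.differentiableAt.comp _
      ((this.differentiableAt (by simp)).const_smul (-1 / 2 : ℝ))
  have h3 : ∀ b, ∀ v ∈ Γ.Ib p a, Γ.Ex p a v = (chartAt E y).symm b →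
      GoodPair E ((chartAt E p).symm a) ((chartAt E y).symm b) → L b = v := fun b v hv he h => by
    simp only [L, ← he]
    rw [(Γ.hasFDerivAt_dist_sq ha hv (he ▸ h)).fderiv, smul_smul, ← hLg]
    norm_num
  have h4 : L (chartAt E y y) = u := h3 _ u hu e0.symm (by rwa [e0])
  have h5 : (fun b => chartAt E y (Γ.Ex p a (L b))) =ᶠ[𝓝 (chartAt E y y)] id := by
    have c : Tendsto (fun b => ((chartAt E p).symm a, (chartAt E y).symm b)) (𝓝 (chartAt E y y))
        (𝓝 ((chartAt E p).symm a, y)) :=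
      tendsto_const_nhds.prodMk_nhds (by
        have := ((chartAt E y).continuousAt_symm hb).tendsto
        rwa [e0] at this)
    filter_upwards [c.eventually hg.eventually, (chartAt E y).open_target.mem_nhds hb] with b h hb'
    obtain ⟨v, hv, he⟩ := Γ.hr ha ((chartAt E y).symm b)
    rw [h3 b v hv he h, he, (chartAt E y).right_inv hb', id]
  have h6 := ((contDiffAt_chart_comp (q := y) (mem_chart_source E y)
    (Γ.smEx_fix ha u)).differentiableAt (by simp)).hasFDerivAt
  set D := fderiv ℝ (fun x => chartAt E y (Γ.Ex p a x)) u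
  have h6' : HasFDerivAt (fun x => chartAt E y (Γ.Ex p a x)) D (L (chartAt E y y)) := by rwa [h4]
  have h7 := (h6'.comp (chartAt E y y) h2.hasFDerivAt).unique
    ((hasFDerivAt_id _).congr_of_eventuallyEq h5)
  have h8 : Function.Surjective D := fun w => ⟨_, congrArg (fun T : E →L[ℝ] E => T w) h7⟩
  exact ⟨(LinearEquiv.ofBijective (D : E →ₗ[ℝ] E)
    ⟨LinearMap.injective_iff_surjective.2 h8, h8⟩).toContinuousLinearEquiv, h6⟩

theorem eventually_Ib (ha : a ∈ (chartAt E p).target) {u : E} (hu : u ∈ Γ.Ib p a)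
    (hg : GoodPair E ((chartAt E p).symm a) (Γ.Ex p a u)) :
    ∀ᶠ q : E × E in 𝓝 (a, u), q.2 ∈ Γ.Ib p q.1 := by
  have := FiniteDimensional.complete ℝ E
  obtain ⟨L, hL⟩ := Γ.int_equiv ha hu hg
  obtain ⟨μ, -, -, h1⟩ := ift2 (Γ.int_chart ha u) L (hL.sub_const _)
  rw [nhds_prod_eq, eventually_prod_iff] at h1
  obtain ⟨W, hW, U, hU, h1⟩ := h1
  have c := (Γ.contEx ha u).tendsto
  have c1 := (continuousAt_fst.tendsto.prodMk_nhds c).eventually (Γ.near_min ha hu hg hU)
  have c2 := (continuousAt_fst.tendsto.prodMk_nhds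
    (((chartAt E _).continuousAt (mem_chart_source E _)).tendsto.comp c)).eventually hW
  filter_upwards [c1, c2, continuousAt_snd.tendsto.eventually hU,
    continuousAt_fst.tendsto.eventually ((chartAt E p).open_target.mem_nhds ha)] with q k1 k2 k3 k4
  obtain ⟨v, hv, he⟩ := Γ.hr k4 (Γ.Ex p q.1 q.2)
  have e1 := h1 k2 k3 (by simp)
  have e2 := h1 k2 (k1 v hv he) (by simp [he])
  exact (e1.trans e2.symm : q.2 = v) ▸ hv

theorem eventually_Ib_fix (ha : a ∈ (chartAt E p).target) {u : E} (hu : u ∈ Γ.Ib p a)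
    (hg : GoodPair E ((chartAt E p).symm a) (Γ.Ex p a u)) :
    ∀ᶠ u' in 𝓝 u, u' ∈ Γ.Ib p a :=
  (tendsto_const_nhds.prodMk_nhds tendsto_id).eventually (Γ.eventually_Ib ha hu hg)

theorem mem_Io_of_good (ha : a ∈ (chartAt E p).target) {u : E} (hu : u ∈ Γ.Ib p a)
    (hg : GoodPair E ((chartAt E p).symm a) (Γ.Ex p a u)) : u ∈ Γ.Io p a := by
  have c : Tendsto (fun c : ℝ => c • u) (𝓝[>] 1) (𝓝 u) :=
    ((by fun_prop : Continuous fun c : ℝ => c • u).tendsto' 1 u (one_smul _ _)).mono_left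
      nhdsWithin_le_nhds
  exact ((eventually_mem_nhdsWithin (a := (1 : ℝ)) (s := Ioi 1)).and
    (c.eventually (Γ.eventually_Ib_fix ha hu hg))).exists

end Geo

end Vale.Agent.P234
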