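import Vale.Agent.P234.ODE2
import Vale.Agent.P234.Gauss
import Vale.Agent.P234.IFT
import Vale.Agent.P234.Tch

/-! P234 Loc1: radial geodesics realize the distance. -/

open Set Manifold Filter Metric
open scoped ContDiff Topology

namespace Vale.Agent.P234

variable {E : Type*} [NormedAddCommGroup E] [NormedSpace ℝ E] [FiniteDimensional ℝ E]
  {M : Type*} [MetricSpace M] [ChartedSpace E M] [IsManifold 𝓘(ℝ, E) ∞ M] [CompactSpace M]

set_option linter.unusedSectionVars false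

namespace Loc1

theorem smX {G : E → E →L[ℝ] E →L[ℝ] ℝ} {T : Set E} {a₀ : E} (S : Spray G T a₀) {a v : E}
    (ha : a ∈ ball a₀ S.r) (hv : v ∈ ball (0 : E) S.r) : ContDiffAt ℝ ∞ S.X (a, v) :=
  S.smX.contDiffAt ((isOpen_ball.prod isOpen_ball).mem_nhds ⟨ha, hv⟩)

theorem dline {G : E → E →L[ℝ] E →L[ℝ] ℝ} {T : Set E} {a₀ : E} (S : Spray G T a₀) {a v : E}
    (ha : a ∈ ball a₀ S.r) {t : ℝ} (hv : t • v ∈ ball (0 : E) S.r) :
    HasDerivAt (fun s : ℝ => S.X (a, s • v)) (fderiv ℝ S.X (a, t • v) (0, v)) t := by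
  have h1 : HasDerivAt (fun s : ℝ => (a, s • v)) ((0 : E), v) t := by
    simpa using (hasDerivAt_const t a).prodMk ((hasDerivAt_id t).smul_const v)
  exact ((smX S ha hv).differentiableAt (by simp)).hasFDerivAt.comp_hasDerivAt t h1

theorem smul_mem {v : E} {r s : ℝ} (hv : v ∈ ball (0 : E) r) (hs : s ∈ Icc (-1 : ℝ) 1) :
    s • v ∈ ball (0 : E) r := by
  rw [mem_ball_zero_iff] at hv ⊢
  rw [norm_smul]
  exact (mul_le_of_le_one_left (norm_nonneg _) (abs_le.2 hs)).trans_lt hv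

theorem lip (R : RM E M) (p : M) (S : Spray (R.G p) (chartAt E p).target (chartAt E p p)) {a v : E}
    (ha : a ∈ ball (chartAt E p p) S.r) (hv : v ∈ ball (0 : E) S.r) {s t : ℝ}
    (hs : s ∈ Icc (-1 : ℝ) 1) (ht : t ∈ Icc (-1 : ℝ) 1) :
    dist ((chartAt E p).symm (S.X (a, s • v))) ((chartAt E p).symm (S.X (a, t • v))) ≤
      |s - t| * √(R.G p a v v) := by
  have m : ∀ τ ∈ Icc (0 : ℝ) 1, (s + τ * (t - s)) • v ∈ ball (0 : E) S.r := fun τ hτ =>
    smul_mem hv ⟨by nlinarith [hs.1, ht.1, hτ.1, hτ.2], by nlinarith [hs.2, ht.2, hτ.1, hτ.2]⟩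
  have := R.up p (fun τ => S.X (a, (s + τ * (t - s)) • v))
    (fun τ => (t - s) • fderiv ℝ S.X (a, (s + τ * (t - s)) • v) (0, v))
    (|s - t| * √(R.G p a v v)) (fun τ hτ => ⟨S.maps a ha _ (m τ hτ), ?_, ?_⟩) ?_
  · simpa using this
  · have h1 : HasDerivAt (fun τ : ℝ => s + τ * (t - s)) (t - s) τ := by
      simpa using ((hasDerivAt_id τ).mul_const (t - s)).const_add s
    exact (dline S ha (m τ hτ)).scomp τ h1
  · rw [bil_sqrt_smul, S.energy (chartAt E p).open_target (R.smG p) (R.symm p) ha v _ (m τ hτ),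
      abs_sub_comm]
  · refine ContinuousOn.const_smul (ContinuousOn.clm_apply ?_ continuousOn_const) _
    exact (S.smX.continuousOn_fderiv_of_isOpen (isOpen_ball.prod isOpen_ball) (by simp)).comp
      (by fun_prop) fun τ hτ => ⟨ha, m τ hτ⟩

theorem low (R : RM E M) (p : M) (S : Spray (R.G p) (chartAt E p).target (chartAt E p p)) {a v : E}
    (ha : a ∈ ball (chartAt E p p) S.r) {U : Set E} (hU : IsOpen U) (haU : a ∈ U) {μ : E → E}
    (h1 : ∀ b ∈ U, ContDiffAt ℝ ∞ μ b ∧ μ b ∈ ball (0 : E) S.r ∧ S.X (a, μ b) = b) (h0 : μ a = 0)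
    (h2 : ∀ w, R.G p a w w ≤ R.G p a v v → w ∈ ball (0 : E) S.r ∧ S.X (a, w) ∈ U ∧
      w = μ (S.X (a, w))) (hK : IsCompact {w | R.G p a w w ≤ R.G p a v v}) :
    √(R.G p a v v) ≤ dist ((chartAt E p).symm a) ((chartAt E p).symm (S.X (a, v))) := by
  refine le_of_forall_pos_le_add fun ε hε => ?_
  have n0 := bil_nonneg _ (R.pos p a (S.ball_sub ha))
  have p0 : ∀ w, 0 < R.G p a w w + ε ^ 2 := fun w => add_pos_of_nonneg_of_pos (n0 w) (by positivity)
  have hUt : U ⊆ (chartAt E p).target := fun b hb => (h1 b hb).2.2 ▸ S.maps a ha _ (h1 b hb).2.1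
  obtain ⟨v1, v2, v3⟩ := h2 v le_rfl
  have key := R.cal p U (fun b => √(R.G p a (μ b) (μ b) + ε ^ 2)) √(R.G p a v v + ε ^ 2) hU hUt
    (fun b hb => ?_) (fun b hb J => ?_) ?_ a haU _ v2 (by rw [← v3])
  · simp only [← v3, h0, map_zero, zero_add, Real.sqrt_sq hε.le] at key
    have := Real.sqrt_le_sqrt (le_add_of_nonneg_right (sq_nonneg ε) :
      R.G p a v v ≤ R.G p a v v + ε ^ 2)
    linarith
  · have := (h1 b hb).1.of_le (show (1 : WithTop ℕ∞) ≤ ∞ by simp)
    exact ((((contDiffAt_const.clm_apply this).clm_apply this).add contDiffAt_const).sqrt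
      (p0 _).ne').contDiffWithinAt
  · obtain ⟨a1, a2, a3⟩ := h1 b hb
    have d1 := (a1.differentiableAt (by simp)).hasFDerivAt
    have d2 : HasFDerivAt (fun b => S.X (a, μ b))
        ((fderiv ℝ S.X (a, μ b)).comp ((0 : E →L[ℝ] E).prod (fderiv ℝ μ b))) b :=
      HasFDerivAt.comp (g := S.X) b ((smX S ha a2).differentiableAt (by simp)).hasFDerivAt
        ((hasFDerivAt_const a b).prodMk d1)
    have d3 : fderiv ℝ S.X (a, μ b) (0, fderiv ℝ μ b J) = J := by
      have := DFunLike.congr_fun (d2.unique ((hasFDerivAt_id b).congr_of_eventuallyEq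
        ((hU.eventually_mem hb).mono fun b' hb' => (h1 b' hb').2.2))) J
      simpa using this
    have d4 := ((((R.G p a).hasFDerivAt.comp b d1).clm_apply d1).add_const (ε ^ 2)).sqrt (p0 _).ne'
    have g1 := S.gauss (chartAt E p).open_target (R.smG p) (R.symm p) ha a2 (fderiv ℝ μ b J)
    have g2 := S.energy (chartAt E p).open_target (R.smG p) (R.symm p) ha (μ b) 1
      (by rwa [one_smul])
    rw [one_smul, a3] at g2
    rw [d3, a3] at g1
    have g3 := bil_cs _ (R.symm p b) (R.pos p b (hUt hb)) (fderiv ℝ S.X (a, μ b) (0, μ b)) J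
    rw [g1, g2] at g3
    have g4 := Real.sqrt_le_sqrt (le_add_of_nonneg_right (sq_nonneg ε) :
      R.G p a (μ b) (μ b) ≤ R.G p a (μ b) (μ b) + ε ^ 2)
    have g5 := Real.sqrt_pos.2 (p0 (μ b))
    erw [d4.fderiv]
    simp only [ContinuousLinearMap.smul_apply, ContinuousLinearMap.add_apply,
      ContinuousLinearMap.comp_apply, ContinuousLinearMap.flip_apply, Function.comp, smul_eq_mul]
    rw [R.symm p a (fderiv ℝ μ b J), one_div, inv_mul_le_iff₀ (by positivity)]
    nlinarith [Real.sqrt_nonneg (R.G p b J J)]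
  · have e : {b ∈ U | √(R.G p a (μ b) (μ b) + ε ^ 2) ≤ √(R.G p a v v + ε ^ 2)} =
        (fun w => S.X (a, w)) '' {w | R.G p a w w ≤ R.G p a v v} := by
      ext b
      simp only [mem_setOf_eq, mem_image, Real.sqrt_le_sqrt_iff (p0 v).le, add_le_add_iff_right]
      exact ⟨fun h => ⟨μ b, h.2, (h1 b h.1).2.2⟩, fun ⟨w, hw, e⟩ =>
        e ▸ ⟨(h2 w hw).2.1, (h2 w hw).2.2 ▸ hw⟩⟩
    rw [e]
    exact hK.image_of_continuousOn fun w hw => ((smX S ha (h2 w hw).1).continuousAt.comp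
      (f := fun w => (a, w)) (by fun_prop)).continuousWithinAt

end Loc1

open Loc1

theorem RM.exists_loc (R : RM E M) (p : M) : Nonempty (Loc R p) := by
  have hp : chartAt E p p ∈ (chartAt E p).target := mem_chart_target E p
  obtain ⟨S⟩ := exists_spray (R.G p) (chartAt E p).open_target (R.smG p) hp (R.pos p _ hp)
  have a0 : chartAt E p p ∈ ball (chartAt E p p) S.r := mem_ball_self S.r_pos
  have z0 : (0 : E) ∈ ball (0 : E) S.r := mem_ball_self S.r_pos
  have x0 := S.X0 _ a0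
  obtain ⟨μ, m0, m1, m2⟩ := ift2 (Φ := fun q : (E × E) × E => S.X (q.1.1, q.2) - q.1.2)
    (θ₀ := (chartAt E p p, chartAt E p p)) (x₀ := 0) (by
      have : Tendsto (fun q : (E × E) × E => (q.1.1, q.2)) (𝓝 ((chartAt E p p, chartAt E p p), 0))
          (𝓝 (chartAt E p p, 0)) := Continuous.tendsto' (by fun_prop) _ _ rfl
      filter_upwards [this.eventually ((isOpen_ball.prod isOpen_ball).mem_nhds ⟨a0, z0⟩)] with q hq
      exact ((smX S hq.1 hq.2).comp q (f := fun q : (E × E) × E => (q.1.1, q.2))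
        (by fun_prop)).sub (by fun_prop)) (ContinuousLinearEquiv.refl ℝ E) (by
      have d : HasFDerivAt (fun v => S.X (chartAt E p p, v))
          ((fderiv ℝ S.X (chartAt E p p, 0)).comp (ContinuousLinearMap.inr ℝ E E)) 0 :=
        HasFDerivAt.comp (g := S.X) 0 ((smX S a0 z0).differentiableAt (by simp)).hasFDerivAt
          (hasFDerivAt_prodMk_right _ _)
      refine (d.sub_const _).congr_fderiv ?_
      ext v
      simpa using S.dX0 _ a0 v)
  simp only [x0, sub_self, sub_eq_zero] at m1 m2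
  have mc : Tendsto μ (𝓝 (chartAt E p p, chartAt E p p)) (𝓝 0) :=
    m0 ▸ m1.self_of_nhds.1.continuousAt.tendsto
  have xc : Tendsto S.X (𝓝 (chartAt E p p, 0)) (𝓝 (chartAt E p p)) := by
    have := (smX S a0 z0).continuousAt.tendsto
    rwa [x0] at this
  obtain ⟨ρ1, hρ1, k1⟩ := Metric.eventually_nhds_iff_ball.1
    (m1.and (mc.eventually (isOpen_ball.mem_nhds z0)))
  obtain ⟨ρ2, hρ2, k2⟩ := Metric.eventually_nhds_iff_ball.1 m2
  simp only [← ball_prod_same] at k1 k2
  set r1 := min S.r (min ρ1 ρ2) with hr1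
  have r10 : 0 < r1 := lt_min S.r_pos (lt_min hρ1 hρ2)
  have r1a : r1 ≤ S.r := min_le_left _ _
  have r1b : r1 ≤ ρ1 := (min_le_right _ _).trans (min_le_left _ _)
  have r1c : r1 ≤ ρ2 := (min_le_right _ _).trans (min_le_right _ _)
  clear_value r1
  obtain ⟨ρ3, hρ3, k3⟩ := Metric.eventually_nhds_iff_ball.1
    (xc.eventually (ball_mem_nhds (chartAt E p p) r10))
  have gc : ContinuousAt (R.G p) (chartAt E p p) :=
    (R.smG p).continuousOn.continuousAt ((chartAt E p).open_target.mem_nhds hp)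
  obtain ⟨C, hC, k4⟩ := bil_lower gc (R.pos p _ hp)
  have gc2 : Tendsto (fun q : E × E => C * √(R.G p q.1 q.2 q.2)) (𝓝 (chartAt E p p, 0)) (𝓝 0) := by
    have : ContinuousAt (fun q : E × E => C * √(R.G p q.1 q.2 q.2)) (chartAt E p p, 0) :=
      continuousAt_const.mul ((((gc.comp (f := Prod.fst) continuousAt_fst).clm_apply
        continuousAt_snd).clm_apply continuousAt_snd).sqrt)
    simpa using this.tendsto
  obtain ⟨ρ4, hρ4, k5⟩ := Metric.eventually_nhds_iff_ball.1
    ((gc2.eventually (gt_mem_nhds (lt_min r10 hρ3))).and (continuous_fst.continuousAt.eventually k4))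
  simp only [← ball_prod_same] at k3 k5
  set r := min r1 (min ρ3 ρ4) with hr
  have r0 : 0 < r := lt_min r10 (lt_min hρ3 hρ4)
  have ra : r ≤ r1 := min_le_left _ _
  have rb : r ≤ ρ3 := (min_le_right _ _).trans (min_le_left _ _)
  have rc : r ≤ ρ4 := (min_le_right _ _).trans (min_le_right _ _)
  clear_value r
  obtain ⟨ρ5, hρ5, k6⟩ := Metric.eventually_nhds_iff_ball.1 (mc.eventually (ball_mem_nhds 0 r0))
  simp only [← ball_prod_same] at k6
  have rS := ra.trans r1a
  have uq : ∀ a ∈ ball (chartAt E p p) r, ∀ w ∈ ball (0 : E) (min r1 ρ3),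
      S.X (a, w) ∈ ball (chartAt E p p) r1 ∧ w = μ (a, S.X (a, w)) := fun a ha w hw => by
    have b1 := k3 (a, w) ⟨ball_subset_ball rb ha, ball_subset_ball (min_le_right _ _) hw⟩
    exact ⟨b1, k2 ((a, S.X (a, w)), w) ⟨⟨ball_subset_ball (ra.trans r1c) ha,
      ball_subset_ball r1c b1⟩, ball_subset_ball ((min_le_left _ _).trans r1c) hw⟩ rfl⟩
  have q1 : min ρ5 r ≤ ρ1 := (min_le_right _ _).trans (ra.trans r1b)
  refine ⟨⟨S.X, μ, r, min ρ5 r, lt_min hρ5 r0, min_le_right _ _,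
    (ball_subset_ball rS).trans S.ball_sub,
    S.smX.mono (prod_mono (ball_subset_ball rS) (ball_subset_ball rS)),
    fun a ha v hv => S.maps a (ball_subset_ball rS ha) v (ball_subset_ball rS hv),
    fun a ha => S.X0 a (ball_subset_ball rS ha), fun a ha v => ?_, fun a ha v hv w hw e => ?_,
    fun a ha v hv => le_antisymm ?_ ?_,
    fun a ha v hv s hs t ht => lip R p S (ball_subset_ball rS ha) (ball_subset_ball rS hv) hs ht,
    fun q hq => (k1 q ⟨ball_subset_ball q1 hq.1, ball_subset_ball q1 hq.2⟩).1.1.contDiffWithinAt,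
    fun a ha b hb => k6 (a, b) ⟨ball_subset_ball (min_le_left _ _) ha,
      ball_subset_ball (min_le_left _ _) hb⟩,
    fun a ha b hb => (k1 (a, b) ⟨ball_subset_ball q1 ha, ball_subset_ball q1 hb⟩).1.2⟩⟩
  · have := dline S (ball_subset_ball rS ha) (v := v) (t := 0) (by rwa [zero_smul])
    rwa [zero_smul, S.dX0 a (ball_subset_ball rS ha)] at this
  · rw [(uq a ha v (ball_subset_ball (le_min ra rb) hv)).2,
      (uq a ha w (ball_subset_ball (le_min ra rb) hw)).2]
    exact congrArg (fun b => μ (a, b)) e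
  · have := lip R p S (ball_subset_ball rS ha) (ball_subset_ball rS hv) (s := 0) (t := 1)
      ⟨by norm_num, by norm_num⟩ ⟨by norm_num, le_rfl⟩
    simpa [S.X0 a (ball_subset_ball rS ha)] using this
  · obtain ⟨b1, b2⟩ := k5 (a, v) ⟨ball_subset_ball rc ha, ball_subset_ball rc hv⟩
    have b3 : ∀ w, R.G p a w w ≤ R.G p a v v → w ∈ ball (0 : E) (min r1 ρ3) := fun w hw =>
      mem_ball_zero_iff.2 ((b2 w).trans_lt ((mul_le_mul_of_nonneg_left (Real.sqrt_le_sqrt hw)
        hC.le).trans_lt b1))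
    refine low R p S (ball_subset_ball rS ha) (U := ball (chartAt E p p) r1) isOpen_ball
      (ball_subset_ball ra ha) (μ := fun b => μ (a, b)) (fun b hb => ?_) ?_ (fun w hw =>
        ⟨ball_subset_ball ((min_le_left _ _).trans r1a) (b3 w hw), uq a ha w (b3 w hw)⟩) ?_
    · obtain ⟨⟨c1, c2⟩, c3⟩ := k1 (a, b) ⟨ball_subset_ball (ra.trans r1b) ha,
        ball_subset_ball r1b hb⟩
      exact ⟨c1.comp b (f := fun b => (a, b)) (by fun_prop), c3, c2⟩
    · have := (uq a ha 0 (mem_ball_self (lt_min r10 hρ3))).2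
      rw [S.X0 a (ball_subset_ball rS ha)] at this
      exact this.symm
    · exact Metric.isCompact_of_isClosed_isBounded (isClosed_le (by fun_prop) continuous_const)
        (isBounded_ball.subset b3)

end Vale.Agent.P234
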