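import Vale.Agent.P234.Conc
import Vale.Agent.P234.Ult

/-! P234 Open: the property R is open to the right. -/

open Set Manifold Filter Metric
open scoped ContDiff Topology

namespace Vale.Agent.P234

variable {E : Type*} [NormedAddCommGroup E] [NormedSpace ℝ E] [FiniteDimensional ℝ E]
  {M : Type*} [MetricSpace M] [ChartedSpace E M] [IsManifold 𝓘(ℝ, E) ∞ M] [CompactSpace M]

namespace Geo

variable (Γ : Geo E M) {p : M} {a : E}

/-- The conclusion of `R` for given data. -/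
def Rat (τ : ℝ) (p : M) (a : E) (v : Fin (Module.finrank ℝ E + 1) → E)
    (l : Fin (Module.finrank ℝ E + 1) → ℝ) : Prop :=
  τ • ∑ i, l i • v i ∈ Γ.Io p a ∧
    ∀ x, x ≠ (chartAt E p).symm a → ∃ i,
      0 < τ * (dist ((chartAt E p).symm a) (Γ.Ex p a (v i)) ^ 2 / 2 -
          dist x (Γ.Ex p a (v i)) ^ 2 / 2) +
        dist x (Γ.Ex p a (τ • ∑ i, l i • v i)) ^ 2 / 2 -
        dist ((chartAt E p).symm a) (Γ.Ex p a (τ • ∑ i, l i • v i)) ^ 2 / 2

theorem Rat_trans {q : M} (ha : a ∈ (chartAt E p).target)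
    (hq : (chartAt E p).symm a ∈ (chartAt E q).source) {τ : ℝ}
    (h : ∀ v l, (∀ i, v i ∈ Γ.Ib q (chartAt E q ((chartAt E p).symm a))) → l ∈ stdSimplex ℝ _ →
      Γ.Rat τ q (chartAt E q ((chartAt E p).symm a)) v l) :
    ∀ v l, (∀ i, v i ∈ Γ.Ib p a) → l ∈ stdSimplex ℝ _ → Γ.Rat τ p a v l := by
  obtain ⟨T, hG, hE⟩ := Γ.trans p q a ha hq
  have hz := (chartAt E q).left_inv hq
  have hIb : ∀ v, T v ∈ Γ.Ib q (chartAt E q ((chartAt E p).symm a)) ↔ v ∈ Γ.Ib p a := by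
    intro v
    simp only [Ib, mem_setOf_eq, hG, hE, hz]
  intro v l hv hl
  obtain ⟨h1, h2⟩ := h (fun i => T (v i)) l (fun i => (hIb _).2 (hv i)) hl
  have he : τ • ∑ i, l i • T (v i) = T (τ • ∑ i, l i • v i) := by simp [map_sum]
  rw [he] at h1 h2
  simp only [hE, hz] at h2
  refine ⟨?_, h2⟩
  obtain ⟨c, hc, hc'⟩ := h1
  exact ⟨c, hc, (hIb _).1 (by rwa [map_smul])⟩

theorem tay_C {κ : Type*} {l : Filter κ} (ha : a ∈ (chartAt E p).target) {u ξ : E}
    (hu : u ∈ Γ.Io p a) {bk uk ξk : κ → E} {rk : κ → ℝ} (hb : Tendsto bk l (𝓝 a))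
    (huk : Tendsto uk l (𝓝 u)) (hr : Tendsto rk l (𝓝[>] 0)) (hξ : Tendsto ξk l (𝓝 ξ)) :
    Tendsto (fun k => (Γ.C p (bk k) (uk k) (rk k • ξk k) - Γ.C p (bk k) (uk k) 0 +
      rk k * Γ.G p (bk k) (uk k) (ξk k)) / rk k ^ 2) l (𝓝 (Γ.A p a u ξ ξ / 2)) := by
  have hF := (Γ.C_smooth ha (Γ.good_of_Io ha hu)).self_of_nhds.of_le two_le_inf
  have h := tay2 hF (hb.prodMk_nhds huk) (tendsto_ne_of_gt hr) hξ
  refine h.congr' ?_
  filter_upwards [(hb.prodMk_nhds huk).eventually (Γ.eventually_Io ha hu),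
    hb.eventually ((chartAt E p).open_target.mem_nhds ha)] with k hk hk'
  have h1 := (Γ.hasFDerivAt_C hk' (Γ.Io_subset_Ib hk' hk) (Γ.good_of_Io hk' hk)).fderiv
  have h2 : fderiv ℝ (fun z => Γ.C p (bk k) (uk k) z) 0 = -Γ.G p (bk k) (uk k) := h1
  simp only [h2, ContinuousLinearMap.neg_apply]
  ring

theorem R_open_loc (hM : Γ.MTW) {τ₀ : ℝ} (h0 : 0 ≤ τ₀) (h1 : τ₀ < 1) (hR : Γ.R τ₀)
    (ha : a ∈ (chartAt E p).target) :
    ∀ᶠ q : ℝ × E in 𝓝 (τ₀, a), τ₀ < q.1 → ∀ v l, (∀ i, v i ∈ Γ.Ib p q.2) →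
      l ∈ stdSimplex ℝ _ → Γ.Rat q.1 p q.2 v l := by
  by_contra hcon
  obtain ⟨κ, U, f, hU, hf⟩ := ultra_of_not_eventually hcon
  have hbad : ∀ k : κ, τ₀ < (f k).1 ∧ ∃ v l, (∀ i, v i ∈ Γ.Ib p (f k).2) ∧
      l ∈ stdSimplex ℝ _ ∧ ¬Γ.Rat (f k).1 p (f k).2 v l := by
    intro k
    have := hf k
    push Not at this
    exact this
  have hgt := fun k => (hbad k).1
  choose v l hv hl hnot using fun k => (hbad k).2
  have hτ : Tendsto (fun k => (f k).1) U (𝓝 τ₀) := (continuous_fst.tendsto _).comp hU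
  have hb : Tendsto (fun k => (f k).2) U (𝓝 a) := (continuous_snd.tendsto _).comp hU
  have hbt := hb.eventually ((chartAt E p).open_target.mem_nhds ha)
  haveI : ProperSpace E := FiniteDimensional.proper_real E
  obtain ⟨C, hC⟩ := Γ.Ib_bdd ha
  have hv0 : ∀ i, ∃ w, Tendsto (fun k => v k i) U (𝓝 w) := by
    intro i
    obtain ⟨w, -, hw⟩ := ultra_lim U (isCompact_closedBall (0 : E) C) (u := fun k => v k i) (by
      filter_upwards [hb.eventually hC] with k hk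
      exact mem_closedBall_zero_iff.2 (hk _ (hv k i)))
    exact ⟨w, hw⟩
  choose v₀ hv₀ using hv0
  obtain ⟨l₀, hl₀, hll⟩ := ultra_lim U (isCompact_stdSimplex ℝ _) (u := l) (Eventually.of_forall hl)
  have hli : ∀ i, Tendsto (fun k => l k i) U (𝓝 (l₀ i)) := fun i =>
    ((continuous_apply i).tendsto _).comp hll
  have hv₀I : ∀ i, v₀ i ∈ Γ.Ib p a := fun i =>
    Γ.Ib_closed ha hb (hv₀ i) (Eventually.of_forall fun k => hv k i)
  have hP : Tendsto (fun k => ∑ i, l k i • v k i) U (𝓝 (∑ i, l₀ i • v₀ i)) :=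
    tendsto_finsetSum _ fun i _ => (hli i).smul (hv₀ i)
  have hτP := hτ.smul hP
  obtain ⟨hR1, hR2⟩ := hR p a ha v₀ l₀ hv₀I hl₀
  have hIo := (hb.prodMk_nhds hτP).eventually (Γ.eventually_Io ha hR1)
  obtain ⟨x, hx⟩ := ev_choice (l := (U : Filter κ)) (fun k (x : M) =>
      x ≠ (chartAt E p).symm (f k).2 ∧ ∀ i,
      (f k).1 * (dist ((chartAt E p).symm (f k).2) (Γ.Ex p (f k).2 (v k i)) ^ 2 / 2 -
          dist x (Γ.Ex p (f k).2 (v k i)) ^ 2 / 2) +
        dist x (Γ.Ex p (f k).2 ((f k).1 • ∑ i, l k i • v k i)) ^ 2 / 2 -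
        dist ((chartAt E p).symm (f k).2)
          (Γ.Ex p (f k).2 ((f k).1 • ∑ i, l k i • v k i)) ^ 2 / 2 ≤ 0) (by
    filter_upwards [hIo] with k hk
    have := hnot k
    simp only [Rat, not_and_or] at this
    have h2 := this.resolve_left (not_not.2 hk)
    push Not at h2
    exact h2)
  obtain ⟨x₀, -, hx₀⟩ := ultra_lim U isCompact_univ (u := x) (Eventually.of_forall fun _ => trivial)
  have hz : Tendsto (fun k => (chartAt E p).symm (f k).2) U (𝓝 ((chartAt E p).symm a)) :=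
    ((chartAt E p).continuousAt_symm ha).tendsto.comp hb
  have hy : ∀ i, Tendsto (fun k => Γ.Ex p (f k).2 (v k i)) U (𝓝 (Γ.Ex p a (v₀ i))) := fun i =>
    (Γ.contEx ha (v₀ i)).tendsto.comp (hb.prodMk_nhds (hv₀ i))
  have hy' : Tendsto (fun k => Γ.Ex p (f k).2 ((f k).1 • ∑ i, l k i • v k i)) U
      (𝓝 (Γ.Ex p a (τ₀ • ∑ i, l₀ i • v₀ i))) :=
    (Γ.contEx ha _).tendsto.comp (hb.prodMk_nhds hτP)
  by_cases hxz : x₀ = (chartAt E p).symm a
  swap
  · obtain ⟨i, hi⟩ := hR2 x₀ hxz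
    have ht := ((hτ.mul ((((hz.dist (hy i)).pow 2).div_const 2).sub
      (((hx₀.dist (hy i)).pow 2).div_const 2))).add (((hx₀.dist hy').pow 2).div_const 2)).sub
      (((hz.dist hy').pow 2).div_const 2)
    have := le_of_tendsto ht (hx.mono fun k hk => hk.2 i)
    linarith
  rw [hxz] at hx₀
  obtain ⟨ζ, hζ⟩ := ev_choice (l := (U : Filter κ)) (fun k (ζ : E) => ζ ∈ Γ.Ib p (f k).2 ∧
      Γ.Ex p (f k).2 ζ = x k) (by
    filter_upwards [hbt] with k hk
    exact Γ.hr hk (x k))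
  have hζ0 : Tendsto ζ U (𝓝 0) := by
    obtain ⟨C', -, hC'⟩ := bil_lower (Γ.contG ha) (Γ.pos p a ha)
    have h1' := (hz.dist hx₀).const_mul C'
    simp only [dist_self, mul_zero] at h1'
    refine squeeze_zero_norm' ?_ h1'
    filter_upwards [hζ, hb.eventually hC'] with k hk hk'
    have h2' : dist ((chartAt E p).symm (f k).2) (Γ.Ex p (f k).2 (ζ k)) = _ := hk.1
    rw [← hk.2, h2']
    exact hk' _
  have hζne : ∀ᶠ k in (U : Filter κ), ζ k ≠ 0 := by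
    filter_upwards [hζ, hx, hbt] with k hk hk' hk''
    intro h
    apply hk'.1
    rw [← hk.2, h, Γ.ex0 p _ hk'']
  obtain ⟨r, ξk, ξ, hξ0, hr, hξ, hζr⟩ := ultra_dir U hζ0 hζne
  set σ := (1 + τ₀) / 2 with hσ
  have hσ0 : 0 < σ := by rw [hσ]; linarith
  have hσ1 : σ < 1 := by rw [hσ]; linarith
  have hτσ : τ₀ < σ := by rw [hσ]; linarith
  have hs1 := fun i => Γ.tay_C ha (Γ.smul_mem_Io ha (hv₀I i) hσ0.le hσ1) hb
    ((hv₀ i).const_smul σ) hr hξ
  have hs2 := Γ.tay_C ha hR1 hb hτP hr hξ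
  have hG : Tendsto (fun k => Γ.G p (f k).2) U (𝓝 (Γ.G p a)) := (Γ.contG ha).tendsto.comp hb
  have hbb : ∀ i, Tendsto (fun k => (f k).1 * Γ.G p (f k).2 (v k i - ∑ j, l k j • v k j) (ξk k)) U
      (𝓝 (τ₀ * Γ.G p a (v₀ i - ∑ j, l₀ j • v₀ j) ξ)) := by
    intro i
    refine hτ.mul ?_
    have h1' := ((isBoundedBilinearMap_apply (𝕜 := ℝ) (E := E) (F := E →L[ℝ] ℝ)).continuous.tendsto
      _).comp (hG.prodMk_nhds ((hv₀ i).sub hP))
    exact ((isBoundedBilinearMap_apply (𝕜 := ℝ) (E := E) (F := ℝ)).continuous.tendsto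
      _).comp (h1'.prodMk_nhds hξ)
  obtain ⟨hf1, hf2⟩ := fm hr hli hbb (fun i => hs2.sub ((hτ.mul (hs1 i)).div_const σ))
    (fun k i => (hl k).1 i) (fun k => by
      have h1' : ∑ i, l k i • (v k i - ∑ j, l k j • v k j) = 0 := by
        simp only [smul_sub, Finset.sum_sub_distrib, ← Finset.sum_smul, (hl k).2, one_smul,
          sub_self]
      have h2' := congrArg (fun w => (f k).1 * Γ.G p (f k).2 w (ξk k)) h1'
      simp only [map_sum, map_smul, ContinuousLinearMap.sum_apply, ContinuousLinearMap.smul_apply,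
        smul_eq_mul, map_zero, ContinuousLinearMap.zero_apply, mul_zero, Finset.mul_sum] at h2'
      rw [← h2']
      exact Finset.sum_congr rfl fun i _ => by ring) (by
      filter_upwards [hζ, hx, hbt, hr.eventually self_mem_nhdsWithin] with k hk hk' hk'' hrk i
      have hrk' : 0 < r k := hrk
      have h1' := Γ.support hk'' (hv k i) hσ0 hσ1 (ζ k)
      have h2' := hk'.2 i
      have hτk : 0 ≤ (f k).1 := h0.trans (hgt k).le
      have h3' := mul_le_mul_of_nonneg_left h1' hτk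
      have h4' : Γ.C p (f k).2 ((f k).1 • ∑ i, l k i • v k i) (ζ k) =
          dist (x k) (Γ.Ex p (f k).2 ((f k).1 • ∑ i, l k i • v k i)) ^ 2 / 2 := by
        rw [Geo.C, hk.2]
      have h5' : Γ.C p (f k).2 ((f k).1 • ∑ i, l k i • v k i) 0 =
          dist ((chartAt E p).symm (f k).2) (Γ.Ex p (f k).2 ((f k).1 • ∑ i, l k i • v k i)) ^ 2 / 2 := by
        rw [Geo.C, Γ.ex0 p _ hk'']
      rw [hk.2] at h3'
      rw [← h4', ← h5'] at h2'
      rw [← hζr k]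
      simp only [map_smul, map_sub, ContinuousLinearMap.smul_apply, ContinuousLinearMap.sub_apply,
        smul_eq_mul]
      refine le_trans (le_of_eq ?_) (show (f k).1 * ((Γ.C p (f k).2 (σ • v k i) 0 -
        Γ.C p (f k).2 (σ • v k i) (ζ k)) / σ) + Γ.C p (f k).2 ((f k).1 • ∑ i, l k i • v k i) (ζ k) -
        Γ.C p (f k).2 ((f k).1 • ∑ i, l k i • v k i) 0 ≤ 0 by linarith)
      field_simp
      ring)
  have hh := Γ.hess hM hR h0 hτσ hσ1 ha hv₀I hl₀ hξ0 hf1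
  have he : ∑ i, l₀ i * (Γ.A p a (τ₀ • ∑ i, l₀ i • v₀ i) ξ ξ / 2 -
      τ₀ * (Γ.A p a (σ • v₀ i) ξ ξ / 2) / σ) = (Γ.A p a (τ₀ • ∑ i, l₀ i • v₀ i) ξ ξ -
      τ₀ * (∑ i, l₀ i * Γ.A p a (σ • v₀ i) ξ ξ) / σ) / 2 := by
    simp only [mul_sub, Finset.sum_sub_distrib, ← Finset.sum_mul, hl₀.2, one_mul, Finset.mul_sum,
      Finset.sum_div, sub_div]
    congr 1
    exact Finset.sum_congr rfl fun i _ => by ring
  rw [he] at hf2
  linarith

theorem R_open (hM : Γ.MTW) {τ₀ : ℝ} (h0 : 0 ≤ τ₀) (h1 : τ₀ < 1) (hR : Γ.R τ₀) :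
    ∀ᶠ τ in 𝓝[>] τ₀, Γ.R τ := by
  have key := isCompact_univ.eventually_forall_of_forall_eventually (x₀ := τ₀)
    (P := fun (τ : ℝ) (x : M) => τ₀ < τ → ∀ p, ∀ a ∈ (chartAt E p).target,
      (chartAt E p).symm a = x → ∀ v l, (∀ i, v i ∈ Γ.Ib p a) → l ∈ stdSimplex ℝ _ →
      Γ.Rat τ p a v l) (by
    intro z _
    have h2 := Γ.R_open_loc hM h0 h1 hR (mem_chart_target E z)
    have h3 : Tendsto (fun q : ℝ × M => (q.1, chartAt E z q.2)) (𝓝 (τ₀, z))
        (𝓝 (τ₀, chartAt E z z)) :=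
      (continuous_fst.tendsto _).prodMk_nhds
        (((chartAt E z).continuousAt (mem_chart_source E z)).tendsto.comp
          (continuous_snd.tendsto _))
    filter_upwards [h3.eventually h2, (continuous_snd.tendsto (τ₀, z)).eventually
      (chart_source_mem_nhds E z)] with q hq hq' hτ p a ha hax
    refine Γ.Rat_trans (q := z) ha (by rw [hax]; exact hq') ?_
    rw [hax]
    exact hq hτ)
  filter_upwards [nhdsWithin_le_nhds key, self_mem_nhdsWithin] with τ hτ hτ' p a ha v l hv hl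
  exact hτ _ trivial hτ' p a ha rfl v l hv hl

end Geo

end Vale.Agent.P234
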