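import Vale.Agent.P234.Bl
import Vale.Agent.P234.Open
import Vale.Agent.P234.Phi

/-! P234 Strict: strict local minimum of the broken functional. -/

open Set Manifold Filter Metric
open scoped ContDiff Topology

namespace Vale.Agent.P234

variable {E : Type*} [NormedAddCommGroup E] [NormedSpace ℝ E] [FiniteDimensional ℝ E]
  {M : Type*} [MetricSpace M] [ChartedSpace E M] [IsManifold 𝓘(ℝ, E) ∞ M] [CompactSpace M]

namespace Geo

variable (Γ : Geo E M) {p : M} {a : E}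

theorem exists_lift {κ : Type*} {L : Filter κ} (ha : a ∈ (chartAt E p).target) {u : E}
    (hu : u ∈ Γ.Io p a) {x : κ → M} (hx : Tendsto x L (𝓝 (Γ.Ex p a u))) :
    ∃ uk : κ → E, Tendsto uk L (𝓝 u) ∧ ∀ k, Γ.Ex p a (uk k) = x k := by
  choose uk h1 h2 using fun k => Γ.hr ha (x k)
  refine ⟨uk, fun U hU => ?_, h2⟩
  have h3 := (tendsto_const_nhds.prodMk_nhds hx).eventually
    (Γ.near_min ha (Γ.Io_subset_Ib ha hu) (Γ.good_of_Io ha hu) hU)
  exact h3.mono fun k hk => hk _ (h1 k) (h2 k)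

theorem strict (hM : Γ.MTW) {τ : ℝ} (hτ0 : 0 < τ) (hτ1 : τ < 1) (hR : ∀ σ ∈ Ico 0 τ, Γ.R σ)
    (ha : a ∈ (chartAt E p).target)
    {v : Fin (Module.finrank ℝ E + 1) → E} {l : Fin (Module.finrank ℝ E + 1) → ℝ}
    (hv : ∀ i, v i ∈ Γ.Ib p a) (hl : l ∈ stdSimplex ℝ _) {w : E} (hw : w = τ • ∑ j, l j • v j)
    (hwI : w ∈ Γ.Ib p a) (hQ : ∀ k, k ≠ 0 → 0 < Γ.Q p a w k k) :
    ∀ᶠ q : M × M in 𝓝 ((chartAt E p).symm a, Γ.Ex p a ((1 / 2 : ℝ) • w)),
      q ≠ ((chartAt E p).symm a, Γ.Ex p a ((1 / 2 : ℝ) • w)) →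
      dist ((chartAt E p).symm a) (Γ.Ex p a w) ^ 2 / 2 <
        τ * phi (fun i => dist ((chartAt E p).symm a) (Γ.Ex p a (v i)) ^ 2 / 2)
          (fun i => Γ.Ex p a (v i)) q.1 + dist q.1 q.2 ^ 2 + dist q.2 (Γ.Ex p a w) ^ 2 := by
  by_contra hcon
  obtain ⟨κ, U, f, hU, hf⟩ := ultra_of_not_eventually hcon
  push Not at hf
  have hx : Tendsto (fun k => (f k).1) U (𝓝 (Γ.Ex p a 0)) := by
    rw [Γ.ex0 p a ha]; exact (continuous_fst.tendsto _).comp hU
  have hm : Tendsto (fun k => (f k).2) U (𝓝 (Γ.Ex p a ((1 / 2 : ℝ) • w))) :=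
    (continuous_snd.tendsto _).comp hU
  obtain ⟨ζ, hζ, hζe⟩ := Γ.exists_lift ha (Γ.zero_mem_Io ha) hx
  obtain ⟨u, hu, hue⟩ := Γ.exists_lift ha
    (Γ.smul_mem_Io ha hwI (s := 1 / 2) (by norm_num) (by norm_num)) hm
  have hμ : Tendsto (fun k => u k - (1 / 2 : ℝ) • w) U (𝓝 0) := by
    simpa using hu.sub_const ((1 / 2 : ℝ) • w)
  have hq : Tendsto (fun k => (ζ k, u k - (1 / 2 : ℝ) • w)) U (𝓝 0) := hζ.prodMk_nhds hμ
  obtain ⟨r, ξk, ξ, hξ0, hr, hξ, hqr⟩ := ultra_dir U hq (Eventually.of_forall fun k h => by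
    apply (hf k).1
    have h1 : ζ k = 0 := congrArg Prod.fst h
    have h2 : u k = (1 / 2 : ℝ) • w := sub_eq_zero.1 (congrArg Prod.snd h)
    rw [← Γ.ex0 p a ha, ← h1, ← h2, hζe, hue])
  have hξ1 : Tendsto (fun k => (ξk k).1) U (𝓝 ξ.1) := (continuous_fst.tendsto _).comp hξ
  set σ := (1 + τ) / 2 with hσ
  have hσ0 : 0 < σ := by rw [hσ]; linarith
  have hσ1 : σ < 1 := by rw [hσ]; linarith
  have hτσ : τ < σ := by rw [hσ]; linarith
  have hs1 := fun i => Γ.tay_C (l := (U : Filter κ)) ha (Γ.smul_mem_Io ha (hv i) hσ0.le hσ1)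
    tendsto_const_nhds tendsto_const_nhds hr hξ1
  have hs2 := tay2' ((Γ.B_smooth_pt ha hwI).of_le two_le_inf) (tendsto_ne_of_gt hr) hξ
  have hbb : ∀ i, Tendsto (fun k => τ * Γ.G p a (v i - ∑ j, l j • v j) (ξk k).1) U
      (𝓝 (τ * Γ.G p a (v i - ∑ j, l j • v j) ξ.1)) := fun i =>
    (((Γ.G p a (v i - ∑ j, l j • v j)).continuous.tendsto _).comp hξ1).const_mul τ
  obtain ⟨hf1, hf2⟩ := fm (lam := fun _ => l) hr (fun _ => tendsto_const_nhds) hbb
    (fun i => hs2.sub (((hs1 i).const_mul τ).div_const σ))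
    (fun k i => hl.1 i) (fun k => by
      have h1' : ∑ i, l i • (v i - ∑ j, l j • v j) = 0 := by
        simp only [smul_sub, Finset.sum_sub_distrib, ← Finset.sum_smul, hl.2, one_smul,
          sub_self]
      have h2' := congrArg (fun w => τ * Γ.G p a w (ξk k).1) h1'
      simp only [map_sum, map_smul, ContinuousLinearMap.sum_apply, ContinuousLinearMap.smul_apply,
        smul_eq_mul, map_zero, ContinuousLinearMap.zero_apply, mul_zero, Finset.mul_sum] at h2'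
      rw [← h2']
      exact Finset.sum_congr rfl fun i _ => by ring) (by
      filter_upwards [hr.eventually self_mem_nhdsWithin] with k hrk i
      have hrk' : 0 < r k := hrk
      have h1' := Γ.support ha (hv i) hσ0 hσ1 (ζ k)
      have h2' := (hf k).2
      have h3' := mul_le_mul_of_nonneg_left (h1'.trans (le_of_eq_of_le (by rw [hζe])
        (le_phi (fun i => dist ((chartAt E p).symm a) (Γ.Ex p a (v i)) ^ 2 / 2)
          (fun i => Γ.Ex p a (v i)) (f k).1 i))) hτ0.le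
      have h4' : Γ.B p a w (r k • ξk k) = dist (f k).1 (f k).2 ^ 2 +
          dist (f k).2 (Γ.Ex p a w) ^ 2 := by
        rw [← hqr k, Geo.B]
        simp only [add_sub_cancel, hζe, hue]
      have h5' : Γ.B p a w 0 = dist ((chartAt E p).symm a) (Γ.Ex p a w) ^ 2 / 2 := by
        have : dist ((chartAt E p).symm a) (Γ.Ex p a w) = _ := hwI
        rw [Γ.B_zero ha hwI, this, Real.sq_sqrt (bil_nonneg _ (Γ.pos p a ha) _)]
      have h6' : fderiv ℝ (Γ.B p a w) 0 (ξk k) = -Γ.G p a w (ξk k).1 :=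
        Γ.fderiv_B ha hwI (ξk k).1 (ξk k).2
      have h7' : r k • (ξk k).1 = ζ k := (congrArg Prod.fst (hqr k)).symm
      have h8' : Γ.G p a w (ξk k).1 = τ * Γ.G p a (∑ j, l j • v j) (ξk k).1 := by
        rw [hw, map_smul, ContinuousLinearMap.smul_apply, smul_eq_mul]
      rw [h6', h7', h8']
      simp only [map_smul, map_sub, ContinuousLinearMap.smul_apply, ContinuousLinearMap.sub_apply,
        smul_eq_mul]
      refine le_trans (le_of_eq ?_) (show τ * ((Γ.C p a (σ • v i) 0 -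
        Γ.C p a (σ • v i) (ζ k)) / σ) + Γ.B p a w (r k • ξk k) - Γ.B p a w 0 ≤ 0 by linarith)
      field_simp
      ring)
  have he : ∑ i, l i * (D2 (Γ.B p a w) 0 ξ ξ / 2 - τ * (Γ.A p a (σ • v i) ξ.1 ξ.1 / 2) / σ) =
      (D2 (Γ.B p a w) 0 ξ ξ - τ * (∑ i, l i * Γ.A p a (σ • v i) ξ.1 ξ.1) / σ) / 2 := by
    simp only [mul_sub, Finset.sum_sub_distrib, ← Finset.sum_mul, hl.2, one_mul, Finset.mul_sum,
      Finset.sum_div, sub_div]
    congr 1
    exact Finset.sum_congr rfl fun i _ => by ring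
  rw [he] at hf2
  by_cases hξ1z : ξ.1 = 0
  · have h1 : ξ.2 ≠ 0 := fun h => hξ0 (Prod.ext hξ1z h)
    have h2 := Γ.D2_B ha hwI ξ.1 ξ.2
    have h3 := hQ _ h1
    simp only [Prod.mk.eta] at h2
    rw [h2, hξ1z] at hf2
    simp at hf2
    linarith
  have hg := Γ.gap_sum ha hτ0 hτσ hσ1 hv hl hξ1z
  have hlim : ∑ i, l i * Γ.A p a (τ • v i) ξ.1 ξ.1 ≤ D2 (Γ.B p a w) 0 ξ ξ := by
    have hsm : ∀ u : E, Tendsto (fun t : ℝ => t • u) (𝓝[<] τ) (𝓝 (τ • u)) := fun u =>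
      ((continuous_id.smul continuous_const).tendsto τ).mono_left nhdsWithin_le_nhds
    have h1 : Tendsto (fun t : ℝ => ∑ i, l i * Γ.A p a (t • v i) ξ.1 ξ.1) (𝓝[<] τ)
        (𝓝 (∑ i, l i * Γ.A p a (τ • v i) ξ.1 ξ.1)) :=
      tendsto_finsetSum _ fun i _ => ((Γ.contA ha (Γ.smul_mem_Io ha (hv i) hτ0.le hτ1)
        ξ.1 ξ.1).tendsto.comp (hsm (v i))).const_mul _
    have h2 : Tendsto (fun t : ℝ => D2 (Γ.B p a (t • ∑ j, l j • v j)) 0 ξ ξ) (𝓝[<] τ)
        (𝓝 (D2 (Γ.B p a w) 0 ξ ξ)) :=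
      (Γ.D2_B_cont ha hwI ξ).tendsto.comp (by rw [hw]; exact hsm _)
    refine le_of_tendsto_of_tendsto h1 h2 ?_
    filter_upwards [Ioo_mem_nhdsLT hτ0] with t ht
    have hRt := hR t ⟨ht.1.le, ht.2⟩
    refine (Γ.jensen hM hRt ha hv hl fun i hi => ?_).trans
      (Γ.A_le_D2_B ha (hRt p a ha v l hv hl).1 ξ.1 ξ.2)
    rw [(mul_eq_zero.1 (hf1 i hi)).resolve_left hτ0.ne', mul_zero]
  linarith

end Geo

end Vale.Agent.P234
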