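import Vale.Agent.P234.Dan
import Vale.Agent.P234.Ult

/-! P234 Uniq: uniqueness of the global minimizer at the critical time. -/

open Set Manifold Filter Metric
open scoped ContDiff Topology

namespace Vale.Agent.P234

variable {E : Type*} [NormedAddCommGroup E] [NormedSpace ℝ E] [FiniteDimensional ℝ E]
  {M : Type*} [MetricSpace M] [ChartedSpace E M] [IsManifold 𝓘(ℝ, E) ∞ M] [CompactSpace M]

namespace Geo

variable (Γ : Geo E M) {p : M} {a : E}

theorem uniq {τ : ℝ} (hτ : 0 < τ) (hR : ∀ σ ∈ Ico 0 τ, Γ.R σ) {ι : Type*} [Fintype ι]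
    [Nonempty ι] (κ : ι → ℝ) (yy : ι → M) {z m₀ y : M} (hm1 : dist z m₀ = dist z y / 2)
    (hm2 : dist m₀ y = dist z y / 2) (hφ : phi κ yy z = 0)
    (hs : ∀ᶠ q : M × M in 𝓝 (z, m₀), q ≠ (z, m₀) →
      dist z y ^ 2 / 2 < τ * phi κ yy q.1 + dist q.1 q.2 ^ 2 + dist q.2 y ^ 2)
    {z' m' : M} (hz' : τ * phi κ yy z' + dist z' y ^ 2 / 2 ≤ dist z y ^ 2 / 2)
    (h1 : dist z' m' = dist z' y / 2) (h2 : dist m' y = dist z' y / 2) : z' = z ∧ m' = m₀ := by
  have ha : chartAt E y y ∈ (chartAt E y).target := mem_chart_target E y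
  have hy : (chartAt E y).symm (chartAt E y y) = y := (chartAt E y).left_inv (mem_chart_source E y)
  generalize chartAt E y y = a at ha hy
  obtain ⟨V, hV, hVz, hVm⟩ := Γ.midpt ha (m := m₀) (y := z)
    (by rw [hy, dist_comm y m₀, dist_comm y z, hm2]) (by rw [hy, dist_comm m₀ z, dist_comm y z, hm1])
  obtain ⟨V', hV', hVz', hVm'⟩ := Γ.midpt ha (m := m') (y := z')
    (by rw [hy, dist_comm y m', dist_comm y z', h2]) (by rw [hy, dist_comm m' z', dist_comm y z', h1])
  have hβ := Γ.smul_mem_Io ha hV (s := 1 / 2) (by norm_num) (by norm_num)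
  have hβ' := Γ.smul_mem_Io ha hV' (s := 1 / 2) (by norm_num) (by norm_num)
  obtain ⟨hg1, hg2⟩ := Γ.good_mid hm1 hm2
  obtain ⟨δ, hδ, hδs⟩ := nhds_basis_closedBall.eventually_iff.1 hs
  have hN : IsCompact (closedBall (z, m₀) δ) := isClosed_closedBall.isCompact
  have hφc := continuous_phi κ yy
  have hbase : τ * phi κ yy z + dist z m₀ ^ 2 + dist m₀ y ^ 2 = dist z y ^ 2 / 2 := by
    rw [hφ, hm1, hm2]; ring
  have hlow : ∀ q ∈ closedBall (z, m₀) δ,
      dist z y ^ 2 / 2 ≤ τ * phi κ yy q.1 + dist q.1 q.2 ^ 2 + dist q.2 y ^ 2 := by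
    intro q hq
    by_cases h : q = (z, m₀)
    · rw [h]; exact hbase.ge
    · exact (hδs hq h).le
  have key : ∀ ν : E, -2 * Γ.G y a ((1 / 2 : ℝ) • V) ν ≤ -2 * Γ.G y a ((1 / 2 : ℝ) • V') ν := by
    intro ν
    have hmin : ∀ s : ℝ, ∃ q ∈ closedBall (z, m₀) δ, IsMinOn (fun q : M × M =>
        τ * (1 - s ^ 2) * phi κ yy q.1 + dist q.1 q.2 ^ 2 + dist q.2 (Γ.Ex y a (s • ν)) ^ 2)
        (closedBall (z, m₀) δ) q := fun s =>
      hN.exists_isMinOn ⟨_, mem_closedBall_self hδ.le⟩ (by fun_prop)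
    choose q hqN hq using hmin
    obtain ⟨U, hU⟩ : ∃ U : Ultrafilter ℝ, (U : Filter ℝ) ≤ 𝓝[>] (0 : ℝ) :=
      ⟨Ultrafilter.of _, Ultrafilter.of_le _⟩
    have hs0 : Tendsto (fun s : ℝ => s) U (𝓝[>] 0) := hU
    have hs0' : Tendsto (fun s : ℝ => s) U (𝓝 0) := hs0.mono_right nhdsWithin_le_nhds
    have hyh : Tendsto (fun s : ℝ => Γ.Ex y a (s • ν)) U (𝓝 y) := by
      have h3 : Tendsto (fun s : ℝ => s • ν) U (𝓝 0) := by simpa using hs0'.smul_const ν
      have h4 := ((Γ.continuous_ex ha).tendsto 0).comp h3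
      rwa [Γ.ex0 y a ha, hy] at h4
    have hτs : Tendsto (fun s : ℝ => τ * (1 - s ^ 2)) U (𝓝 τ) := by
      simpa using ((hs0'.pow 2).const_sub 1).const_mul τ
    obtain ⟨q₀, hq₀N, hq₀⟩ := ultra_lim U hN (u := q) (Eventually.of_forall hqN)
    have hq1 : Tendsto (fun s => (q s).1) U (𝓝 q₀.1) := (continuous_fst.tendsto _).comp hq₀
    have hq2 : Tendsto (fun s => (q s).2) U (𝓝 q₀.2) := (continuous_snd.tendsto _).comp hq₀
    have hq₀e : q₀ = (z, m₀) := by
      by_contra hne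
      have h3 := hδs hq₀N hne
      have h4 := ((hτs.mul ((hφc.tendsto _).comp hq1)).add ((hq1.dist hq2).pow 2)).add
        ((hq2.dist hyh).pow 2)
      have h5 := ((hτs.mul_const (phi κ yy z)).add_const (dist z m₀ ^ 2)).add
        (((tendsto_const_nhds (x := m₀)).dist hyh).pow 2)
      have h6 := le_of_tendsto_of_tendsto h4 h5
        (Eventually.of_forall fun s => by
          have h7 := isMinOn_iff.1 (hq s) _ (mem_closedBall_self hδ.le)
          simp only [Function.comp_apply]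
          exact h7)
      linarith
    rw [hq₀e] at hq₀ hq1 hq2
    have hd1 := Γ.dq ha (Γ.Io_subset_Ib ha hβ) (Γ.good_of_Io ha hβ) (mk := fun s => (q s).2)
      (by rw [hVm]; exact hq2) (tendsto_ne_of_gt hs0) ν
    have hd2 := Γ.dq (l := (U : Filter ℝ)) ha (Γ.Io_subset_Ib ha hβ') (Γ.good_of_Io ha hβ')
      (mk := fun _ => m') (by rw [hVm']; exact tendsto_const_nhds) (tendsto_ne_of_gt hs0) ν
    have h3 := hd1.sub ((hs0'.const_mul τ).mul ((hφc.tendsto _).comp hq1))
    have h4 := hd2.sub ((hs0'.const_mul τ).mul_const (phi κ yy z'))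
    have h5 := le_of_tendsto_of_tendsto h3 h4 (by
      filter_upwards [hq₀.eventually (ball_mem_nhds _ hδ), hq₀.eventually hg1.eventually,
        (hq2.prodMk_nhds hyh).eventually hg2.eventually,
        hs0.eventually (Ioo_mem_nhdsGT (show (0 : ℝ) < 1 by norm_num))] with s hb hG1 hG2 hs01
      have hs1 : 0 < s := hs01.1
      have hs2 : s ^ 2 < 1 := by nlinarith [hs01.2]
      have hs3 : 0 < s ^ 2 := by positivity
      have hτ' : 0 < τ * (1 - s ^ 2) := mul_pos hτ (by linarith)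
      have hloc := (hq s).isLocalMin (mem_of_superset (isOpen_ball.mem_nhds hb) ball_subset_closedBall)
      have h6 := Γ.loc_to_glob hτ' (hR _ ⟨hτ'.le, by nlinarith⟩) κ yy hG1 hG2 hloc z'
      have h7 := hlow _ (hqN s)
      have h8 := dist_sq_div_le z' m' (Γ.Ex y a (s • ν)) one_pos one_pos
      simp only [Function.comp_apply, hy]
      rw [dist_comm (Γ.Ex y a (s • ν)) (q s).2, dist_comm (Γ.Ex y a (s • ν)) m', dist_comm y m',
        dist_comm y (q s).2, sub_le_sub_iff, div_add' _ _ _ hs1.ne', div_add' _ _ _ hs1.ne',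
        div_le_div_iff_of_pos_right hs1, h2]
      rw [h1] at h8
      nlinarith)
    simpa using h5
  have hVV : (1 / 2 : ℝ) • V = (1 / 2 : ℝ) • V' := by
    refine bil_ext _ (Γ.pos y a ha) fun ν => ?_
    have h3 := key ν
    have h4 := key (-ν)
    simp only [map_neg] at h4
    linarith
  have hVV' : V = V' := smul_right_injective E (by norm_num) hVV
  exact ⟨by rw [← hVz, ← hVz', hVV'], by rw [← hVm, ← hVm', hVV']⟩

end Geo

end Vale.Agent.P234
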