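import Vale.Agent.P234.Open
import Vale.Agent.P234.Focal
import Vale.Agent.P234.Strict
import Vale.Agent.P234.Uniq

/-! P234 Main: the continuity method. -/

open Set Manifold Filter Metric
open scoped ContDiff Topology

namespace Vale.Agent.P234

variable {E : Type*} [NormedAddCommGroup E] [NormedSpace ℝ E] [FiniteDimensional ℝ E]
  {M : Type*} [MetricSpace M] [ChartedSpace E M] [IsManifold 𝓘(ℝ, E) ∞ M] [CompactSpace M]

namespace Geo

variable (Γ : Geo E M) {p : M} {a : E}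

theorem R_zero : Γ.R 0 := by
  intro p a ha v l _ _
  simp only [zero_smul, zero_mul, zero_add, Γ.ex0 p a ha, dist_self]
  refine ⟨Γ.zero_mem_Io ha, fun x hx => ⟨0, ?_⟩⟩
  have := dist_pos.2 hx
  have h2 : 0 < dist x ((chartAt E p).symm a) ^ 2 := by positivity
  linarith

theorem R_key (hM : Γ.MTW) {τ : ℝ} (hτ0 : 0 < τ) (hτ1 : τ < 1) (hR : ∀ σ ∈ Ico 0 τ, Γ.R σ)
    (ha : a ∈ (chartAt E p).target)
    {v : Fin (Module.finrank ℝ E + 1) → E} {l : Fin (Module.finrank ℝ E + 1) → ℝ}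
    (hv : ∀ i, v i ∈ Γ.Ib p a) (hl : l ∈ stdSimplex ℝ _)
    (hQ : ∀ k, k ≠ 0 → 0 < Γ.Q p a (τ • ∑ j, l j • v j) k k) : Γ.Rat τ p a v l := by
  have hwI : τ • ∑ j, l j • v j ∈ Γ.Ib p a := by
    have hsm : Tendsto (fun t : ℝ => t • ∑ j, l j • v j) (𝓝[<] τ) (𝓝 (τ • ∑ j, l j • v j)) :=
      ((continuous_id.smul continuous_const).tendsto τ).mono_left nhdsWithin_le_nhds
    refine (Γ.isClosed_Ib ha).mem_of_tendsto hsm ?_
    filter_upwards [Ioo_mem_nhdsLT hτ0] with t ht
    exact Γ.Io_subset_Ib ha (hR t ⟨ht.1.le, ht.2⟩ p a ha v l hv hl).1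
  have hs := Γ.strict hM hτ0 hτ1 hR ha hv hl rfl hwI hQ
  rw [Rat]
  generalize τ • ∑ j, l j • v j = w at hwI hs hQ
  have hzy : dist ((chartAt E p).symm a) (Γ.Ex p a w) = √(Γ.G p a w w) := hwI
  have hm1 : dist ((chartAt E p).symm a) (Γ.Ex p a ((1 / 2 : ℝ) • w)) =
      dist ((chartAt E p).symm a) (Γ.Ex p a w) / 2 := by
    have := Γ.seg ha hwI (s := 0) (t := 1 / 2) le_rfl (by norm_num) (by norm_num)
    rw [zero_smul, Γ.ex0 p a ha] at this
    rw [this, hzy]; ring
  have hm2 : dist (Γ.Ex p a ((1 / 2 : ℝ) • w)) (Γ.Ex p a w) =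
      dist ((chartAt E p).symm a) (Γ.Ex p a w) / 2 := by
    have := Γ.seg ha hwI (s := 1 / 2) (t := 1) (by norm_num) (by norm_num) le_rfl
    rw [one_smul] at this
    rw [this, hzy]; ring
  have hφ := phi_self (fun i => Γ.Ex p a (v i)) ((chartAt E p).symm a)
  have hu := fun z' m' => Γ.uniq hτ0 hR _ _ hm1 hm2 hφ hs (z' := z') (m' := m')
  obtain ⟨hg1, hg2⟩ := Γ.good_mid hm1 hm2
  have hh := Γ.smul_mem_Io ha hwI (s := 1 / 2) (by norm_num) (by norm_num)
  have hg : GoodPair E ((chartAt E p).symm a) (Γ.Ex p a w) := by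
    refine good_of_midpoint Γ.mid (n := fun μ => Γ.Ex p a ((1 / 2 : ℝ) • w + μ))
      (Γ.smEx_comp (f := fun _ => a) ha contDiff_const (contDiff_const.add contDiff_id)) ?_
      (by simpa using hg1) (by simpa using hg2) (fun m h1 h2 => ?_) (fun k hk => ?_)
    · have h1 := Γ.surj ha (Γ.Io_subset_Ib ha hh) (Γ.good_of_Io ha hh)
      rw [← map_add_left_nhds_zero ((1 / 2 : ℝ) • w), map_map] at h1
      rw [add_zero]
      exact h1
    · rw [add_zero]
      exact (hu _ m (by rw [hφ]; simp) h1 h2).2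
    · have := hQ k hk
      simpa only [Geo.Q, Geo.B, Γ.ex0 p a ha] using this
  refine ⟨Γ.mem_Io_of_good ha hwI hg, fun x hx => ?_⟩
  by_contra hcon
  push Not at hcon
  obtain ⟨m', h1, h2⟩ := Γ.mid x (Γ.Ex p a w)
  obtain ⟨i, hi⟩ := exists_phi_eq (fun i => dist ((chartAt E p).symm a) (Γ.Ex p a (v i)) ^ 2 / 2)
    (fun i => Γ.Ex p a (v i)) x
  exact hx (hu x m' (by rw [hi]; linarith [hcon i]) h1 h2).1

theorem sum_single_smul {ι : Type*} [Fintype ι] [DecidableEq ι] (v : ι → E) (i : ι) :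
    ∑ j, (Pi.single i (1 : ℝ) : ι → ℝ) j • v j = v i := by
  rw [Finset.sum_eq_single i] <;> simp +contextual [Pi.single_apply]

theorem R_mem (hM : Γ.MTW) {τ : ℝ} (hτ0 : 0 < τ) (hτ1 : τ < 1) (hR : ∀ σ ∈ Ico 0 τ, Γ.R σ)
    (ha : a ∈ (chartAt E p).target) {v : Fin (Module.finrank ℝ E + 1) → E}
    (hv : ∀ i, v i ∈ Γ.Ib p a) (n : ℕ) : ∀ l ∈ stdSimplex ℝ (Fin (Module.finrank ℝ E + 1)),
      (Finset.univ.filter fun i => l i ≠ 0).card ≤ n → τ • ∑ j, l j • v j ∈ Γ.Io p a := by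
  induction n with
  | zero =>
    intro l hl hc
    have h1 : ∀ i, l i = 0 := by
      intro i
      by_contra h
      have : i ∈ Finset.univ.filter fun i => l i ≠ 0 := by simpa using h
      rw [Nat.le_zero, Finset.card_eq_zero] at hc
      simp [hc] at this
    have := hl.2
    simp [h1] at this
  | succ n ih =>
    intro l hl hc
    obtain ⟨i, hi⟩ : ∃ i, l i ≠ 0 := by
      by_contra h
      push Not at h
      have := hl.2
      simp [h] at this
    have hi0 : 0 < l i := lt_of_le_of_ne (hl.1 i) hi.symm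
    have hsplit := Finset.add_sum_erase Finset.univ l (Finset.mem_univ i)
    rw [hl.2] at hsplit
    have hsplit' := Finset.add_sum_erase Finset.univ (fun j => l j • v j) (Finset.mem_univ i)
    have hP₀ := Γ.smul_mem_Io ha (hv i) hτ0.le hτ1
    by_cases hi1 : l i = 1
    · have h1 : ∑ j ∈ Finset.univ.erase i, l j = 0 := by linarith
      rw [Finset.sum_eq_zero_iff_of_nonneg fun j _ => hl.1 j] at h1
      have h2 : ∑ j ∈ Finset.univ.erase i, l j • v j = 0 :=
        Finset.sum_eq_zero fun j hj => by rw [h1 j hj, zero_smul]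
      rw [← hsplit', h2, hi1, add_zero, one_smul]
      exact hP₀
    have hi2 : 0 < 1 - l i := by
      have := Finset.sum_nonneg (s := Finset.univ.erase i) fun j _ => hl.1 j
      have h3 : l i ≤ 1 := by linarith
      exact sub_pos.2 (lt_of_le_of_ne h3 hi1)
    set l' : Fin (Module.finrank ℝ E + 1) → ℝ := fun j => if j = i then 0 else l j / (1 - l i)
      with hl'
    have hl'e : ∀ j ∈ Finset.univ.erase i, l' j = l j / (1 - l i) := fun j hj =>
      if_neg (Finset.ne_of_mem_erase hj)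
    have hl'i : l' i = 0 := if_pos rfl
    have hl's : l' ∈ stdSimplex ℝ _ := by
      refine ⟨fun j => ?_, ?_⟩
      · simp only [hl']
        split_ifs
        · exact le_rfl
        · exact div_nonneg (hl.1 j) hi2.le
      · rw [← Finset.add_sum_erase Finset.univ l' (Finset.mem_univ i), hl'i, zero_add,
          Finset.sum_congr rfl hl'e, ← Finset.sum_div, div_eq_one_iff_eq hi2.ne']
        linarith
    have hcard : (Finset.univ.filter fun j => l' j ≠ 0).card ≤ n := by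
      have h1 : (Finset.univ.filter fun j => l' j ≠ 0) ⊆
          (Finset.univ.filter fun j => l j ≠ 0).erase i := by
        intro j hj
        simp only [Finset.mem_filter, Finset.mem_univ, true_and, Finset.mem_erase] at hj ⊢
        have hji : j ≠ i := fun h => hj (h ▸ hl'i)
        refine ⟨hji, fun h => hj ?_⟩
        simp [hl', h]
      have h2 := Finset.card_le_card h1
      rw [Finset.card_erase_of_mem (by simpa using hi)] at h2
      omega
    have hP₁ := ih l' hl's hcard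
    have hsum : ∑ j, l j • v j = l i • v i + (1 - l i) • ∑ j, l' j • v j := by
      rw [← hsplit', ← Finset.add_sum_erase Finset.univ (fun j => l' j • v j) (Finset.mem_univ i),
        hl'i, zero_smul, zero_add, Finset.smul_sum]
      congr 1
      refine Finset.sum_congr rfl fun j hj => ?_
      rw [hl'e j hj, smul_smul, mul_div_cancel₀ _ hi2.ne']
    have hw : τ • ∑ j, l j • v j = τ • v i + (1 - l i) • (τ • ∑ j, l' j • v j - τ • v i) := by
      rw [hsum]; module
    refine (Γ.R_key hM hτ0 hτ1 hR ha hv hl fun k hk => ?_).1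
    rw [hw]
    refine Γ.focal hM ha hi2 (by linarith) hP₀ (by simpa using hP₁) (fun t ht X hX => ?_) hk
    have h1 := convex_stdSimplex ℝ _ (single_mem_stdSimplex ℝ i) hl's (a := 1 - X) (b := X)
      (by linarith [hX.2]) hX.1 (by ring)
    have h2 := (hR (t * τ) ⟨(mul_pos ht.1 hτ0).le, by nlinarith [ht.2]⟩ p a ha v _ hv h1).1
    have h3 : ∑ j, ((1 - X) • (Pi.single i (1 : ℝ) : _ → ℝ) + X • l') j • v j =
        (1 - X) • v i + X • ∑ j, l' j • v j := by
      simp only [Pi.add_apply, Pi.smul_apply, add_smul, smul_assoc, Finset.sum_add_distrib,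
        ← Finset.smul_sum, sum_single_smul]
    rw [h3] at h2
    convert h2 using 1
    module

theorem R_closed (hM : Γ.MTW) {τ : ℝ} (hτ0 : 0 < τ) (hτ1 : τ < 1) (hR : ∀ σ ∈ Ico 0 τ, Γ.R σ) :
    Γ.R τ := fun _ _ ha _ l hv hl =>
  Γ.R_key hM hτ0 hτ1 hR ha hv hl fun _ hk =>
    Γ.Q_pos ha (Γ.R_mem hM hτ0 hτ1 hR ha hv _ l hl le_rfl) hk

theorem R_all (hM : Γ.MTW) {τ : ℝ} (hτ0 : 0 ≤ τ) (hτ1 : τ < 1) : Γ.R τ := by
  by_contra hcon
  set S : Set ℝ := {σ | 0 ≤ σ ∧ ¬Γ.R σ} with hS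
  have hne : S.Nonempty := ⟨τ, hτ0, hcon⟩
  have hbd : BddBelow S := ⟨0, fun σ hσ => hσ.1⟩
  have h0 : 0 ≤ sInf S := le_csInf hne fun σ hσ => hσ.1
  have h1 : sInf S < 1 := (csInf_le hbd ⟨hτ0, hcon⟩).trans_lt hτ1
  have h2 : ∀ σ ∈ Ico 0 (sInf S), Γ.R σ := by
    intro σ hσ
    by_contra h
    exact absurd (csInf_le hbd ⟨hσ.1, h⟩) (not_le.2 hσ.2)
  have h3 : Γ.R (sInf S) := by
    rcases h0.eq_or_lt with h | h
    · rw [← h]; exact Γ.R_zero
    · exact Γ.R_closed hM h h1 h2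
  obtain ⟨b, hb, hb'⟩ := mem_nhdsGT_iff_exists_Ioo_subset.1 (Γ.R_open hM h0 h1 h3)
  have h4 : b ≤ sInf S := by
    refine le_csInf hne fun σ hσ => ?_
    by_contra h
    rcases (csInf_le hbd hσ).eq_or_lt with h' | h'
    · exact hσ.2 (h' ▸ h3)
    · exact hσ.2 (hb' ⟨h', not_le.1 h⟩)
  exact absurd hb (not_lt.2 h4)

theorem convex_Io (hM : Γ.MTW) (ha : a ∈ (chartAt E p).target) : Convex ℝ (Γ.Io p a) := by
  rintro v₀ ⟨c₀, hc₀, h₀⟩ v₁ ⟨c₁, hc₁, h₁⟩ α β hα hβ hαβ
  rcases subsingleton_or_nontrivial E with hE | hE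
  · rw [Subsingleton.elim (α • v₀ + β • v₁) 0]
    exact Γ.zero_mem_Io ha
  have hn : 0 < Module.finrank ℝ E := Module.finrank_pos
  set c := min c₀ c₁ with hc
  have hc1 : 1 < c := lt_min hc₀ hc₁
  have hc0 : 0 < c := by linarith
  have hm : ∀ {c' : ℝ} {w : E}, c ≤ c' → c' • w ∈ Γ.Ib p a → c • w ∈ Γ.Ib p a := by
    intro c' w h1 h2
    have h3 : 0 < c' := by linarith
    have := Γ.smul_mem_Ib ha h2 (s := c / c') (by positivity) ((div_le_one h3).2 h1)
    rwa [smul_smul, div_mul_cancel₀ _ h3.ne'] at this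
  have hne : Fin.last (Module.finrank ℝ E) ≠ 0 := by
    intro h
    have := congrArg Fin.val h
    simp at this
    omega
  have h1 := convex_stdSimplex ℝ _ (single_mem_stdSimplex ℝ (0 : Fin (Module.finrank ℝ E + 1)))
    (single_mem_stdSimplex ℝ (Fin.last _)) hα hβ hαβ
  have h2 := (Γ.R_all hM (τ := 1 / c) (by positivity) ((div_lt_one hc0).2 hc1) p a ha
    (fun i => if i = 0 then c • v₀ else c • v₁) _ (fun i => by
      split_ifs
      · exact hm (min_le_left _ _) h₀
      · exact hm (min_le_right _ _) h₁) h1).1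
  simp only [Pi.add_apply, Pi.smul_apply, add_smul, smul_assoc, Finset.sum_add_distrib,
    ← Finset.smul_sum, sum_single_smul, if_true, if_neg hne] at h2
  convert h2 using 1
  rw [smul_comm α c, smul_comm β c, ← smul_add, smul_smul, one_div_mul_cancel hc0.ne', one_smul]

end Geo

end Vale.Agent.P234
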