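import Vale.Agent.P234.Defs

/-! P234 Nem: smoothness of composition operators. -/

open Set Manifold Filter Metric
open scoped ContDiff Topology

namespace Vale.Agent.P234

universe u

section

variable {K : Type*} [TopologicalSpace K] [CompactSpace K] {X Y : Type u}
  [NormedAddCommGroup X] [NormedSpace ℝ X] [NormedAddCommGroup Y] [NormedSpace ℝ Y]

variable (K X Y) in
/-- pointwise application -/
noncomputable def nemB : C(K, X →L[ℝ] Y) →L[ℝ] C(K, X) →L[ℝ] C(K, Y) :=
  LinearMap.mkContinuous₂ (LinearMap.mk₂ ℝ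
    (fun (A : C(K, X →L[ℝ] Y)) (h : C(K, X)) =>
      (⟨fun t => A t (h t), A.continuous.clm_apply h.continuous⟩ : C(K, Y)))
    (fun _ _ _ => by ext; simp) (fun _ _ _ => by ext; simp) (fun _ _ _ => by ext; simp)
    (fun _ _ _ => by ext; simp)) 1 fun A h => by
      rw [one_mul, ContinuousMap.norm_le _ (by positivity)]
      exact fun t => ((A t).le_opNorm _).trans (mul_le_mul (A.norm_coe_le_norm t)
        (h.norm_coe_le_norm t) (norm_nonneg _) ((norm_nonneg (A t)).trans (A.norm_coe_le_norm t)))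

theorem nemB_apply (A : C(K, X →L[ℝ] Y)) (h : C(K, X)) (t : K) : nemB K X Y A h t = A t (h t) :=
  rfl

theorem nem_has {f : X → Y} (hf : Differentiable ℝ f) (hc : Continuous (fderiv ℝ f))
    (x : C(K, X)) : HasFDerivAt (fun x : C(K, X) => (⟨f, hf.continuous⟩ : C(X, Y)).comp x)
      (nemB K X Y ((⟨fderiv ℝ f, hc⟩ : C(X, X →L[ℝ] Y)).comp x)) x := by
  rw [hasFDerivAt_iff_isLittleO_nhds_zero, Asymptotics.isLittleO_iff]
  intro ε hε
  obtain ⟨δ, hδ, H⟩ := Metric.mem_uniformity_dist.1
    ((isCompact_range x.continuous).uniformContinuousAt_of_continuousAt (fderiv ℝ f)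
      (fun a _ => hc.continuousAt) (Metric.dist_mem_uniformity hε))
  filter_upwards [Metric.ball_mem_nhds (0 : C(K, X)) hδ] with h hh
  rw [mem_ball_zero_iff] at hh
  rw [ContinuousMap.norm_le _ (by positivity)]
  intro t
  have h1 := h.norm_coe_le_norm t
  have := (convex_ball (x t) δ).norm_image_sub_le_of_norm_hasFDerivWithin_le'
    (f := f) (f' := fderiv ℝ f) (φ := fderiv ℝ f (x t)) (C := ε) (x := x t) (y := x t + h t)
    (fun y _ => (hf y).hasFDerivAt.hasFDerivWithinAt)
    (fun y hy => by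
      rw [← dist_eq_norm, dist_comm]
      exact (H (a := x t) (b := y) (by rw [dist_comm]; exact hy) ⟨t, rfl⟩).le)
    (mem_ball_self hδ) (by rw [mem_ball, dist_eq_norm, add_sub_cancel_left]; linarith)
  rw [add_sub_cancel_left] at this
  exact this.trans (mul_le_mul_of_nonneg_left h1 hε.le)

end

theorem nem_nat {K : Type*} [TopologicalSpace K] [CompactSpace K] {X : Type u}
    [NormedAddCommGroup X] [NormedSpace ℝ X] (n : ℕ) : ∀ {Y : Type u} [NormedAddCommGroup Y]
    [NormedSpace ℝ Y] {f : X → Y} (hf : ContDiff ℝ ∞ f),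
    ContDiff ℝ n (fun x : C(K, X) => (⟨f, hf.continuous⟩ : C(X, Y)).comp x) := by
  induction n with
  | zero => exact fun hf => contDiff_zero.2 (ContinuousMap.continuous_postcomp _)
  | succ n ih =>
    intro Y _ _ f hf
    have h1 : ContDiff ℝ ∞ (fderiv ℝ f) := hf.fderiv_right (m := ∞) (by simp)
    have h2 := nem_has (K := K) (hf.differentiable (by simp)) h1.continuous
    rw [Nat.cast_succ, contDiff_succ_iff_hasFDerivAt]
    have h3 : ContDiff ℝ n fun x : C(K, X) =>
        nemB K X Y ((⟨fderiv ℝ f, h1.continuous⟩ : C(X, X →L[ℝ] Y)).comp x) :=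
      contDiff_const.clm_apply (ih h1)
    exact ⟨_, h3, h2⟩

theorem nemytskii {K : Type*} [TopologicalSpace K] [CompactSpace K] {X Y : Type u}
    [NormedAddCommGroup X] [NormedSpace ℝ X] [FiniteDimensional ℝ X]
    [NormedAddCommGroup Y] [NormedSpace ℝ Y] {f : X → Y} (hf : ContDiff ℝ ∞ f) :
    ContDiff ℝ ∞ (fun x : C(K, X) => (⟨f, hf.continuous⟩ : C(X, Y)).comp x) :=
  contDiff_infty.2 fun n => nem_nat n hf

theorem nemytskii_hasFDerivAt {K : Type*} [TopologicalSpace K] [CompactSpace K] {X Y : Type u}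
    [NormedAddCommGroup X] [NormedSpace ℝ X] [FiniteDimensional ℝ X]
    [NormedAddCommGroup Y] [NormedSpace ℝ Y] {f : X → Y} (hf : ContDiff ℝ ∞ f)
    (x h : C(K, X)) (t : K) :
    fderiv ℝ (fun x : C(K, X) => (⟨f, hf.continuous⟩ : C(X, Y)).comp x) x h t =
      fderiv ℝ f (x t) (h t) := by
  rw [(nem_has (K := K) (hf.differentiable (by simp))
    (hf.fderiv_right (m := ∞) (by simp)).continuous x).fderiv]
  rfl

end Vale.Agent.P234
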