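import Vale.Agent.P234.Nem
import Vale.Agent.P234.IFT
import Vale.Agent.P234.Tch

/-! P234 ODE1: smooth local solution of the Euler-Lagrange equations. -/

set_option maxSynthPendingDepth 3

open Set Manifold Filter Metric
open scoped ContDiff Topology

namespace Vale.Agent.P234

section

variable {Y : Type*} [NormedAddCommGroup Y] [NormedSpace ℝ Y]

/-- extension to the line -/
noncomputable def odeExt (h : C(Icc (-1 : ℝ) 1, Y)) (s : ℝ) : Y :=
  h (projIcc (-1) 1 (by norm_num) s)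

omit [NormedSpace ℝ Y] in
theorem odeExt_cont (h : C(Icc (-1 : ℝ) 1, Y)) : Continuous (odeExt h) :=
  h.continuous.comp continuous_projIcc

omit [NormedSpace ℝ Y] in
theorem odeExt_mem (h : C(Icc (-1 : ℝ) 1, Y)) {s : ℝ} (hs : s ∈ Icc (-1 : ℝ) 1) :
    odeExt h s = h ⟨s, hs⟩ := by rw [odeExt, projIcc_of_mem]

variable [CompleteSpace Y]

variable (Y) in
/-- the primitive vanishing at `0` -/
noncomputable def odeI : C(Icc (-1 : ℝ) 1, Y) →L[ℝ] C(Icc (-1 : ℝ) 1, Y) :=
  LinearMap.mkContinuous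
    { toFun := fun h => ⟨fun t => ∫ s in (0 : ℝ)..t, odeExt h s,
        (intervalIntegral.continuous_primitive
          (fun a b => (odeExt_cont h).intervalIntegrable a b) 0).comp continuous_subtype_val⟩
      map_add' := fun h h' => by
        ext t
        exact intervalIntegral.integral_add ((odeExt_cont h).intervalIntegrable _ _)
          ((odeExt_cont h').intervalIntegrable _ _)
      map_smul' := fun c h => by
        ext t
        exact intervalIntegral.integral_smul c (odeExt h) } 1 fun h => by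
    have h0 : 0 ≤ ‖h‖ := (norm_nonneg (h ⟨0, by norm_num⟩)).trans (h.norm_coe_le_norm _)
    rw [one_mul, ContinuousMap.norm_le _ h0]
    intro t
    refine (intervalIntegral.norm_integral_le_of_norm_le_const (C := ‖h‖)
      fun s _ => h.norm_coe_le_norm _).trans ?_
    rw [sub_zero]
    exact mul_le_of_le_one_right h0 (abs_le.2 t.2)

theorem odeI_apply (h : C(Icc (-1 : ℝ) 1, Y)) (t : Icc (-1 : ℝ) 1) :
    odeI Y h t = ∫ s in (0 : ℝ)..t, odeExt h s := rfl

/-- the implicit function theorem for an integral equation with nilpotent linear part -/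
theorem ode_int {h1 h2 : Y → Y} (s1 : ContDiff ℝ ∞ h1) (s2 : ContDiff ℝ ∞ h2) {p : Y}
    (A : Y →L[ℝ] Y) (hA : ∀ y, A (A y) = 0) (d1 : fderiv ℝ h1 p = ContinuousLinearMap.id ℝ Y)
    (d2 : fderiv ℝ h2 p = A) (h0 : h2 p = 0) [FiniteDimensional ℝ Y] :
    ∃ μ : Y → C(Icc (-1 : ℝ) 1, Y), μ p = ContinuousMap.const _ p ∧
      (∀ᶠ q in 𝓝 p, ContDiffAt ℝ ∞ μ q ∧
        ∀ t, h1 (μ q t) = h1 q + ∫ s in (0 : ℝ)..t, h2 (odeExt (μ q) s)) ∧
      ∀ᶠ q : Y × C(Icc (-1 : ℝ) 1, Y) in 𝓝 (p, ContinuousMap.const _ p),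
        (∀ t, h1 (q.2 t) = h1 q.1 + ∫ s in (0 : ℝ)..t, h2 (odeExt q.2 s)) → q.2 = μ q.1 := by
  let K := Icc (-1 : ℝ) 1
  let N1 := fun x : C(K, Y) => (⟨h1, s1.continuous⟩ : C(Y, Y)).comp x
  let N2 := fun x : C(K, Y) => (⟨h2, s2.continuous⟩ : C(Y, Y)).comp x
  have n1 : ContDiff ℝ ∞ N1 := nemytskii s1
  have n2 : ContDiff ℝ ∞ N2 := nemytskii s2
  let cst : Y →L[ℝ] C(K, Y) := ContinuousLinearMap.const ℝ K
  let Φ : Y × C(K, Y) → C(K, Y) := fun q => N1 q.2 - cst (h1 q.1) - odeI Y (N2 q.2)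
  have hΦ : ContDiff ℝ ∞ Φ := ((n1.comp contDiff_snd).sub
    (contDiff_const.clm_apply (s1.comp contDiff_fst))).sub
    (contDiff_const.clm_apply (n2.comp contDiff_snd))
  let N : C(K, Y) →L[ℝ] C(K, Y) := (odeI Y).comp (A.compLeftContinuous ℝ K)
  have hN : ∀ h, N (N h) = 0 := fun h => by
    ext t
    have e : ∀ s, odeExt (A.compLeftContinuous ℝ K (N h)) s = 0 := fun s => by
      change A (∫ r in (0 : ℝ)..(projIcc (-1 : ℝ) 1 (by norm_num) s : ℝ), A (odeExt h r)) = 0
      rw [A.intervalIntegral_comp_comm ((odeExt_cont h).intervalIntegrable _ _), hA]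
    change ∫ s in (0 : ℝ)..t, odeExt (A.compLeftContinuous ℝ K (N h)) s = 0
    simp only [e, intervalIntegral.integral_zero]
  let L : C(K, Y) ≃L[ℝ] C(K, Y) := ContinuousLinearEquiv.equivOfInverse
    (ContinuousLinearMap.id ℝ _ - N) (ContinuousLinearMap.id ℝ _ + N)
    (fun h => by simp [hN]) (fun h => by simp [hN])
  have key : ∀ q : Y × C(K, Y), Φ q = 0 ↔
      ∀ t, h1 (q.2 t) = h1 q.1 + ∫ s in (0 : ℝ)..t, h2 (odeExt q.2 s) := fun q => by
    rw [ContinuousMap.ext_iff]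
    refine forall_congr' fun t => ?_
    change h1 (q.2 t) - h1 q.1 - ∫ s in (0 : ℝ)..t, h2 (odeExt q.2 s) = 0 ↔ _
    rw [sub_sub, sub_eq_zero]
  have z0 : Φ (p, ContinuousMap.const K p) = 0 := (key _).2 fun t => by
    change h1 p = h1 p + ∫ s in (0 : ℝ)..t, h2 p
    simp [h0]
  have hL : HasFDerivAt (fun x => Φ (p, x)) (L : C(K, Y) →L[ℝ] C(K, Y))
      (ContinuousMap.const K p) := by
    have a1 := (n1.differentiable (by simp) (ContinuousMap.const K p)).hasFDerivAt
    have a2 := (n2.differentiable (by simp) (ContinuousMap.const K p)).hasFDerivAt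
    have e1 : fderiv ℝ N1 (ContinuousMap.const K p) = ContinuousLinearMap.id ℝ _ := by
      ext h t
      rw [nemytskii_hasFDerivAt s1]
      simp [d1]
    have e2 : fderiv ℝ N2 (ContinuousMap.const K p) = A.compLeftContinuous ℝ K := by
      ext h t
      rw [nemytskii_hasFDerivAt s2]
      exact DFunLike.congr_fun d2 (h t)
    rw [e1] at a1
    rw [e2] at a2
    exact (a1.sub_const (cst (h1 p))).sub ((odeI Y).hasFDerivAt.comp _ a2)
  obtain ⟨μ, m0, m1, m2⟩ := ift2 (Eventually.of_forall fun q => hΦ.contDiffAt) L hL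
  rw [z0] at m1 m2
  exact ⟨μ, m0, m1.mono fun q hq => ⟨hq.1, (key _).1 hq.2⟩,
    m2.mono fun q hq h => hq ((key _).2 h)⟩

end

variable {E : Type*} [NormedAddCommGroup E] [NormedSpace ℝ E] [FiniteDimensional ℝ E]

theorem ode1 (G : E → E →L[ℝ] E →L[ℝ] ℝ) (hG : ContDiff ℝ ∞ G) (a₀ : E)
    (hp : ∀ v, v ≠ 0 → 0 < G a₀ v v) :
    ∃ (x u : E × E → ℝ → E) (r : ℝ), 0 < r ∧
      ContDiffOn ℝ ∞ (fun q => x q 1) (ball a₀ r ×ˢ ball 0 r) ∧
      (∀ ε > 0, ∀ᶠ q in 𝓝 (a₀, (0 : E)), ∀ t ∈ Icc (-1 : ℝ) 1, ‖x q t - a₀‖ < ε) ∧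
      ∀ a ∈ ball a₀ r, ∀ v ∈ ball (0 : E) r, x (a, v) 0 = a ∧ u (a, v) 0 = v ∧
        (∀ c ∈ Icc (-1 : ℝ) 1, x (a, c • v) 1 = x (a, v) c) ∧
        ∀ t ∈ Ioo (-1 : ℝ) 1, HasDerivAt (x (a, v)) (u (a, v) t) t ∧ ∀ w : E,
          HasDerivAt (fun s => G (x (a, v) s) (u (a, v) s) w)
            (1 / 2 * fderiv ℝ G (x (a, v) t) w (u (a, v) t) (u (a, v) t)) t := by
  have : CompleteSpace E := FiniteDimensional.complete ℝ E
  obtain ⟨Lg, hLg⟩ := bil_equiv (G a₀) hp
  have hLg' : ∀ v, Lg.symm (G a₀ v) = v := fun v => by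
    rw [← hLg]; exact Lg.symm_apply_apply v
  have hD : ContDiff ℝ ∞ (fderiv ℝ G) := hG.fderiv_right (m := ∞) (by simp)
  let k1 : E × E → E →L[ℝ] ℝ := fun p => G p.1 p.2
  let k2 : E × E → E →L[ℝ] ℝ := fun p => (1 / 2 : ℝ) • ((fderiv ℝ G p.1).flip p.2).flip p.2
  have sk1 : ContDiff ℝ ∞ k1 := (hG.comp contDiff_fst).clm_apply contDiff_snd
  have sk2 : ContDiff ℝ ∞ k2 := by
    refine contDiff_clm_apply_iff.2 fun w => ?_
    simp only [k2, ContinuousLinearMap.smul_apply, ContinuousLinearMap.flip_apply]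
    exact ((((hD.comp contDiff_fst).clm_apply contDiff_const).clm_apply contDiff_snd).clm_apply
      contDiff_snd).const_smul _
  let h1 : E × E → E × E := fun p => (p.1, Lg.symm (k1 p))
  let h2 : E × E → E × E := fun p => (p.2, Lg.symm (k2 p))
  have s1 : ContDiff ℝ ∞ h1 := contDiff_fst.prodMk (Lg.symm.contDiff.comp sk1)
  have s2 : ContDiff ℝ ∞ h2 := contDiff_snd.prodMk (Lg.symm.contDiff.comp sk2)
  have d1 : fderiv ℝ h1 (a₀, 0) = ContinuousLinearMap.id ℝ _ := by
    have b : HasFDerivAt k1 _ (a₀, 0) :=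
      (HasFDerivAt.comp (a₀, (0 : E)) (g := G) (f := Prod.fst)
        (hG.differentiable (by simp) a₀).hasFDerivAt hasFDerivAt_fst).clm_apply hasFDerivAt_snd
    have b2 : HasFDerivAt h1 _ (a₀, 0) :=
      hasFDerivAt_fst.prodMk ((Lg.symm : (E →L[ℝ] ℝ) →L[ℝ] E).hasFDerivAt.comp _ b)
    rw [b2.fderiv]
    refine ContinuousLinearMap.ext fun p => Prod.ext rfl ?_
    simp [hLg']
  have d2 : fderiv ℝ h2 (a₀, 0) =
      (ContinuousLinearMap.inl ℝ E E).comp (ContinuousLinearMap.snd ℝ E E) := by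
    have b : fderiv ℝ k2 (a₀, 0) = 0 := by
      refine ContinuousLinearMap.ext fun p => ContinuousLinearMap.ext fun w => ?_
      have c1 := ((sk2.differentiable (by simp) (a₀, 0)).hasFDerivAt.clm_apply
        (hasFDerivAt_const w _))
      have c2 := (((((HasFDerivAt.comp (a₀, (0 : E)) (g := fderiv ℝ G) (f := Prod.fst)
        (hD.differentiable (by simp) a₀).hasFDerivAt hasFDerivAt_fst).clm_apply
        (hasFDerivAt_const w _)).clm_apply hasFDerivAt_snd).clm_apply hasFDerivAt_snd).const_smul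
        (1 / 2 : ℝ))
      have := DFunLike.congr_fun (c1.unique c2) p
      simpa using this
    have b' := (sk2.differentiable (by simp) (a₀, 0)).hasFDerivAt
    rw [b] at b'
    have b2 : HasFDerivAt h2 _ (a₀, 0) :=
      hasFDerivAt_snd.prodMk ((Lg.symm : (E →L[ℝ] ℝ) →L[ℝ] E).hasFDerivAt.comp _ b')
    rw [b2.fderiv]
    refine ContinuousLinearMap.ext fun p => Prod.ext rfl ?_
    simp
  obtain ⟨μ, m0, m1, m2⟩ := ode_int s1 s2 (p := (a₀, 0)) _ (fun y => by simp) d1 d2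
    (by simp [h2, k2])
  have mc : ContinuousAt μ (a₀, 0) := m1.self_of_nhds.1.continuousAt
  have near : ∀ ε > 0, ∀ᶠ q in 𝓝 (a₀, (0 : E)), ∀ t, dist (μ q t) (a₀, 0) < ε := fun ε hε => by
    filter_upwards [mc.eventually (ball_mem_nhds _ hε)] with q hq t
    rw [m0] at hq
    exact (ContinuousMap.dist_apply_le_dist t).trans_lt hq
  obtain ⟨ρ, hρ, H2⟩ := Metric.eventually_nhds_iff_ball.1 m2
  obtain ⟨C, -, hC⟩ := bil_lower hG.continuous.continuousAt hp
  obtain ⟨r, hr, H⟩ := Metric.eventually_nhds_iff_ball.1 (m1.and ((near (ρ / 2) (half_pos hρ)).and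
    ((continuousAt_fst.eventually hC).and (ball_mem_nhds (a₀, (0 : E)) hρ))))
  rw [← ball_prod_same] at H
  refine ⟨fun q t => (odeExt (μ q) t).1, fun q t => (odeExt (μ q) t).2, r, hr,
    fun q hq => ?_, fun ε hε => ?_, fun a ha v hv => ?_⟩
  · exact (contDiff_fst.contDiffAt.comp q ((ContinuousMap.evalCLM ℝ
      (projIcc (-1 : ℝ) 1 (by norm_num) 1)).contDiff.contDiffAt.comp q
        (H q hq).1.1)).contDiffWithinAt
  · filter_upwards [near ε hε] with q hq t _
    rw [← dist_eq_norm]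
    exact (le_max_left _ _).trans_lt (hq _)
  obtain ⟨⟨-, e1⟩, e2, e3, e4⟩ := H (a, v) ⟨ha, hv⟩
  have z0 := e1 ⟨0, by norm_num⟩
  rw [← odeExt_mem] at z0
  simp only [intervalIntegral.integral_same, add_zero, h1, Prod.mk.injEq,
    EmbeddingLike.apply_eq_iff_eq, k1] at z0
  refine ⟨z0.1, ?_, fun c hc => ?_, fun t ht => ?_⟩
  · have := e3 ((odeExt (μ (a, v)) 0).2 - v)
    rw [map_sub (G a), ← z0.2, z0.1, sub_self] at this
    simp only [ContinuousLinearMap.zero_apply, Real.sqrt_zero, mul_zero, norm_le_zero_iff] at this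
    exact sub_eq_zero.1 this
  · let S : E × E →L[ℝ] E × E := (ContinuousLinearMap.fst ℝ E E).prod
      (c • ContinuousLinearMap.snd ℝ E E)
    have hS : ∀ p : E × E, dist (S p) (a₀, 0) ≤ dist p (a₀, 0) := fun p => by
      refine max_le_max le_rfl ?_
      simp only [S, dist_zero_right, ContinuousLinearMap.prod_apply,
        ContinuousLinearMap.smul_apply, norm_smul, ContinuousLinearMap.coe_snd']
      exact mul_le_of_le_one_left (norm_nonneg _) (abs_le.2 hc)
    have S1 : ∀ p, h1 (S p) = S (h1 p) := fun p => by simp [h1, S, k1]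
    have S2 : ∀ p, h2 (S p) = S (c • h2 p) := fun p => by simp [h2, S, k2, smul_comm c]
    have mem : ∀ t ∈ Icc (-1 : ℝ) 1, c * t ∈ Icc (-1 : ℝ) 1 := fun t ht => by
      rw [mem_Icc, ← abs_le, abs_mul]
      exact mul_le_one₀ (abs_le.2 hc) (abs_nonneg _) (abs_le.2 ht)
    let zc : C(Icc (-1 : ℝ) 1, E × E) := ⟨fun t => S (odeExt (μ (a, v)) (c * t)),
      S.continuous.comp ((odeExt_cont _).comp (continuous_const.mul continuous_subtype_val))⟩
    have := H2 (S (a, v), zc) (by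
      rw [← ball_prod_same]
      refine ⟨(hS _).trans_lt e4, lt_of_le_of_lt ((ContinuousMap.dist_le (half_pos hρ).le).2
        fun t => (hS _).trans (e2 _).le) (half_lt_self hρ)⟩) fun t => by
      have i1 : ∫ s in (0 : ℝ)..t, h2 (odeExt zc s) =
          ∫ s in (0 : ℝ)..t, S (c • h2 (odeExt (μ (a, v)) (c * s))) :=
        intervalIntegral.integral_congr fun s hs => by
          have hs' : s ∈ Icc (-1 : ℝ) 1 := uIcc_subset_Icc (by norm_num) t.2 hs
          simp only [odeExt_mem _ hs', ← S2]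
          rfl
      have hc2 : Continuous fun s => h2 (odeExt (μ (a, v)) s) := s2.continuous.comp (odeExt_cont _)
      have hc3 : Continuous fun s => c • h2 (odeExt (μ (a, v)) (c * s)) :=
        (hc2.comp (continuous_const.mul continuous_id)).const_smul c
      have i2 := e1 ⟨c * t, mem t t.2⟩
      rw [← odeExt_mem] at i2
      rw [i1, S.intervalIntegral_comp_comm (hc3.intervalIntegrable _ _),
        intervalIntegral.integral_smul,
        intervalIntegral.smul_integral_comp_mul_left (fun s => h2 (odeExt (μ (a, v)) s)), mul_zero,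
        S1, ← map_add, ← i2, ← S1]
      rfl
    have e5 : S (a, v) = (a, c • v) := rfl
    simp only [e5] at this
    simp only [← this, odeExt_mem _ (show (1 : ℝ) ∈ Icc (-1 : ℝ) 1 by norm_num)]
    simp [zc, S]
  · have hc2 : Continuous fun s => h2 (odeExt (μ (a, v)) s) := s2.continuous.comp (odeExt_cont _)
    have D : HasDerivAt (fun s => h1 (odeExt (μ (a, v)) s)) (h2 (odeExt (μ (a, v)) t)) t := by
      refine ((hc2.integral_hasStrictDerivAt 0 t).hasDerivAt.const_add (h1 (a, v))).congr_of_eventuallyEq ?_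
      filter_upwards [Icc_mem_nhds ht.1 ht.2] with s hs
      rw [odeExt_mem _ hs, e1]
    refine ⟨(ContinuousLinearMap.fst ℝ E E).hasFDerivAt.comp_hasDerivAt t D, fun w => ?_⟩
    have := (((ContinuousLinearMap.apply ℝ ℝ w).comp (Lg : E →L[ℝ] E →L[ℝ] ℝ)).comp
      (ContinuousLinearMap.snd ℝ E E)).hasFDerivAt.comp_hasDerivAt t D
    simpa [h1, h2, k1, k2, Function.comp_def] using this

end Vale.Agent.P234
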