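import Vale.Agent.P234.ODE1

/-! P234 ODE2: the local spray (cut off the metric and rescale). -/

set_option maxSynthPendingDepth 3

open Set Manifold Filter Metric
open scoped ContDiff Topology

namespace Vale.Agent.P234

variable {E : Type*} [NormedAddCommGroup E] [NormedSpace ℝ E] [FiniteDimensional ℝ E]

theorem ode2_cut {Y : Type*} [NormedAddCommGroup Y] [NormedSpace ℝ Y] (G : E → Y) {T : Set E}
    (hT : IsOpen T) (hG : ContDiffOn ℝ ∞ G T) {a₀ : E} (ha : a₀ ∈ T) :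
    ∃ (G' : E → Y) (ε : ℝ), 0 < ε ∧ ball a₀ ε ⊆ T ∧ ContDiff ℝ ∞ G' ∧ EqOn G' G (ball a₀ ε) := by
  obtain ⟨δ, hδ, hb⟩ := Metric.nhds_basis_closedBall.mem_iff.1 (hT.mem_nhds ha)
  let χ : ContDiffBump a₀ := ⟨δ / 2, δ, half_pos hδ, half_lt_self hδ⟩
  refine ⟨fun a => χ a • G a, δ / 2, half_pos hδ,
    (ball_subset_closedBall.trans (closedBall_subset_closedBall (half_le_self hδ.le))).trans hb,
    contDiff_iff_contDiffAt.2 fun a => ?_, fun a h => ?_⟩
  · by_cases h : a ∈ T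
    · exact χ.contDiff.contDiffAt.smul (hG.contDiffAt (hT.mem_nhds h))
    · refine (contDiffAt_const (c := (0 : Y))).congr_of_eventuallyEq ?_
      have : a ∉ tsupport χ := by rw [χ.tsupport_eq]; exact fun e => h (hb e)
      filter_upwards [notMem_tsupport_iff_eventuallyEq.1 this] with b hb
      simp [hb]
  · simp [χ.one_of_mem_closedBall (ball_subset_closedBall h)]

theorem exists_spray (G : E → E →L[ℝ] E →L[ℝ] ℝ) {T : Set E} (hT : IsOpen T)
    (hG : ContDiffOn ℝ ∞ G T) {a₀ : E} (ha : a₀ ∈ T) (hp : ∀ v, v ≠ 0 → 0 < G a₀ v v) :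
    Nonempty (Spray G T a₀) := by
  obtain ⟨G', ε, hε, hb, hG', he⟩ := ode2_cut G hT hG ha
  obtain ⟨x, u, r, hr, sm, nr, H⟩ := ode1 G' hG' a₀ (by rw [he (mem_ball_self hε)]; exact hp)
  obtain ⟨r1, hr1, H1⟩ := Metric.eventually_nhds_iff_ball.1 (nr ε hε)
  rw [← ball_prod_same] at H1
  set ρ := min (min r r1) ε with hρ
  have l1 : ρ ≤ r := (min_le_left _ _).trans (min_le_left _ _)
  have l2 : ρ ≤ r1 := (min_le_left _ _).trans (min_le_right _ _)
  have smX : ContDiffOn ℝ ∞ (fun q => x q 1) (ball a₀ ρ ×ˢ ball 0 ρ) :=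
    sm.mono (prod_mono (ball_subset_ball l1) (ball_subset_ball l1))
  have inb : ∀ a ∈ ball a₀ ρ, ∀ v ∈ ball (0 : E) ρ, x (a, v) 1 ∈ ball a₀ ε := fun a ha v hv => by
    rw [mem_ball, dist_eq_norm]
    exact H1 (a, v) ⟨ball_subset_ball l2 ha, ball_subset_ball l2 hv⟩ 1 (by norm_num)
  have key : ∀ a ∈ ball a₀ ρ, ∀ (v : E) (t : ℝ), t • v ∈ ball (0 : E) ρ → ∃ τ : ℝ, |t| < τ ∧
      τ • v ∈ ball (0 : E) ρ ∧ ∀ s, |s| < τ → x (a, s • v) 1 = x (a, τ • v) (τ⁻¹ * s) ∧
        τ⁻¹ * s ∈ Ioo (-1 : ℝ) 1 ∧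
        fderiv ℝ (fun q => x q 1) (a, s • v) (0, v) = τ⁻¹ • u (a, τ • v) (τ⁻¹ * s) := by
    intro a ha v t ht
    have c : ContinuousAt (fun s : ℝ => s • v) |t| := by fun_prop
    have h0 : |t| • v ∈ ball (0 : E) ρ := by simpa [norm_smul] using ht
    obtain ⟨τ, h1, h2⟩ := (((c.eventually (isOpen_ball.mem_nhds h0)).filter_mono
      nhdsWithin_le_nhds).and (self_mem_nhdsWithin (s := Ioi |t|))).exists
    have τ0 : 0 < τ := (abs_nonneg t).trans_lt h2
    obtain ⟨-, -, h3, h4⟩ := H a (ball_subset_ball l1 ha) _ (ball_subset_ball l1 h1)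
    have m : ∀ s, |s| < τ → τ⁻¹ * s ∈ Ioo (-1 : ℝ) 1 := fun s hs => by
      rw [mem_Ioo, ← abs_lt, abs_mul, abs_of_pos (inv_pos.2 τ0), inv_mul_lt_iff₀ τ0, mul_one]
      exact hs
    have e : ∀ s, |s| < τ → x (a, s • v) 1 = x (a, τ • v) (τ⁻¹ * s) := fun s hs => by
      rw [← h3 _ (Ioo_subset_Icc_self (m s hs)), smul_smul, mul_right_comm, inv_mul_cancel₀ τ0.ne',
        one_mul]
    refine ⟨τ, h2, h1, fun s hs => ⟨e s hs, m s hs, ?_⟩⟩
    have hsv : s • v ∈ ball (0 : E) ρ := by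
      rw [dist_zero_right, norm_smul] at h1
      rw [mem_ball_zero_iff, norm_smul]
      exact (mul_le_mul_of_nonneg_right (by simpa [abs_of_pos τ0] using hs.le)
        (norm_nonneg _)).trans_lt h1
    have d1 : HasDerivAt (fun s' : ℝ => x (a, s' • v) 1) _ s :=
      HasFDerivAt.comp_hasDerivAt (l := fun q => x q 1) (f := fun s' : ℝ => (a, s' • v)) s
        ((smX.contDiffAt ((isOpen_ball.prod isOpen_ball).mem_nhds ⟨ha, hsv⟩)).differentiableAt
          (by simp)).hasFDerivAt ((hasDerivAt_const s a).prodMk ((hasDerivAt_id' s).smul_const v))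
    have d2 := ((h4 _ (m s hs)).1.scomp s ((hasDerivAt_id' s).const_mul τ⁻¹)).congr_of_eventuallyEq
      (f₁ := fun s' : ℝ => x (a, s' • v) 1) (by
        filter_upwards [(isOpen_lt continuous_abs continuous_const).mem_nhds hs] with s' hs'
        exact e s' hs')
    simpa using d1.unique d2
  refine ⟨⟨fun q => x q 1, ρ, lt_min (lt_min hr hr1) hε,
    (ball_subset_ball (min_le_right _ _)).trans hb, smX, fun a ha v hv => hb (inb a ha v hv),
    fun a ha => ?_, fun a ha v => ?_, fun a ha v t ht w => ?_⟩⟩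
  · obtain ⟨h1, -, h3, -⟩ := H a (ball_subset_ball l1 ha) 0 (mem_ball_self hr)
    simpa [h1] using h3 0 (by norm_num)
  · obtain ⟨τ, h1, h2, h3⟩ := key a ha v 0
      (by rw [zero_smul]; exact mem_ball_self (lt_min (lt_min hr hr1) hε))
    have := (h3 0 h1).2.2
    rw [zero_smul, mul_zero, (H a (ball_subset_ball l1 ha) _ (ball_subset_ball l1 h2)).2.1,
      smul_smul, inv_mul_cancel₀ ((abs_nonneg _).trans_lt h1).ne', one_smul] at this
    exact this
  · obtain ⟨τ, h1, h2, h3⟩ := key a ha v t ht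
    obtain ⟨e1, m, e2⟩ := h3 t h1
    have d := (((H a (ball_subset_ball l1 ha) _ (ball_subset_ball l1 h2)).2.2.2 _ m).2 w).comp t
      ((hasDerivAt_id' t).const_mul τ⁻¹) |>.const_mul τ⁻¹
    have e3 : fderiv ℝ G (x (a, t • v) 1) = fderiv ℝ G' (x (a, t • v) 1) :=
      (he.eventuallyEq_of_mem (isOpen_ball.mem_nhds (inb a ha _ ht))).fderiv_eq.symm
    have c : ContinuousAt (fun s : ℝ => s • v) t := by fun_prop
    refine (d.congr_deriv ?_).congr_of_eventuallyEq ?_
    · rw [e1] at e3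
      simp only [e3, e2, e1, map_smul, ContinuousLinearMap.smul_apply, smul_eq_mul]
      ring
    · filter_upwards [(isOpen_lt continuous_abs continuous_const).mem_nhds h1,
        c.eventually (isOpen_ball.mem_nhds ht)] with s hs hs'
      obtain ⟨e1, -, e2⟩ := h3 s hs
      simp only [← he (inb a ha _ hs'), e2, Function.comp, map_smul,
        ContinuousLinearMap.smul_apply, smul_eq_mul, ← e1]

end Vale.Agent.P234
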