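import Mathlib

/-! Statement-level definitions for P234: geodesics, exponential map, injectivity domain and the
MTW tensor of a Riemannian manifold in the sense of Mathlib. -/

open Bundle Set Manifold
open scoped ContDiff Topology

namespace Vale.Agent.P234

variable {E : Type*} [NormedAddCommGroup E] [NormedSpace ℝ E]
  {M : Type*} [MetricSpace M] [ChartedSpace E M]
  [RiemannianBundle (fun x : M => TangentSpace 𝓘(ℝ, E) x)]

/-- `γ : ℝ → M` is the complete geodesic with initial point `x` and initial velocity `v`: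
`γ 0 = x`, `γ' 0 = v`, and `γ` is locally length minimizing with constant speed `‖v‖`. -/
def IsGeodesic (x : M) (v : TangentSpace 𝓘(ℝ, E) x) (γ : ℝ → M) : Prop :=
  MDifferentiableAt 𝓘(ℝ, ℝ) 𝓘(ℝ, E) γ 0 ∧
  tangentMap 𝓘(ℝ, ℝ) 𝓘(ℝ, E) γ ⟨0, (1 : ℝ)⟩ = ⟨x, v⟩ ∧
  ∀ t₀ : ℝ, ∃ ε > 0, ∀ s ∈ Ioo (t₀ - ε) (t₀ + ε), ∀ t ∈ Ioo (t₀ - ε) (t₀ + ε),
    dist (γ s) (γ t) = ‖v‖ * |s - t|

open Classical in
/-- The Riemannian exponential map: the position at time `1` of the geodesic with initial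
data `(x, v)`. -/
noncomputable def expMap (x : M) (v : TangentSpace 𝓘(ℝ, E) x) : M :=
  if h : ∃ γ : ℝ → M, IsGeodesic x v γ then h.choose 1 else x

/-- The cost `c(x, y) = d(x, y) ^ 2 / 2`. -/
noncomputable def cost (x y : M) : ℝ := dist x y ^ 2 / 2

/-- The tangent injectivity domain `I(x)`. -/
def injDom (x : M) : Set (TangentSpace 𝓘(ℝ, E) x) :=
  {v | ∃ a : ℝ, 1 < a ∧ dist x (expMap x (a • v)) = a * ‖v‖}

/-- The Ma-Trudinger-Wang tensor. -/
noncomputable def mtw (x : M) (v ξ η : TangentSpace 𝓘(ℝ, E) x) : ℝ :=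
  -(3 / 2) * iteratedDeriv 2 (fun s : ℝ => iteratedDeriv 2
    (fun t : ℝ => cost (expMap x (t • ξ)) (expMap x (v + s • η))) 0) 0

variable (E M) in
/-- The weak MTW condition. -/
def WeakMTW : Prop :=
  ∀ (x : M) (v ξ η : TangentSpace 𝓘(ℝ, E) x), v ∈ injDom x → inner ℝ ξ η = 0 → 0 ≤ mtw x v ξ η

end Vale.Agent.P234
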