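import Vale.Agent.P234.Bas
import Vale.Agent.P234.CalcB

/-! P234 TouA: first variation and its consequences. -/

open Set Manifold Filter Metric
open scoped ContDiff Topology

namespace Vale.Agent.P234

variable {E : Type*} [NormedAddCommGroup E] [NormedSpace ℝ E] [FiniteDimensional ℝ E]
  {M : Type*} [MetricSpace M] [ChartedSpace E M] [IsManifold 𝓘(ℝ, E) ∞ M] [CompactSpace M]

namespace Geo

variable (Γ : Geo E M) {p : M} {a : E}

theorem hasFDerivAt_dist_sq (ha : a ∈ (chartAt E p).target) {u : E} (hu : u ∈ Γ.Ib p a)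
    (hg : GoodPair E ((chartAt E p).symm a) (Γ.Ex p a u)) :
    HasFDerivAt (fun ζ => dist (Γ.Ex p a ζ) (Γ.Ex p a u) ^ 2) ((-2 : ℝ) • Γ.G p a u) 0 := by
  have e0 := Γ.ex0 p a ha
  refine touch (Γ.G p a) (Γ.symm p a) (Γ.pos p a ha) (e := Γ.Ex p a) ?_ ?_ ?_ ?_
  · exact Eventually.of_forall fun ζ => by rw [e0]; exact Γ.dist_le ha ζ
  · rw [e0]; exact hu
  · have : ∀ᶠ t in 𝓝[>] (0 : ℝ), t < 1 :=
      nhdsWithin_le_nhds (Iio_mem_nhds (by norm_num : (0 : ℝ) < 1))
    filter_upwards [this] with t ht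
    have h := Γ.lip p a ha u t 1
    rw [one_smul, abs_sub_comm, abs_of_pos (by linarith)] at h
    exact h
  · have hg' : GoodPair E (Γ.Ex p a 0) ((fun _ : E => Γ.Ex p a u) 0) := by
      rw [e0]; exact hg
    have h := GoodPair.comp (f := Γ.Ex p a) (g := fun _ : E => Γ.Ex p a u) (t₀ := (0 : E)) hg'
      (Eventually.of_forall fun t => Γ.smEx_fix ha t)
      (Eventually.of_forall fun t => contMDiffAt_const)
    exact h.self_of_nhds.differentiableAt (by simp)

theorem hasFDerivAt_C (ha : a ∈ (chartAt E p).target) {u : E} (hu : u ∈ Γ.Ib p a)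
    (hg : GoodPair E ((chartAt E p).symm a) (Γ.Ex p a u)) :
    HasFDerivAt (Γ.C p a u) (-Γ.G p a u) 0 := by
  have h := (Γ.hasFDerivAt_dist_sq ha hu hg).const_mul (1 / 2 : ℝ)
  have e1 : (fun ζ => (1 / 2 : ℝ) * dist (Γ.Ex p a ζ) (Γ.Ex p a u) ^ 2) = Γ.C p a u := by
    funext ζ; simp only [C]; ring
  have e2 : (1 / 2 : ℝ) • ((-2 : ℝ) • Γ.G p a u) = -Γ.G p a u := by
    ext w; simp
  rw [e1, e2] at h
  exact h

theorem min_unique (ha : a ∈ (chartAt E p).target) {u u' : E} (hu : u ∈ Γ.Ib p a)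
    (hu' : u' ∈ Γ.Ib p a) (he : Γ.Ex p a u = Γ.Ex p a u')
    (hg : GoodPair E ((chartAt E p).symm a) (Γ.Ex p a u)) : u = u' := by
  have h1 := Γ.hasFDerivAt_dist_sq ha hu hg
  have h2 := Γ.hasFDerivAt_dist_sq ha hu' (he ▸ hg)
  rw [he] at h1
  have h3 := h1.unique h2
  refine bil_ext (Γ.G p a) (Γ.pos p a ha) fun w => ?_
  have := congrArg (fun L : E →L[ℝ] ℝ => L w) h3
  simp only [ContinuousLinearMap.smul_apply, smul_eq_mul] at this
  linarith

theorem nc (ha : a ∈ (chartAt E p).target) {α β : E} (hα : α ∈ Γ.Ib p a) (hβ : β ∈ Γ.Ib p a)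
    (hn : Γ.G p a α α = Γ.G p a β β)
    (h : dist (Γ.Ex p a α) (Γ.Ex p a β) = √(Γ.G p a α α) + √(Γ.G p a β β)) : β = -α := by
  obtain ⟨δ, hδ, hgood⟩ := Γ.locGood
  set L := √(Γ.G p a α α) with hL
  have hL0 : 0 ≤ L := Real.sqrt_nonneg _
  have hLβ : √(Γ.G p a β β) = L := by rw [hL, hn]
  rcases hL0.eq_or_lt with h0 | hpos
  · have hz : ∀ v : E, √(Γ.G p a v v) = 0 → v = 0 := fun v hv => by
      by_contra hne
      exact (Real.sqrt_pos.2 (Γ.pos p a ha v hne)).ne' hv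
    rw [hz α (hL ▸ h0.symm), hz β (hLβ.trans h0.symm), neg_zero]
  obtain ⟨ε, hε0, hε1, hεδ⟩ : ∃ ε : ℝ, 0 < ε ∧ ε ≤ 1 ∧ ε * L < δ := by
    refine ⟨min 1 (δ / (2 * L)), lt_min one_pos (by positivity), min_le_left _ _, ?_⟩
    have : min 1 (δ / (2 * L)) * L ≤ δ / (2 * L) * L :=
      mul_le_mul_of_nonneg_right (min_le_right _ _) hL0
    have e : δ / (2 * L) * L = δ / 2 := by field_simp
    linarith
  have hα' := Γ.smul_mem_Ib ha hα hε0.le hε1
  have hβ' := Γ.smul_mem_Ib ha hβ hε0.le hε1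
  have nα : √(Γ.G p a (ε • α) (ε • α)) = ε * L := by
    rw [bil_sqrt_smul, abs_of_pos hε0]
  have nβ : √(Γ.G p a (ε • β) (ε • β)) = ε * L := by
    rw [bil_sqrt_smul, abs_of_pos hε0, hLβ]
  have dα : dist ((chartAt E p).symm a) (Γ.Ex p a (ε • α)) = ε * L := hα'.trans nα
  have dβ : dist ((chartAt E p).symm a) (Γ.Ex p a (ε • β)) = ε * L := hβ'.trans nβ
  have gα := hgood _ _ (dα ▸ hεδ : dist ((chartAt E p).symm a) (Γ.Ex p a (ε • α)) < δ)
  have gβ := hgood _ _ (dβ ▸ hεδ : dist ((chartAt E p).symm a) (Γ.Ex p a (ε • β)) < δ)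
  have e0 := Γ.ex0 p a ha
  have hd : dist (Γ.Ex p a (ε • α)) (Γ.Ex p a (ε • β)) =
      √(Γ.G p a (ε • α) (ε • α)) + √(Γ.G p a (ε • β) (ε • β)) := by
    rw [nα, nβ]
    apply le_antisymm
    · have := dist_triangle_left (Γ.Ex p a (ε • α)) (Γ.Ex p a (ε • β)) ((chartAt E p).symm a)
      linarith
    · have l1 := Γ.lip p a ha α 1 ε
      have l2 := Γ.lip p a ha β ε 1
      rw [one_smul, abs_of_nonneg (by linarith)] at l1
      rw [one_smul, abs_sub_comm, abs_of_nonneg (by linarith), hLβ] at l2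
      have t := dist_triangle4 (Γ.Ex p a α) (Γ.Ex p a (ε • α)) (Γ.Ex p a (ε • β)) (Γ.Ex p a β)
      rw [hLβ] at h
      linarith
  have key := nocorner (Γ.G p a) (Γ.pos p a ha) (e := Γ.Ex p a) (by rw [e0]; exact hα')
    (by rw [e0]; exact hβ') (Γ.hasFDerivAt_dist_sq ha hα' gα) (Γ.hasFDerivAt_dist_sq ha hβ' gβ) hd
  rw [nα, nβ, ← smul_add, ← smul_add, smul_smul] at key
  have hne : ε * L * ε ≠ 0 := by positivity
  have := (smul_eq_zero.1 key).resolve_left hne
  exact (neg_eq_of_add_eq_zero_right this).symm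

theorem dq {ι : Type*} {l : Filter ι} (ha : a ∈ (chartAt E p).target) {u : E}
    (hu : u ∈ Γ.Ib p a) (hg : GoodPair E ((chartAt E p).symm a) (Γ.Ex p a u)) {mk : ι → M}
    {tk : ι → ℝ} (hm : Tendsto mk l (𝓝 (Γ.Ex p a u))) (ht : Tendsto tk l (𝓝[≠] 0)) (ξ : E) :
    Tendsto (fun k => (dist (Γ.Ex p a (tk k • ξ)) (mk k) ^ 2 -
      dist ((chartAt E p).symm a) (mk k) ^ 2) / tk k) l (𝓝 (-2 * Γ.G p a u ξ)) := by
  set m := Γ.Ex p a u with hmdef
  have e0 := Γ.ex0 p a ha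
  have hms : m ∈ (chartAt E m).source := mem_chart_source E m
  have hmt : chartAt E m m ∈ (chartAt E m).target := mem_chart_target E m
  have hψ : (chartAt E m).symm (chartAt E m m) = m := (chartAt E m).left_inv hms
  let F : E × E → ℝ := fun q => dist (Γ.Ex p a q.2) ((chartAt E m).symm q.1) ^ 2
  have hF : ContDiffAt ℝ 1 F (chartAt E m m, 0) := by
    have hg' : GoodPair E ((fun q : E × E => Γ.Ex p a q.2) (chartAt E m m, 0))
        ((fun q : E × E => (chartAt E m).symm q.1) (chartAt E m m, 0)) := by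
      simp only [e0, hψ]; exact hg
    have h := GoodPair.comp (f := fun q : E × E => Γ.Ex p a q.2)
      (g := fun q : E × E => (chartAt E m).symm q.1) (t₀ := (chartAt E m m, 0)) hg'
      (Eventually.of_forall fun t =>
        (Γ.smEx_fix ha t.2).comp t (contDiff_snd.contMDiff.contMDiffAt))
      (by
        have h1 := contMDiffAt_chart_symm (E := E) hmt
        have h2 : Tendsto (fun q : E × E => q.1) (𝓝 (chartAt E m m, 0)) (𝓝 (chartAt E m m)) :=
          continuous_fst.tendsto _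
        filter_upwards [h2.eventually h1] with q hq
        exact hq.comp q (contDiff_fst.contMDiff.contMDiffAt))
    exact h.self_of_nhds.of_le (by simp)
  have hθ : Tendsto (fun k => chartAt E m (mk k)) l (𝓝 (chartAt E m m)) :=
    ((chartAt E m).continuousAt hms).tendsto.comp hm
  have h := tay1 (ξ := ξ) hF hθ ht (tendsto_const_nhds (x := ξ))
  have e1 : (fun z => F (chartAt E m m, z)) = fun ζ => dist (Γ.Ex p a ζ) m ^ 2 := by
    funext z; simp only [F, hψ]
  rw [e1, (Γ.hasFDerivAt_dist_sq ha hu hg).fderiv] at h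
  simp only [ContinuousLinearMap.smul_apply, smul_eq_mul] at h
  refine h.congr' ?_
  filter_upwards [hm.eventually ((chartAt E m).open_source.mem_nhds hms)] with k hk
  simp only [F, (chartAt E m).left_inv hk, e0]

theorem near_min (ha : a ∈ (chartAt E p).target) {u : E} (hu : u ∈ Γ.Ib p a)
    (hg : GoodPair E ((chartAt E p).symm a) (Γ.Ex p a u)) {U : Set E} (hU : U ∈ 𝓝 u) :
    ∀ᶠ q : E × M in 𝓝 (a, Γ.Ex p a u), ∀ u' ∈ Γ.Ib p q.1, Γ.Ex p q.1 u' = q.2 → u' ∈ U := by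
  by_contra hcon
  rw [not_eventually] at hcon
  obtain ⟨q, hq, hbad⟩ := exists_seq_forall_of_frequently hcon
  have hbad' : ∀ k, ∃ u', u' ∈ Γ.Ib p (q k).1 ∧ Γ.Ex p (q k).1 u' = (q k).2 ∧ u' ∉ U := by
    intro k
    by_contra hne
    apply hbad k
    intro u' h1 h2
    by_contra h3
    exact hne ⟨u', h1, h2, h3⟩
  choose w hw1 hw2 hw3 using hbad'
  have hq1 : Tendsto (fun k => (q k).1) atTop (𝓝 a) := (continuous_fst.tendsto _).comp hq
  have hq2 : Tendsto (fun k => (q k).2) atTop (𝓝 (Γ.Ex p a u)) :=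
    (continuous_snd.tendsto _).comp hq
  obtain ⟨C, hC⟩ := Γ.Ib_bdd ha
  have hb : ∃ᶠ k in atTop, w k ∈ closedBall (0 : E) C := by
    refine Eventually.frequently ?_
    filter_upwards [hq1.eventually hC] with k hk
    simpa using hk _ (hw1 k)
  obtain ⟨u₀, -, φ, hφ, hlim⟩ := tendsto_subseq_of_frequently_bounded isBounded_closedBall hb
  have hφ' := hφ.tendsto_atTop
  have hu₀ : u₀ ∈ Γ.Ib p a :=
    Γ.Ib_closed ha (hq1.comp hφ') hlim (Eventually.of_forall fun k => hw1 (φ k))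
  have he : Γ.Ex p a u = Γ.Ex p a u₀ := by
    have h1 := (Γ.contEx ha u₀).tendsto.comp ((hq1.comp hφ').prodMk_nhds hlim)
    have h2 := hq2.comp hφ'
    refine tendsto_nhds_unique h2 (h1.congr fun k => ?_)
    simp only [Function.comp, hw2]
  have := Γ.min_unique ha hu hu₀ he hg
  subst this
  obtain ⟨k, hk⟩ := (hlim.eventually hU).exists
  exact hw3 _ hk

end Geo

end Vale.Agent.P234
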