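import Vale.Agent.P234.TouA

/-! P234 TouB: Hopf-Rinow, midpoints, no branching. -/

open Set Manifold Filter Metric
open scoped ContDiff Topology

namespace Vale.Agent.P234

variable {E : Type*} [NormedAddCommGroup E] [NormedSpace ℝ E] [FiniteDimensional ℝ E]
  {M : Type*} [MetricSpace M] [ChartedSpace E M] [IsManifold 𝓘(ℝ, E) ∞ M] [CompactSpace M]

namespace Geo

variable (Γ : Geo E M) {p : M} {a : E}

theorem touB_sq_eq {q : M} {b : E} (ha : a ∈ (chartAt E p).target)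
    (hb : b ∈ (chartAt E q).target) {v w : E} (h : √(Γ.G p a v v) = √(Γ.G q b w w)) :
    Γ.G p a v v = Γ.G q b w w :=
  (Real.sqrt_inj (bil_nonneg _ (Γ.pos p a ha) v) (bil_nonneg _ (Γ.pos q b hb) w)).1 h

/-- Joining two minimizing segments at a midpoint. -/
theorem touB_join (ha : a ∈ (chartAt E p).target) {α β : E} {m y : M} (hα : α ∈ Γ.Ib p a)
    (hm : Γ.Ex p a α = m) (hβ : β ∈ Γ.Ib m (chartAt E m m)) (hy : Γ.Ex m (chartAt E m m) β = y)
    (h1 : dist ((chartAt E p).symm a) m = dist ((chartAt E p).symm a) y / 2)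
    (h2 : dist m y = dist ((chartAt E p).symm a) y / 2) :
    (2 : ℝ) • α ∈ Γ.Ib p a ∧ Γ.Ex p a ((2 : ℝ) • α) = y := by
  have hms : m ∈ (chartAt E m).source := mem_chart_source E m
  have hmt : chartAt E m m ∈ (chartAt E m).target := mem_chart_target E m
  have hψ : (chartAt E m).symm (chartAt E m m) = m := (chartAt E m).left_inv hms
  have hm1 : Γ.Ex p a ((1 : ℝ) • α) = m := by rw [one_smul, hm]
  obtain ⟨w, hw1, hw2⟩ := Γ.flow p m a ha α 1 (hm1 ▸ hms)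
  rw [hm1] at hw1 hw2
  have nα : √(Γ.G p a α α) = dist ((chartAt E p).symm a) y / 2 := by
    have : dist ((chartAt E p).symm a) (Γ.Ex p a α) = √(Γ.G p a α α) := hα
    rw [← this, hm, h1]
  have nβ : √(Γ.G m (chartAt E m m) β β) = dist ((chartAt E p).symm a) y / 2 := by
    have : dist ((chartAt E m).symm (chartAt E m m)) (Γ.Ex m (chartAt E m m) β) =
      √(Γ.G m (chartAt E m m) β β) := hβ
    rw [← this, hψ, hy, h2]
  have nw : √(Γ.G m (chartAt E m m) (-w) (-w)) = dist ((chartAt E p).symm a) y / 2 := by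
    rw [← nα, ← hw1]; simp
  have ew : Γ.Ex m (chartAt E m m) (-w) = (chartAt E p).symm a := by
    have := hw2 (-1)
    rw [neg_one_smul, add_neg_cancel, zero_smul, Γ.ex0 p a ha] at this
    exact this
  have hw : -w ∈ Γ.Ib m (chartAt E m m) := by
    show dist _ _ = _
    rw [hψ, ew, nw, dist_comm, h1]
  have key := Γ.nc hmt hw hβ (Γ.touB_sq_eq hmt hmt (nw.trans nβ.symm)) (by
    rw [ew, hy, nw, nβ]; ring)
  rw [neg_neg] at key
  have e2 : Γ.Ex p a ((2 : ℝ) • α) = y := by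
    have := hw2 1
    rw [one_smul, ← key, hy, one_add_one_eq_two] at this
    exact this.symm
  refine ⟨?_, e2⟩
  show dist _ _ = _
  rw [e2, bil_sqrt_smul, nα, abs_of_pos (by norm_num : (0 : ℝ) < 2)]
  ring

theorem touB_hr_aux {δ : ℝ}
    (hδ : ∀ p, ∀ a ∈ (chartAt E p).target, ∀ y, dist ((chartAt E p).symm a) y < δ →
      ∃ v, dist ((chartAt E p).symm a) y = √(Γ.G p a v v) ∧ Γ.Ex p a v = y) (n : ℕ) :
    ∀ (p : M), ∀ a ∈ (chartAt E p).target, ∀ y, dist ((chartAt E p).symm a) y < δ * 2 ^ n →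
      ∃ v ∈ Γ.Ib p a, Γ.Ex p a v = y := by
  induction n with
  | zero =>
    intro p a ha y hy
    obtain ⟨v, h1, h2⟩ := hδ p a ha y (by simpa using hy)
    refine ⟨v, ?_, h2⟩
    show dist _ _ = _
    rw [h2, h1]
  | succ n ih =>
    intro p a ha y hy
    obtain ⟨m, h1, h2⟩ := Γ.mid ((chartAt E p).symm a) y
    have hψ : (chartAt E m).symm (chartAt E m m) = m :=
      (chartAt E m).left_inv (mem_chart_source E m)
    rw [pow_succ] at hy
    obtain ⟨α, hα, hm⟩ := ih p a ha m (by rw [h1]; linarith)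
    obtain ⟨β, hβ, hy'⟩ := ih m _ (mem_chart_target E m) y (by rw [hψ, h2]; linarith)
    exact ⟨_, Γ.touB_join ha hα hm hβ hy' h1 h2⟩

theorem hr (ha : a ∈ (chartAt E p).target) (y : M) : ∃ v ∈ Γ.Ib p a, Γ.Ex p a v = y := by
  obtain ⟨δ, hδ0, hδ⟩ := Γ.locHR
  obtain ⟨n, hn⟩ := pow_unbounded_of_one_lt (dist ((chartAt E p).symm a) y / δ)
    (by norm_num : (1 : ℝ) < 2)
  refine Γ.touB_hr_aux hδ n p a ha y ?_
  rw [div_lt_iff₀ hδ0] at hn
  linarith

theorem midpt (ha : a ∈ (chartAt E p).target) {m y : M}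
    (h1 : dist ((chartAt E p).symm a) m = dist ((chartAt E p).symm a) y / 2)
    (h2 : dist m y = dist ((chartAt E p).symm a) y / 2) :
    ∃ v ∈ Γ.Ib p a, Γ.Ex p a v = y ∧ Γ.Ex p a ((1 / 2 : ℝ) • v) = m := by
  obtain ⟨α, hα, hm⟩ := Γ.hr ha m
  obtain ⟨β, hβ, hy⟩ := Γ.hr (mem_chart_target E m) y
  obtain ⟨h3, h4⟩ := Γ.touB_join ha hα hm hβ hy h1 h2
  refine ⟨_, h3, h4, ?_⟩
  rw [smul_smul]
  norm_num
  exact hm

theorem f7 (ha : a ∈ (chartAt E p).target) {v v' : E} (hv : v ∈ Γ.Io p a) (hv' : v' ∈ Γ.Ib p a)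
    (he : Γ.Ex p a v = Γ.Ex p a v') (t : ℝ) : Γ.Ex p a (t • v) = Γ.Ex p a (t • v') := by
  have hvb := Γ.Io_subset_Ib ha hv
  obtain ⟨c, hc, hcv⟩ := hv
  obtain ⟨y, hy⟩ : ∃ y, Γ.Ex p a v = y := ⟨_, rfl⟩
  have hy' : Γ.Ex p a v' = y := he ▸ hy
  have hms : y ∈ (chartAt E y).source := mem_chart_source E y
  have hmt : chartAt E y y ∈ (chartAt E y).target := mem_chart_target E y
  have hψ : (chartAt E y).symm (chartAt E y y) = y := (chartAt E y).left_inv hms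
  have h1 : Γ.Ex p a ((1 : ℝ) • v) = y := by rw [one_smul, hy]
  have h1' : Γ.Ex p a ((1 : ℝ) • v') = y := by rw [one_smul, hy']
  obtain ⟨w, hw1, hw2⟩ := Γ.flow p y a ha v 1 (h1 ▸ hms)
  obtain ⟨w', hw1', hw2'⟩ := Γ.flow p y a ha v' 1 (h1' ▸ hms)
  rw [h1] at hw1 hw2
  rw [h1'] at hw1' hw2'
  set L := √(Γ.G p a v v) with hL
  have dv : dist ((chartAt E p).symm a) y = L := by rw [← hy]; exact hvb
  have nv' : √(Γ.G p a v' v') = L := by
    rw [← dv, ← hy']; exact Eq.symm hv'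
  obtain ⟨ε, hε0, hε1, hεc⟩ : ∃ ε : ℝ, 0 < ε ∧ ε ≤ 1 ∧ 1 + ε ≤ c :=
    ⟨min 1 (c - 1), lt_min one_pos (by linarith), min_le_left _ _, by
      have := min_le_right 1 (c - 1); linarith⟩
  have hc0 : 0 < c := by linarith
  have hv1 : (1 + ε) • v ∈ Γ.Ib p a := by
    have := Γ.smul_mem_Ib ha hcv (s := (1 + ε) / c) (by positivity) ((div_le_one hc0).2 hεc)
    rwa [smul_smul, div_mul_cancel₀ _ hc0.ne'] at this
  have hv2 : (1 + -ε) • v' ∈ Γ.Ib p a := Γ.smul_mem_Ib ha hv' (by linarith) (by linarith)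
  have d1 : dist ((chartAt E p).symm a) (Γ.Ex p a ((1 + ε) • v)) = (1 + ε) * L := by
    have : dist _ _ = _ := hv1
    rw [this, bil_sqrt_smul, abs_of_pos (by linarith)]
  have d2 : dist ((chartAt E p).symm a) (Γ.Ex p a ((1 + -ε) • v')) = (1 - ε) * L := by
    have : dist _ _ = _ := hv2
    rw [this, bil_sqrt_smul, abs_of_nonneg (by linarith), nv']; ring
  have l1 : dist y (Γ.Ex p a ((1 + ε) • v)) ≤ ε * L := by
    have := Γ.lip p a ha v 1 (1 + ε)
    rwa [h1, show (1 : ℝ) - (1 + ε) = -ε by ring, abs_neg, abs_of_pos hε0] at this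
  have l2 : dist y (Γ.Ex p a ((1 + -ε) • v')) ≤ ε * L := by
    have := Γ.lip p a ha v' 1 (1 + -ε)
    rwa [h1', show (1 : ℝ) - (1 + -ε) = ε by ring, abs_of_pos hε0, nv'] at this
  have nw : √(Γ.G y (chartAt E y y) (ε • w) (ε • w)) = ε * L := by
    rw [bil_sqrt_smul, abs_of_pos hε0, hw1]
  have nw' : √(Γ.G y (chartAt E y y) ((-ε) • w') ((-ε) • w')) = ε * L := by
    rw [bil_sqrt_smul, abs_neg, abs_of_pos hε0, hw1', nv']
  have t1 := dist_triangle ((chartAt E p).symm a) y (Γ.Ex p a ((1 + ε) • v))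
  have t2 := dist_triangle_right ((chartAt E p).symm a) y (Γ.Ex p a ((1 + -ε) • v'))
  have t3 := dist_triangle_right ((chartAt E p).symm a) (Γ.Ex p a ((1 + ε) • v))
    (Γ.Ex p a ((1 + -ε) • v'))
  have t4 := dist_triangle ((chartAt E p).symm a) (Γ.Ex p a ((1 + -ε) • v'))
    (Γ.Ex p a ((1 + ε) • v))
  have t5 := dist_triangle_left (Γ.Ex p a ((1 + ε) • v)) (Γ.Ex p a ((1 + -ε) • v')) y
  have hα : ε • w ∈ Γ.Ib y (chartAt E y y) := by
    show dist _ _ = _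
    rw [hψ, hw2, nw]; linarith
  have hβ : (-ε) • w' ∈ Γ.Ib y (chartAt E y y) := by
    show dist _ _ = _
    rw [hψ, hw2', nw']; linarith
  have key := Γ.nc hmt hα hβ (Γ.touB_sq_eq hmt hmt (nw.trans nw'.symm)) (by
    rw [hw2, hw2', nw, nw']
    rw [dist_comm (Γ.Ex p a ((1 + -ε) • v'))] at t4
    linarith)
  have hww : w' = w := by
    rw [neg_smul, neg_inj] at key
    exact smul_right_injective E hε0.ne' key
  have e1 := hw2 (t - 1)
  have e2 := hw2' (t - 1)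
  rw [hww] at e2
  rw [add_sub_cancel] at e1 e2
  exact e1.symm.trans e2

theorem surj (ha : a ∈ (chartAt E p).target) {u : E} (hu : u ∈ Γ.Ib p a)
    (hg : GoodPair E ((chartAt E p).symm a) (Γ.Ex p a u)) :
    𝓝 (Γ.Ex p a u) ≤ map (Γ.Ex p a) (𝓝 u) := by
  intro S hS
  have h := Γ.near_min ha hu hg (U := Γ.Ex p a ⁻¹' S) hS
  have h2 : Tendsto (fun y : M => (a, y)) (𝓝 (Γ.Ex p a u)) (𝓝 (a, Γ.Ex p a u)) :=
    (Continuous.prodMk_right a).tendsto _
  filter_upwards [h2.eventually h] with y hy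
  obtain ⟨v, hv, rfl⟩ := Γ.hr ha y
  exact hy v hv rfl

end Geo

end Vale.Agent.P234
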